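import Mathlib

/-!
# Existence of optimal prices for semi-discrete quadratic transport

For a finite measure `ρ` carried by a bounded set `K` which gives no mass to hyperplanes,
distinct sites `y j` and positive masses `m j` summing to `ρ K`, there are prices `c` such that
every Laguerre cell `{x ∈ K | ∀ k, ⟪x, y k⟫ - c k ≤ ⟪x, y j⟫ - c j}` has `ρ`-mass `m j`.
-/

open MeasureTheory Set Filter Topology

namespace Vale.Agent.H68

variable {E : Type*} [NormedAddCommGroup E] [InnerProductSpace ℝ E]
variable {ι : Type*} [Fintype ι] [Nonempty ι]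

/-- the Laguerre potential `max_j (⟪x, y j⟫ - c j)` -/
noncomputable def lagPot (y : ι → E) (c : ι → ℝ) (x : E) : ℝ :=
  Finset.univ.sup' Finset.univ_nonempty (fun j => inner ℝ x (y j) - c j)

lemma le_lagPot (y : ι → E) (c : ι → ℝ) (x : E) (j : ι) :
    inner ℝ x (y j) - c j ≤ lagPot y c x :=
  Finset.le_sup' (fun j => inner ℝ x (y j) - c j) (Finset.mem_univ j)

lemma lagPot_le (y : ι → E) (c : ι → ℝ) (x : E) (a : ℝ)
    (h : ∀ j, inner ℝ x (y j) - c j ≤ a) : lagPot y c x ≤ a :=
  Finset.sup'_le _ _ (fun j _ => h j)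

lemma exists_eq_lagPot (y : ι → E) (c : ι → ℝ) (x : E) :
    ∃ j, lagPot y c x = inner ℝ x (y j) - c j := by
  obtain ⟨j, -, hj⟩ := Finset.exists_mem_eq_sup' Finset.univ_nonempty
    (fun j => inner ℝ x (y j) - c j)
  exact ⟨j, hj⟩

lemma measurable_lagPot [MeasurableSpace E] [BorelSpace E] (y : ι → E) (c : ι → ℝ) :
    Measurable (lagPot y c) := by
  have h := Finset.measurable_sup' (s := (Finset.univ : Finset ι)) Finset.univ_nonempty
    (f := fun j (x : E) => inner ℝ x (y j) - c j)
    (fun j _ => ((continuous_id.inner continuous_const).sub continuous_const).measurable)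
  have e : lagPot y c = (Finset.univ : Finset ι).sup' Finset.univ_nonempty
      (fun j (x : E) => inner ℝ x (y j) - c j) := by
    funext x
    simp [lagPot, Finset.sup'_apply]
  rw [e]
  exact h

lemma abs_lagPot_le (y : ι → E) (c : ι → ℝ) {x : E} {R : ℝ} (hx : ‖x‖ ≤ R) :
    |lagPot y c x| ≤ R * ∑ k, ‖y k‖ + ∑ k, |c k| := by
  have hR : 0 ≤ R := le_trans (norm_nonneg x) hx
  have key : ∀ j, |inner ℝ x (y j) - c j| ≤ R * ∑ k, ‖y k‖ + ∑ k, |c k| := by
    intro j
    have h1 : |inner ℝ x (y j)| ≤ R * ∑ k, ‖y k‖ := by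
      calc |inner ℝ x (y j)| ≤ ‖x‖ * ‖y j‖ := abs_real_inner_le_norm x (y j)
        _ ≤ R * ‖y j‖ := mul_le_mul_of_nonneg_right hx (norm_nonneg _)
        _ ≤ R * ∑ k, ‖y k‖ := mul_le_mul_of_nonneg_left
            (Finset.single_le_sum (f := fun k => ‖y k‖) (fun k _ => norm_nonneg _)
              (Finset.mem_univ j)) hR
    have h2 : |c j| ≤ ∑ k, |c k| :=
      Finset.single_le_sum (f := fun k => |c k|) (fun k _ => abs_nonneg _) (Finset.mem_univ j)
    calc |inner ℝ x (y j) - c j| ≤ |inner ℝ x (y j)| + |c j| := abs_sub _ _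
      _ ≤ R * ∑ k, ‖y k‖ + ∑ k, |c k| := add_le_add h1 h2
  obtain ⟨j0⟩ := ‹Nonempty ι›
  rw [abs_le]
  constructor
  · have := (abs_le.mp (key j0)).1
    have := le_lagPot y c x j0
    linarith
  · exact lagPot_le y c x _ (fun j => (abs_le.mp (key j)).2)

lemma integrableOn_lagPot [MeasurableSpace E] [BorelSpace E] (ρ : Measure E)
    [IsFiniteMeasure ρ] {K : Set E}
    (hKm : MeasurableSet K) (hKb : Bornology.IsBounded K) (y : ι → E) (c : ι → ℝ) :
    IntegrableOn (lagPot y c) K ρ := by
  obtain ⟨R, hR⟩ := hKb.exists_norm_le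
  refine Measure.integrableOn_of_bounded (M := R * ∑ k, ‖y k‖ + ∑ k, |c k|) (measure_ne_top ρ K)
    (measurable_lagPot y c).aestronglyMeasurable ?_
  refine (ae_restrict_iff' hKm).mpr (Filter.Eventually.of_forall fun x hx => ?_)
  rw [Real.norm_eq_abs]
  exact abs_lagPot_le y c (hR x hx)

lemma lagPot_le_add_dist (y : ι → E) (c c' : ι → ℝ) (x : E) :
    lagPot y c x ≤ lagPot y c' x + dist c c' := by
  refine lagPot_le y c x _ fun j => ?_
  have h1 := le_lagPot y c' x j
  have h2 : |c j - c' j| ≤ dist c c' := by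
    rw [← Real.dist_eq]
    exact dist_le_pi_dist c c' j
  have h3 := (abs_le.mp h2).1
  linarith

lemma lagPot_shift (y : ι → E) (c : ι → ℝ) (a : ℝ) (x : E) :
    lagPot y (fun j => c j + a) x = lagPot y c x - a := by
  apply le_antisymm
  · refine lagPot_le y _ x _ fun j => ?_
    have := le_lagPot y c x j
    linarith
  · obtain ⟨j, hj⟩ := exists_eq_lagPot y c x
    have := le_lagPot y (fun j => c j + a) x j
    linarith

lemma lagPot_update_le [DecidableEq ι] (y : ι → E) (c : ι → ℝ) (j : ι) {ε : ℝ} (hε : 0 ≤ ε)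
    (x : E) : lagPot y (Function.update c j (c j + ε)) x ≤ lagPot y c x := by
  refine lagPot_le y _ x _ fun k => ?_
  have := le_lagPot y c x k
  by_cases hk : k = j
  · subst hk
    rw [Function.update_self]
    linarith
  · rw [Function.update_of_ne hk]
    exact this

lemma lagPot_update_le_sub [DecidableEq ι] (y : ι → E) (c : ι → ℝ) (j : ι) (ε : ℝ) (x : E)
    (hx : ∀ k, k ≠ j → inner ℝ x (y k) - c k + ε ≤ inner ℝ x (y j) - c j) :
    lagPot y (Function.update c j (c j + ε)) x ≤ lagPot y c x - ε := by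
  refine lagPot_le y _ x _ fun k => ?_
  have hj := le_lagPot y c x j
  by_cases hk : k = j
  · subst hk
    rw [Function.update_self]
    linarith
  · rw [Function.update_of_ne hk]
    have := hx k hk
    linarith

variable [MeasurableSpace E] [BorelSpace E]

/-- the Kantorovich functional of the prices -/
noncomputable def kantFun (ρ : Measure E) (K : Set E) (y : ι → E) (m : ι → ℝ) (c : ι → ℝ) : ℝ :=
  ∫ x in K, lagPot y c x ∂ρ + ∑ j, m j * c j

lemma continuous_kantFun (ρ : Measure E) [IsFiniteMeasure ρ] {K : Set E}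
    (hKm : MeasurableSet K) (hKb : Bornology.IsBounded K) (y : ι → E) (m : ι → ℝ) :
    Continuous (kantFun ρ K y m) := by
  have hint := integrableOn_lagPot ρ hKm hKb y
  have h1 : ∀ c c' : ι → ℝ,
      ∫ x in K, lagPot y c x ∂ρ ≤ ∫ x in K, lagPot y c' x ∂ρ + ρ.real K * dist c c' := by
    intro c c'
    have hle : ∫ x in K, lagPot y c x ∂ρ ≤ ∫ x in K, (lagPot y c' x + dist c c') ∂ρ :=
      setIntegral_mono (hint c) ((hint c').add (integrableOn_const (measure_ne_top ρ K)))
        (fun x => lagPot_le_add_dist y c c' x)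
    rw [integral_add (hint c') (integrableOn_const (measure_ne_top ρ K)), setIntegral_const,
      smul_eq_mul] at hle
    exact hle
  have hc1 : Continuous fun c : ι → ℝ => ∫ x in K, lagPot y c x ∂ρ := by
    refine LipschitzWith.continuous (K := Real.toNNReal (ρ.real K)) ?_
    refine LipschitzWith.of_dist_le_mul fun c c' => ?_
    rw [Real.coe_toNNReal _ measureReal_nonneg, Real.dist_eq, abs_le]
    have a1 := h1 c c'
    have a2 := h1 c' c
    rw [dist_comm c' c] at a2
    constructor <;> linarith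
  have hc2 : Continuous fun c : ι → ℝ => ∑ j, m j * c j :=
    continuous_finsetSum _ fun j _ => continuous_const.mul (continuous_apply j)
  exact hc1.add hc2

lemma kantFun_shift (ρ : Measure E) [IsFiniteMeasure ρ] {K : Set E}
    (hKm : MeasurableSet K) (hKb : Bornology.IsBounded K) (y : ι → E) (m : ι → ℝ)
    (hsum : ∑ j, m j = ρ.real K) (c : ι → ℝ) (a : ℝ) :
    kantFun ρ K y m (fun j => c j + a) = kantFun ρ K y m c := by
  have hint := integrableOn_lagPot ρ hKm hKb y
  unfold kantFun
  simp_rw [lagPot_shift]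
  rw [integral_sub (hint c) (integrableOn_const (measure_ne_top ρ K)), setIntegral_const,
    smul_eq_mul]
  simp_rw [mul_add]
  rw [Finset.sum_add_distrib, ← Finset.sum_mul, hsum]
  ring

/-- a global minimiser of the Kantorovich functional exists -/
lemma exists_min_kantFun (ρ : Measure E) [IsFiniteMeasure ρ] {K : Set E}
    (hKm : MeasurableSet K) (hKb : Bornology.IsBounded K) (y : ι → E) (m : ι → ℝ)
    (hm : ∀ j, 0 < m j) (hsum : ∑ j, m j = ρ.real K) :
    ∃ c : ι → ℝ, ∀ c' : ι → ℝ, kantFun ρ K y m c ≤ kantFun ρ K y m c' := by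
  obtain ⟨R, hR⟩ := hKb.exists_norm_le
  have hint := integrableOn_lagPot ρ hKm hKb y
  obtain ⟨Y, hY⟩ : ∃ Y : ℝ, Y = ∑ k, ‖y k‖ := ⟨_, rfl⟩
  obtain ⟨V, hV⟩ : ∃ V : ℝ, V = ρ.real K := ⟨_, rfl⟩
  have hV0 : 0 ≤ V := by rw [hV]; exact measureReal_nonneg
  obtain ⟨jm, -, hjm⟩ := Finset.exists_min_image (Finset.univ : Finset ι) m Finset.univ_nonempty
  have hm0 : 0 < m jm := hm jm
  -- bounds on the potential over `K`
  have hpot_ge : ∀ (c : ι → ℝ) (j0 : ι), c j0 = 0 → ∀ x ∈ K, -(R * Y) ≤ lagPot y c x := by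
    intro c j0 hj0 x hx
    have h1 := le_lagPot y c x j0
    have h2 : |inner ℝ x (y j0)| ≤ R * Y := by
      have hR0 : 0 ≤ R := le_trans (norm_nonneg x) (hR x hx)
      calc |inner ℝ x (y j0)| ≤ ‖x‖ * ‖y j0‖ := abs_real_inner_le_norm x (y j0)
        _ ≤ R * ‖y j0‖ := mul_le_mul_of_nonneg_right (hR x hx) (norm_nonneg _)
        _ ≤ R * Y := by
            rw [hY]
            exact mul_le_mul_of_nonneg_left
              (Finset.single_le_sum (f := fun k => ‖y k‖) (fun k _ => norm_nonneg _)
                (Finset.mem_univ j0)) hR0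
    have h3 := (abs_le.mp h2).1
    rw [hj0] at h1
    linarith
  have hpot0 : ∀ x ∈ K, lagPot y 0 x ≤ R * Y := by
    intro x hx
    have h := abs_lagPot_le y (0 : ι → ℝ) (hR x hx)
    simp only [Pi.zero_apply, abs_zero, Finset.sum_const_zero, add_zero] at h
    rw [hY]
    exact (abs_le.mp h).2
  have hΦ0 : kantFun ρ K y m 0 ≤ R * Y * V := by
    unfold kantFun
    simp only [Pi.zero_apply, mul_zero, Finset.sum_const_zero, add_zero]
    have hle : ∫ x in K, lagPot y 0 x ∂ρ ≤ ∫ x in K, R * Y ∂ρ :=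
      setIntegral_mono_on (hint 0) (integrableOn_const (measure_ne_top ρ K)) hKm hpot0
    rw [setIntegral_const, smul_eq_mul, ← hV] at hle
    linarith
  have hΦge : ∀ (c : ι → ℝ) (j0 : ι), c j0 = 0 → (∀ j, 0 ≤ c j) → ∀ j1,
      -(R * Y * V) + m jm * c j1 ≤ kantFun ρ K y m c := by
    intro c j0 hj0 hc0 j1
    unfold kantFun
    have hle : ∫ x in K, -(R * Y) ∂ρ ≤ ∫ x in K, lagPot y c x ∂ρ :=
      setIntegral_mono_on (integrableOn_const (measure_ne_top ρ K)) (hint c) hKm
        (hpot_ge c j0 hj0)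
    rw [setIntegral_const, smul_eq_mul, ← hV] at hle
    have hs : m j1 * c j1 ≤ ∑ j, m j * c j :=
      Finset.single_le_sum (f := fun j => m j * c j)
        (fun j _ => mul_nonneg (hm j).le (hc0 j)) (Finset.mem_univ j1)
    have hs' : m jm * c j1 ≤ m j1 * c j1 :=
      mul_le_mul_of_nonneg_right (hjm j1 (Finset.mem_univ j1)) (hc0 j1)
    linarith
  -- the box
  obtain ⟨M, hM⟩ : ∃ M : ℝ, M = (2 * (R * Y * V) + 1) / m jm := ⟨_, rfl⟩
  have hRYV : 0 ≤ R * Y * V := by
    have := hΦge 0 jm rfl (fun j => le_refl _) jm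
    simp only [Pi.zero_apply, mul_zero, add_zero] at this
    linarith
  have hM0 : 0 ≤ M := by rw [hM]; positivity
  have hbox : IsCompact (Set.Icc (0 : ι → ℝ) (fun _ => M)) := isCompact_Icc
  have h0mem : (0 : ι → ℝ) ∈ Set.Icc (0 : ι → ℝ) (fun _ => M) :=
    ⟨le_refl _, fun _ => hM0⟩
  obtain ⟨cs, hcs, hmin⟩ := hbox.exists_isMinOn ⟨0, h0mem⟩
    (continuous_kantFun ρ hKm hKb y m).continuousOn
  refine ⟨cs, fun c => ?_⟩
  obtain ⟨j0, -, hj0⟩ := Finset.exists_min_image (Finset.univ : Finset ι) c Finset.univ_nonempty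
  have hshift := kantFun_shift ρ hKm hKb y m hsum c (-(c j0))
  rw [← hshift]
  have hc'0 : ∀ j, 0 ≤ c j + -(c j0) := fun j => by
    have := hj0 j (Finset.mem_univ j)
    linarith
  by_cases hb : ∀ j, c j + -(c j0) ≤ M
  · exact hmin ⟨fun j => hc'0 j, fun j => hb j⟩
  · push Not at hb
    obtain ⟨j1, hj1⟩ := hb
    have h1 := hΦge (fun j => c j + -(c j0)) j0 (by ring) hc'0 j1
    have h2 : m jm * M < m jm * (c j1 + -(c j0)) := mul_lt_mul_of_pos_left hj1 hm0
    have h3 : m jm * M = 2 * (R * Y * V) + 1 := by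
      rw [hM]
      field_simp
    have h4 : kantFun ρ K y m cs ≤ kantFun ρ K y m 0 := hmin h0mem
    linarith

/-- the set where the site `j` wins by a margin of at least `ε` -/
def marginCell (K : Set E) (y : ι → E) (c : ι → ℝ) (j : ι) (ε : ℝ) : Set E :=
  {x | x ∈ K ∧ ∀ k, k ≠ j → inner ℝ x (y k) - c k + ε ≤ inner ℝ x (y j) - c j}

omit [Nonempty ι] in
lemma measurableSet_marginCell {K : Set E} (hKm : MeasurableSet K) (y : ι → E) (c : ι → ℝ)
    (j : ι) (ε : ℝ) : MeasurableSet (marginCell K y c j ε) := by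
  have e : marginCell K y c j ε
      = K ∩ ⋂ k, {x | k ≠ j → inner ℝ x (y k) - c k + ε ≤ inner ℝ x (y j) - c j} := by
    ext x
    simp [marginCell]
  rw [e]
  refine hKm.inter (MeasurableSet.iInter fun k => ?_)
  by_cases hk : k = j
  · simp [hk]
  · simp only [ne_eq, hk, not_false_eq_true, forall_true_left]
    exact measurableSet_le
      (((continuous_id.inner continuous_const).sub continuous_const).add
        continuous_const).measurable
      ((continuous_id.inner continuous_const).sub continuous_const).measurable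

/-- first-order condition at a minimiser, for an increase of one price -/
lemma marginCell_mass_le (ρ : Measure E) [IsFiniteMeasure ρ] {K : Set E}
    (hKm : MeasurableSet K) (hKb : Bornology.IsBounded K) (y : ι → E) (m : ι → ℝ) (c : ι → ℝ)
    (hmin : ∀ c' : ι → ℝ, kantFun ρ K y m c ≤ kantFun ρ K y m c') (j : ι) {ε : ℝ} (hε : 0 < ε) :
    ρ.real (marginCell K y c j ε) ≤ m j := by
  classical
  have hint := integrableOn_lagPot ρ hKm hKb y
  have hSm := measurableSet_marginCell hKm y c j ε
  have hSK : marginCell K y c j ε ⊆ K := fun x hx => hx.1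
  have hind : IntegrableOn ((marginCell K y c j ε).indicator fun _ => ε) K ρ :=
    (integrableOn_const (measure_ne_top ρ K)).indicator hSm
  have h1 : ∫ x in K, lagPot y (Function.update c j (c j + ε)) x ∂ρ
      ≤ ∫ x in K, (lagPot y c x - (marginCell K y c j ε).indicator (fun _ => ε) x) ∂ρ := by
    refine setIntegral_mono (hint _) ((hint c).sub hind) fun x => ?_
    by_cases hx : x ∈ marginCell K y c j ε
    · simp only [Set.indicator_of_mem hx]
      exact lagPot_update_le_sub y c j ε x hx.2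
    · simp only [Set.indicator_of_notMem hx, sub_zero]
      exact lagPot_update_le y c j hε.le x
  have h2 : ∫ x in K, (marginCell K y c j ε).indicator (fun _ => ε) x ∂ρ
      = ε * ρ.real (marginCell K y c j ε) := by
    rw [integral_indicator_const ε hSm, measureReal_restrict_apply hSm,
      Set.inter_eq_left.mpr hSK, smul_eq_mul, mul_comm]
  rw [integral_sub (hint c) hind, h2] at h1
  have h3 : ∑ k, m k * Function.update c j (c j + ε) k = ∑ k, m k * c k + m j * ε := by
    have e : ∀ k, m k * Function.update c j (c j + ε) k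
        = m k * c k + (if k = j then m j * ε else 0) := by
      intro k
      by_cases hk : k = j
      · subst hk
        rw [Function.update_self, if_pos rfl]
        ring
      · rw [Function.update_of_ne hk, if_neg hk, add_zero]
    simp_rw [e]
    rw [Finset.sum_add_distrib, Finset.sum_ite_eq' Finset.univ j]
    simp
  have h4 := hmin (Function.update c j (c j + ε))
  unfold kantFun at h4
  rw [h3] at h4
  have h5 : ε * ρ.real (marginCell K y c j ε) ≤ ε * m j := by linarith
  exact le_of_mul_le_mul_left h5 hε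

/-- **Existence of optimal prices** for a finite measure giving no mass to hyperplanes. -/
theorem exists_prices_measure (ρ : Measure E) [IsFiniteMeasure ρ] {K : Set E}
    (hKm : MeasurableSet K) (hKb : Bornology.IsBounded K)
    (hnull : ∀ a : E, a ≠ 0 → ∀ b : ℝ, ρ {x | inner ℝ x a = b} = 0)
    (y : ι → E) (hy : Function.Injective y) (m : ι → ℝ) (hm : ∀ j, 0 < m j)
    (hsum : ∑ j, m j = ρ.real K) :
    ∃ c : ι → ℝ, ∀ j,
      ρ.real {x | x ∈ K ∧ ∀ k, inner ℝ x (y k) - c k ≤ inner ℝ x (y j) - c j} = m j := by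
  classical
  obtain ⟨c, hmin⟩ := exists_min_kantFun ρ hKm hKb y m hm hsum
  refine ⟨c, ?_⟩
  have hle : ∀ j,
      ρ.real {x | x ∈ K ∧ ∀ k, inner ℝ x (y k) - c k ≤ inner ℝ x (y j) - c j} ≤ m j := by
    intro j
    have hmono : Monotone fun n : ℕ => marginCell K y c j (1 / ((n : ℝ) + 1)) := by
      intro a b hab x hx
      refine ⟨hx.1, fun k hk => ?_⟩
      have h1 := hx.2 k hk
      have h2 : 1 / ((b : ℝ) + 1) ≤ 1 / ((a : ℝ) + 1) := by
        apply one_div_le_one_div_of_le (by positivity)
        have : (a : ℝ) ≤ (b : ℝ) := by exact_mod_cast hab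
        linarith
      linarith
    have hlim := tendsto_measure_iUnion_atTop (μ := ρ) hmono
    have hbound : ∀ n : ℕ,
        ρ (marginCell K y c j (1 / ((n : ℝ) + 1))) ≤ ENNReal.ofReal (m j) := by
      intro n
      have h := marginCell_mass_le ρ hKm hKb y m c hmin j (ε := 1 / ((n : ℝ) + 1))
        (by positivity)
      rw [← ENNReal.ofReal_toReal (measure_ne_top ρ _)]
      exact ENNReal.ofReal_le_ofReal h
    have hU : ρ (⋃ n : ℕ, marginCell K y c j (1 / ((n : ℝ) + 1))) ≤ ENNReal.ofReal (m j) :=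
      le_of_tendsto' hlim hbound
    have hN : ρ (⋃ k ∈ {k : ι | k ≠ j}, {x : E | inner ℝ x (y j - y k) = c j - c k}) = 0 := by
      rw [measure_biUnion_null_iff (Set.to_countable _)]
      intro k hk
      exact hnull _ (sub_ne_zero.mpr fun h => hk (hy h).symm) _
    have hsub : {x | x ∈ K ∧ ∀ k, inner ℝ x (y k) - c k ≤ inner ℝ x (y j) - c j}
        ⊆ (⋃ n : ℕ, marginCell K y c j (1 / ((n : ℝ) + 1)))
          ∪ ⋃ k ∈ {k : ι | k ≠ j}, {x : E | inner ℝ x (y j - y k) = c j - c k} := by
      rintro x ⟨hxK, hx⟩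
      by_cases hstrict : ∀ k, k ≠ j → inner ℝ x (y k) - c k < inner ℝ x (y j) - c j
      · left
        have hex : ∀ k, ∃ n : ℕ, k ≠ j →
            1 / ((n : ℝ) + 1) < inner ℝ x (y j) - c j - (inner ℝ x (y k) - c k) := by
          intro k
          by_cases hk : k = j
          · exact ⟨0, fun h => absurd hk h⟩
          · obtain ⟨n, hn⟩ := exists_nat_one_div_lt (sub_pos.mpr (hstrict k hk))
            exact ⟨n, fun _ => hn⟩
        choose nf hnf using hex
        refine Set.mem_iUnion.mpr ⟨Finset.univ.sup nf, hxK, fun k hk => ?_⟩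
        have h1 := hnf k hk
        have h2 : 1 / (((Finset.univ.sup nf : ℕ) : ℝ) + 1) ≤ 1 / ((nf k : ℝ) + 1) := by
          apply one_div_le_one_div_of_le (by positivity)
          have : (nf k : ℝ) ≤ ((Finset.univ.sup nf : ℕ) : ℝ) := by
            exact_mod_cast Finset.le_sup (f := nf) (Finset.mem_univ k)
          linarith
        linarith
      · right
        push Not at hstrict
        obtain ⟨k, hk, hge⟩ := hstrict
        refine Set.mem_biUnion (show k ∈ {k : ι | k ≠ j} from hk) ?_
        have h1 := hx k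
        show inner ℝ x (y j - y k) = c j - c k
        rw [inner_sub_right]
        linarith
    have hcell : ρ {x | x ∈ K ∧ ∀ k, inner ℝ x (y k) - c k ≤ inner ℝ x (y j) - c j}
        ≤ ENNReal.ofReal (m j) := by
      refine (measure_mono hsub).trans ((measure_union_le _ _).trans ?_)
      rw [hN, add_zero]
      exact hU
    exact ENNReal.toReal_le_of_le_ofReal (hm j).le hcell
  have hcov : K ⊆ ⋃ j, {x | x ∈ K ∧ ∀ k, inner ℝ x (y k) - c k ≤ inner ℝ x (y j) - c j} := by
    intro x hx
    obtain ⟨j, hj⟩ := exists_eq_lagPot y c x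
    refine Set.mem_iUnion.mpr ⟨j, hx, fun k => ?_⟩
    rw [← hj]
    exact le_lagPot y c x k
  have hsumle : ρ.real K
      ≤ ∑ j, ρ.real {x | x ∈ K ∧ ∀ k, inner ℝ x (y k) - c k ≤ inner ℝ x (y j) - c j} :=
    (measureReal_mono hcov).trans (measureReal_iUnion_fintype_le _)
  have hs0 : ∑ j, (m j
      - ρ.real {x | x ∈ K ∧ ∀ k, inner ℝ x (y k) - c k ≤ inner ℝ x (y j) - c j}) = 0 := by
    apply le_antisymm
    · rw [Finset.sum_sub_distrib, hsum]
      linarith
    · exact Finset.sum_nonneg fun j _ => sub_nonneg.mpr (hle j)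
  have hzero := (Finset.sum_eq_zero_iff_of_nonneg
    (fun j _ => sub_nonneg.mpr (hle j))).mp hs0
  intro j
  have := hzero j (Finset.mem_univ j)
  linarith

omit [Nonempty ι] in
lemma measurableSet_lagCell {K : Set E} (hKm : MeasurableSet K) (y : ι → E) (c : ι → ℝ)
    (j : ι) :
    MeasurableSet {x | x ∈ K ∧ ∀ k, inner ℝ x (y k) - c k ≤ inner ℝ x (y j) - c j} := by
  have e : {x | x ∈ K ∧ ∀ k, inner ℝ x (y k) - c k ≤ inner ℝ x (y j) - c j}
      = K ∩ ⋂ k, {x | inner ℝ x (y k) - c k ≤ inner ℝ x (y j) - c j} := by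
    ext x
    simp
  rw [e]
  refine hKm.inter (MeasurableSet.iInter fun k => ?_)
  exact measurableSet_le
    ((continuous_id.inner continuous_const).sub continuous_const).measurable
    ((continuous_id.inner continuous_const).sub continuous_const).measurable

/-- hyperplanes are null for an additive Haar measure -/
lemma haar_hyperplane_null [FiniteDimensional ℝ E] (μ : Measure E) [μ.IsAddHaarMeasure]
    {a : E} (ha : a ≠ 0) (b : ℝ) : μ {x | inner ℝ x a = b} = 0 := by
  by_cases hemp : {x : E | inner ℝ x a = b} = ∅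
  · rw [hemp, measure_empty]
  obtain ⟨x0, hx0⟩ := Set.nonempty_iff_ne_empty.mpr hemp
  have hx0' : inner ℝ x0 a = b := hx0
  have hker : LinearMap.ker (innerSL ℝ a : E →L[ℝ] ℝ).toLinearMap ≠ ⊤ := by
    intro htop
    have hmem : a ∈ LinearMap.ker (innerSL ℝ a : E →L[ℝ] ℝ).toLinearMap := by
      rw [htop]
      trivial
    have h0 : inner ℝ a a = 0 := by
      simpa using hmem
    exact ha (inner_self_eq_zero.mp h0)
  have hnull := Measure.addHaar_submodule μ _ hker
  have hsub : {x : E | inner ℝ x a = b}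
      ⊆ (fun x => x + (-x0)) ⁻¹' (LinearMap.ker (innerSL ℝ a : E →L[ℝ] ℝ).toLinearMap : Set E) := by
    intro x hx
    have hx' : inner ℝ x a = b := hx
    simp only [Set.mem_preimage, SetLike.mem_coe, LinearMap.mem_ker,
      ContinuousLinearMap.coe_coe, innerSL_apply_apply, inner_add_right, inner_neg_right]
    rw [real_inner_comm x a, real_inner_comm x0 a, hx', hx0']
    ring
  refine measure_mono_null hsub ?_
  rw [measure_preimage_add_right]
  exact hnull

/-- **Existence of optimal prices** for the restriction of a Haar measure to a compact set. -/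
theorem exists_prices_haar [FiniteDimensional ℝ E] (μ : Measure E) [μ.IsAddHaarMeasure]
    {K : Set E} (hK : IsCompact K) (y : ι → E) (hy : Function.Injective y) (m : ι → ℝ)
    (hm : ∀ j, 0 < m j) (hsum : ∑ j, m j = μ.real K) :
    ∃ c : ι → ℝ, ∀ j,
      μ.real {x | x ∈ K ∧ ∀ k, inner ℝ x (y k) - c k ≤ inner ℝ x (y j) - c j} = m j := by
  have hKm : MeasurableSet K := hK.measurableSet
  have : IsFiniteMeasure (μ.restrict K) :=
    ⟨by rw [Measure.restrict_apply_univ]; exact hK.measure_lt_top⟩
  have hnull : ∀ a : E, a ≠ 0 → ∀ b : ℝ, (μ.restrict K) {x | inner ℝ x a = b} = 0 :=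
    fun a ha b => le_antisymm
      ((Measure.restrict_le_self _).trans (haar_hyperplane_null μ ha b).le) zero_le
  have hsum' : ∑ j, m j = (μ.restrict K).real K := by
    rw [measureReal_restrict_apply_self]
    exact hsum
  obtain ⟨c, hc⟩ := exists_prices_measure (μ.restrict K) hKm hK.isBounded hnull y hy m hm hsum'
  refine ⟨c, fun j => ?_⟩
  have h := hc j
  rw [measureReal_restrict_apply (measurableSet_lagCell hKm y c j),
    Set.inter_eq_left.mpr (fun x hx => hx.1)] at h
  exact h

omit [NormedAddCommGroup E] [InnerProductSpace ℝ E] [BorelSpace E] in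
/-- the real mass of a set for a measure with bounded nonnegative density -/
lemma withDensity_real_eq (μ : Measure E) {K : Set E} (hKfin : μ K ≠ ⊤) (f : E → ℝ)
    (hf : Measurable f) (hf0 : ∀ x, 0 ≤ f x) (hfb : ∃ M, ∀ x, f x ≤ M) {S : Set E}
    (hS : MeasurableSet S) :
    ((μ.restrict K).withDensity fun x => ENNReal.ofReal (f x)).real S
      = ∫ x in S ∩ K, f x ∂μ := by
  obtain ⟨M, hM⟩ := hfb
  have hfin : μ (S ∩ K) ≠ ⊤ := measure_ne_top_of_subset Set.inter_subset_right hKfin
  have hint : IntegrableOn f (S ∩ K) μ :=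
    Measure.integrableOn_of_bounded (M := M) hfin hf.aestronglyMeasurable
      (Filter.Eventually.of_forall fun x => by
        rw [Real.norm_eq_abs, abs_of_nonneg (hf0 x)]
        exact hM x)
  rw [Measure.real, withDensity_apply _ hS, Measure.restrict_restrict hS,
    ← ofReal_integral_eq_lintegral_ofReal hint (Filter.Eventually.of_forall hf0),
    ENNReal.toReal_ofReal (integral_nonneg fun x => hf0 x)]

/-- **Existence of optimal prices** for a source with bounded nonnegative density with respect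
to a Haar measure on a compact set. -/
theorem exists_prices_density [FiniteDimensional ℝ E] (μ : Measure E) [μ.IsAddHaarMeasure]
    {K : Set E} (hK : IsCompact K) (y : ι → E) (hy : Function.Injective y) (f : E → ℝ)
    (hf : Measurable f) (hf0 : ∀ x, 0 ≤ f x) (hfb : ∃ M, ∀ x, f x ≤ M) (m : ι → ℝ)
    (hm : ∀ j, 0 < m j) (hsum : ∑ j, m j = ∫ x in K, f x ∂μ) :
    ∃ c : ι → ℝ, ∀ j,
      ∫ x in {x | x ∈ K ∧ ∀ k, inner ℝ x (y k) - c k ≤ inner ℝ x (y j) - c j}, f x ∂μ = m j := by
  have hKm : MeasurableSet K := hK.measurableSet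
  have hKfin : μ K ≠ ⊤ := hK.measure_lt_top.ne
  have hreal := fun (S : Set E) (hS : MeasurableSet S) =>
    withDensity_real_eq μ hKfin f hf hf0 hfb hS
  have : IsFiniteMeasure ((μ.restrict K).withDensity fun x => ENNReal.ofReal (f x)) := by
    refine ⟨?_⟩
    obtain ⟨M, hM⟩ := hfb
    rw [withDensity_apply _ MeasurableSet.univ, Measure.restrict_univ]
    calc ∫⁻ x, ENNReal.ofReal (f x) ∂(μ.restrict K)
        ≤ ∫⁻ _, ENNReal.ofReal M ∂(μ.restrict K) :=
          lintegral_mono fun x => ENNReal.ofReal_le_ofReal (hM x)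
      _ = ENNReal.ofReal M * μ K := by
          rw [lintegral_const, Measure.restrict_apply_univ]
      _ < ⊤ := ENNReal.mul_lt_top ENNReal.ofReal_lt_top hK.measure_lt_top
  have hnull : ∀ a : E, a ≠ 0 → ∀ b : ℝ,
      ((μ.restrict K).withDensity fun x => ENNReal.ofReal (f x)) {x | inner ℝ x a = b} = 0 := by
    intro a ha b
    have h0 : (μ.restrict K) {x | inner ℝ x a = b} = 0 :=
      le_antisymm ((Measure.restrict_le_self _).trans (haar_hyperplane_null μ ha b).le)
        zero_le
    exact withDensity_absolutelyContinuous _ _ h0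
  have hsum' : ∑ j, m j
      = ((μ.restrict K).withDensity fun x => ENNReal.ofReal (f x)).real K := by
    rw [hreal K hKm, Set.inter_self]
    exact hsum
  obtain ⟨c, hc⟩ := exists_prices_measure _ hKm hK.isBounded hnull y hy m hm hsum'
  refine ⟨c, fun j => ?_⟩
  have h := hc j
  rw [hreal _ (measurableSet_lagCell hKm y c j),
    Set.inter_eq_left.mpr (fun x hx => hx.1)] at h
  exact h

end Vale.Agent.H68
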