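import Vale.Agent.H22.OT.Defs
import Vale.Agent.H68.OTExist

/-!
# Existence of optimal prices (row S of the P074 plan)

Specialisation of `Vale.Agent.H68.exists_prices_density` to the conventions of
`Vale.Agent.H22.OT.Defs`.
-/

open MeasureTheory Set

namespace Vale.Agent.H68

/-- **Existence of optimal prices (semi-discrete optimal transport).** For a compact set `K`,
a source density `1 + g` with `|g| ≤ 1/2`, distinct sites `y j` and positive masses `m j` summing
to the total mass of the source on `K`, there is a price vector for which every Laguerre cell has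
the prescribed mass. -/
theorem exists_optPrice {d : ℕ} {ι : Type*} [Fintype ι] [Nonempty ι]
    {K : Set (EuclideanSpace ℝ (Fin d))} (hKc : IsCompact K)
    (g : EuclideanSpace ℝ (Fin d) → ℝ) (hg : Measurable g) (hgb : ∀ x, |g x| ≤ 1 / 2)
    (y : ι → EuclideanSpace ℝ (Fin d)) (hy : Function.Injective y)
    (m : ι → ℝ) (hm : ∀ j, 0 < m j) (hsum : ∑ j, m j = ∫ x in K, (1 + g x)) :
    ∃ c : ι → ℝ, Vale.Agent.H22.OT.IsOptPrice K g y m c := by
  have hf0 : ∀ x, 0 ≤ 1 + g x := fun x => by
    have := (abs_le.mp (hgb x)).1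
    linarith
  have hfb : ∃ M : ℝ, ∀ x, 1 + g x ≤ M := ⟨3 / 2, fun x => by
    have := (abs_le.mp (hgb x)).2
    linarith⟩
  obtain ⟨c, hc⟩ := exists_prices_density (volume : Measure (EuclideanSpace ℝ (Fin d))) hKc y hy
    (fun x => 1 + g x) (measurable_const.add hg) hf0 hfb m hm hsum
  exact ⟨c, fun j => hc j⟩

end Vale.Agent.H68
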