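import Mathlib

open MeasureTheory Set

namespace Vale.Agent.H68

/-- one-dimensional Gamma integral with an indicator, integrability -/
lemma integrable_expMoment (j : ℕ) :
    Integrable (fun s : ℝ => if 0 ≤ s then Real.exp (-s) * s ^ j else 0) := by
  have h := Real.GammaIntegral_convergent (s := (j : ℝ) + 1) (by positivity)
  have h2 : IntegrableOn (fun s : ℝ => Real.exp (-s) * s ^ j) (Ioi 0) := by
    refine h.congr_fun (fun x hx => ?_) measurableSet_Ioi
    simp only [add_sub_cancel_right, Real.rpow_natCast]
  have h3 : IntegrableOn (fun s : ℝ => Real.exp (-s) * s ^ j) (Ici 0) :=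
    Iff.mpr integrableOn_Ici_iff_integrableOn_Ioi h2
  have h4 := (integrable_indicator_iff measurableSet_Ici).mpr h3
  refine h4.congr (Filter.Eventually.of_forall fun s => ?_)
  simp [Set.indicator, Set.mem_Ici]

lemma integral_expMoment (j : ℕ) :
    ∫ s : ℝ, (if 0 ≤ s then Real.exp (-s) * s ^ j else 0) = (j.factorial : ℝ) := by
  have h1 : (fun s : ℝ => if 0 ≤ s then Real.exp (-s) * s ^ j else 0)
      = (Ici (0:ℝ)).indicator (fun s : ℝ => Real.exp (-s) * s ^ j) := by
    funext s
    simp [Set.indicator, Set.mem_Ici]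
  rw [h1, integral_indicator measurableSet_Ici, integral_Ici_eq_integral_Ioi,
    ← Real.Gamma_nat_eq_factorial, Real.Gamma_eq_integral (by positivity)]
  refine setIntegral_congr_fun measurableSet_Ioi (fun x hx => ?_)
  simp only [add_sub_cancel_right, Real.rpow_natCast]

variable {N : ℕ}

/-- exponent of the one-dimensional factor -/
def expo (k l m : Fin N) : ℕ := (if m = k then 1 else 0) + (if m = l then 1 else 0)

lemma orthant_monomial_eq (k l : Fin N) (t : Fin N → ℝ) :
    (if ∀ m, 0 ≤ t m then Real.exp (-∑ m, t m) * (t k * t l) else 0)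
      = ∏ m, (if 0 ≤ t m then Real.exp (-(t m)) * (t m) ^ (expo k l m) else 0) := by
  by_cases h : ∀ m, 0 ≤ t m
  · rw [if_pos h]
    have : ∀ m ∈ Finset.univ, (if 0 ≤ t m then Real.exp (-(t m)) * (t m) ^ (expo k l m) else 0)
        = Real.exp (-(t m)) * ((if m = k then t m else 1) * (if m = l then t m else 1)) := by
      intro m _
      rw [if_pos (h m)]
      unfold expo
      rcases eq_or_ne m k with rfl | h1 <;> rcases eq_or_ne m l with rfl | h2 <;>
        simp_all [pow_two]
    rw [Finset.prod_congr rfl this, Finset.prod_mul_distrib, Finset.prod_mul_distrib,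
      ← Real.exp_sum, Finset.sum_neg_distrib]
    simp
  · rw [if_neg h]
    obtain ⟨m, hm⟩ := not_forall.mp h
    symm
    apply Finset.prod_eq_zero (Finset.mem_univ m)
    rw [if_neg hm]

lemma integrable_orthant_monomial (k l : Fin N) :
    Integrable (fun t : Fin N → ℝ =>
      if ∀ m, 0 ≤ t m then Real.exp (-∑ m, t m) * (t k * t l) else 0) := by
  have h := Integrable.fintype_prod (μ := fun _ : Fin N => (volume : Measure ℝ))
    (f := fun (m : Fin N) (s : ℝ) => if 0 ≤ s then Real.exp (-s) * s ^ (expo k l m) else 0)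
    (fun m => integrable_expMoment _)
  refine h.congr (Filter.Eventually.of_forall fun t => ?_)
  exact (orthant_monomial_eq k l t).symm

lemma integral_orthant_monomial (k l : Fin N) :
    ∫ t : Fin N → ℝ, (if ∀ m, 0 ≤ t m then Real.exp (-∑ m, t m) * (t k * t l) else 0)
      = if k = l then 2 else 1 := by
  simp_rw [orthant_monomial_eq]
  rw [integral_fintype_prod_volume_eq_prod
    (fun (m : Fin N) (s : ℝ) => if 0 ≤ s then Real.exp (-s) * s ^ (expo k l m) else 0)]
  simp_rw [integral_expMoment]
  by_cases hkl : k = l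
  · subst hkl
    rw [if_pos rfl]
    have : ∀ m ∈ Finset.univ, ((expo k k m).factorial : ℝ) = if m = k then 2 else 1 := by
      intro m _
      unfold expo
      by_cases h1 : m = k <;> simp [h1]
    rw [Finset.prod_congr rfl this]
    simp
  · rw [if_neg hkl]
    apply Finset.prod_eq_one
    intro m _
    unfold expo
    rcases eq_or_ne m k with rfl | h1 <;> rcases eq_or_ne m l with rfl | h2 <;>
      simp_all

end Vale.Agent.H68
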