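import Mathlib
import Vale.Agent.H68.Orthant

open MeasureTheory Set

namespace Vale.Agent.H68

variable {N : ℕ}

lemma orthant_quadratic_eq (W : Matrix (Fin N) (Fin N) ℝ) (a b : Fin N) (t : Fin N → ℝ) :
    (if ∀ m, 0 ≤ t m then Real.exp (-∑ m, t m) * ((W.mulVec t) a * (W.mulVec t) b) else 0)
      = ∑ k, ∑ l, W a k * W b l *
          (if ∀ m, 0 ≤ t m then Real.exp (-∑ m, t m) * (t k * t l) else 0) := by
  by_cases h : ∀ m, 0 ≤ t m
  · simp only [if_pos h, Matrix.mulVec, dotProduct]
    rw [Finset.sum_mul_sum, Finset.mul_sum]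
    refine Finset.sum_congr rfl fun k _ => ?_
    rw [Finset.mul_sum]
    refine Finset.sum_congr rfl fun l _ => ?_
    ring
  · simp [if_neg h]

lemma integrable_orthant_quadratic (W : Matrix (Fin N) (Fin N) ℝ) (a b : Fin N) :
    Integrable (fun t : Fin N → ℝ =>
      if ∀ m, 0 ≤ t m then Real.exp (-∑ m, t m) * ((W.mulVec t) a * (W.mulVec t) b) else 0) := by
  simp_rw [orthant_quadratic_eq]
  refine integrable_finsetSum _ fun k _ => integrable_finsetSum _ fun l _ => ?_
  exact (integrable_orthant_monomial k l).const_mul _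

lemma integral_orthant_quadratic (W : Matrix (Fin N) (Fin N) ℝ) (a b : Fin N) :
    ∫ t : Fin N → ℝ,
      (if ∀ m, 0 ≤ t m then Real.exp (-∑ m, t m) * ((W.mulVec t) a * (W.mulVec t) b) else 0)
      = ∑ k, W a k * W b k + (∑ k, W a k) * (∑ l, W b l) := by
  simp_rw [orthant_quadratic_eq]
  rw [integral_finsetSum _ fun k _ => integrable_finsetSum _ fun l _ =>
    (integrable_orthant_monomial k l).const_mul _]
  have : ∀ k ∈ Finset.univ, ∫ t : Fin N → ℝ, ∑ l, W a k * W b l *
          (if ∀ m, 0 ≤ t m then Real.exp (-∑ m, t m) * (t k * t l) else 0)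
        = W a k * W b k + W a k * ∑ l, W b l := by
    intro k _
    rw [integral_finsetSum _ fun l _ => (integrable_orthant_monomial k l).const_mul _]
    simp_rw [integral_const_mul, integral_orthant_monomial]
    have : ∀ l ∈ Finset.univ, W a k * W b l * (if k = l then (2:ℝ) else 1)
        = (if k = l then W a k * W b l else 0) + W a k * W b l := by
      intro l _
      by_cases h : k = l <;> simp [h]
      ring
    rw [Finset.sum_congr rfl this, Finset.sum_add_distrib, Finset.sum_ite_eq, Finset.mul_sum]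
    simp
  rw [Finset.sum_congr rfl this, Finset.sum_add_distrib, Finset.sum_mul]

lemma map_mulVec_volume (W : Matrix (Fin N) (Fin N) ℝ) (hW : W.det ≠ 0) :
    Measure.map (fun t : Fin N → ℝ => W.mulVec t) volume
      = ENNReal.ofReal |W.det⁻¹| • (volume : Measure (Fin N → ℝ)) := by
  have h := Measure.map_linearMap_addHaar_eq_smul_addHaar (volume : Measure (Fin N → ℝ))
    (f := Matrix.toLin' W) (by rwa [LinearMap.det_toLin'])
  rw [LinearMap.det_toLin'] at h
  rw [← h]
  congr 1

lemma measurableEmbedding_mulVec (W : Matrix (Fin N) (Fin N) ℝ) (hW : W.det ≠ 0) :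
    MeasurableEmbedding (fun t : Fin N → ℝ => W.mulVec t) := by
  have hdet : LinearMap.det (Matrix.toLin' W) ≠ 0 := by rwa [LinearMap.det_toLin']
  exact ((Matrix.toLin' W).equivOfDetNeZero
    hdet).toContinuousLinearEquiv.toHomeomorph.measurableEmbedding

lemma integral_comp_mulVec (W : Matrix (Fin N) (Fin N) ℝ) (hW : W.det ≠ 0)
    (F : (Fin N → ℝ) → ℝ) :
    ∫ t, F (W.mulVec t) = |W.det|⁻¹ * ∫ y, F y := by
  rw [← (measurableEmbedding_mulVec W hW).integral_map, map_mulVec_volume W hW,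
    integral_smul_measure, ENNReal.toReal_ofReal (abs_nonneg _), abs_inv, smul_eq_mul]

lemma integrable_comp_mulVec_iff (W : Matrix (Fin N) (Fin N) ℝ) (hW : W.det ≠ 0)
    (F : (Fin N → ℝ) → ℝ) :
    Integrable (fun t => F (W.mulVec t)) ↔ Integrable F := by
  have h := (measurableEmbedding_mulVec W hW).integrable_map_iff (μ := volume) (g := F)
  rw [map_mulVec_volume W hW] at h
  rw [← integrable_smul_measure (c := ENNReal.ofReal |W.det⁻¹|) (μ := volume) (f := F)
    (by simpa using hW) ENNReal.ofReal_ne_top]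
  exact h.symm

variable {n : ℕ}

/-- the lift `x ↦ (1, x)` -/
def lift (x : Fin n → ℝ) : Fin (n + 1) → ℝ := Fin.cons 1 x

@[simp] lemma lift_zero (x : Fin n → ℝ) : lift x 0 = 1 := rfl
@[simp] lemma lift_succ (x : Fin n → ℝ) (j : Fin n) : lift x j.succ = x j := rfl

lemma integral_slice (F : (Fin (n + 1) → ℝ) → ℝ) (hF : Integrable F) :
    ∫ y, F y = ∫ h : ℝ, ∫ z : Fin n → ℝ, F (Fin.cons h z) := by
  have hem : MeasurePreserving (MeasurableEquiv.piFinSuccAbove (fun _ : Fin (n + 1) => ℝ) 0).symm :=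
    (volume_preserving_piFinSuccAbove (fun _ : Fin (n + 1) => ℝ) 0).symm _
  rw [← hem.integral_comp', Measure.volume_eq_prod, integral_prod]
  · congr 1
    funext h
    congr 1
    funext z
    congr 1
    simp [MeasurableEquiv.piFinSuccAbove_symm_apply, Fin.insertNthEquiv]
  · exact (hem.integrable_comp_emb (MeasurableEquiv.measurableEmbedding _)).mpr hF

lemma smul_lift (h : ℝ) (x : Fin n → ℝ) : h • lift x = Fin.cons h (h • x) := by
  funext i
  refine Fin.cases ?_ (fun j => ?_) i
  · simp [lift]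
  · simp [lift]

lemma integral_cons_scale (F : (Fin (n + 1) → ℝ) → ℝ) {h : ℝ} (hh : 0 < h) :
    ∫ z : Fin n → ℝ, F (Fin.cons h z) = h ^ n * ∫ x : Fin n → ℝ, F (h • lift x) := by
  have h1 := Measure.integral_comp_inv_smul_of_nonneg (volume : Measure (Fin n → ℝ))
    (fun x : Fin n → ℝ => F (h • lift x)) hh.le
  rw [Module.finrank_fin_fun, smul_eq_mul] at h1
  rw [← h1]
  congr 1
  funext z
  rw [smul_lift, smul_smul, mul_inv_cancel₀ hh.ne', one_smul]

lemma integral_cone (F : (Fin (n + 1) → ℝ) → ℝ) (hF : Integrable F)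
    (T : Set (Fin n → ℝ)) (hT : MeasurableSet T) (a b : Fin (n + 1))
    (h0 : ∀ y : Fin (n + 1) → ℝ, y 0 ≤ 0 → F y = 0)
    (h1 : ∀ h : ℝ, 0 < h → ∀ x : Fin n → ℝ, F (h • lift x)
      = T.indicator (fun x => Real.exp (-h) * h ^ 2 * (lift x a * lift x b)) x) :
    ∫ y, F y = ((n + 2).factorial : ℝ) * ∫ x in T, lift x a * lift x b := by
  rw [integral_slice F hF]
  have key : ∀ h : ℝ, ∫ z : Fin n → ℝ, F (Fin.cons h z)
      = (if 0 ≤ h then Real.exp (-h) * h ^ (n + 2) else 0) * ∫ x in T, lift x a * lift x b := by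
    intro h
    rcases le_or_gt h 0 with hh | hh
    · have : ∀ z : Fin n → ℝ, F (Fin.cons h z) = 0 := fun z => h0 _ (by simpa using hh)
      simp only [this, integral_zero]
      rcases hh.lt_or_eq with hlt | heq
      · rw [if_neg (not_le.mpr hlt), zero_mul]
      · subst heq
        simp
    · rw [integral_cons_scale F hh, if_pos hh.le]
      simp only [h1 h hh]
      rw [integral_indicator hT, integral_const_mul]
      ring
  simp_rw [key]
  rw [integral_mul_const, integral_expMoment]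

/-- lifted vertex matrix: column `k` is `(1, w k)` -/
def liftMat {m : ℕ} (w : Fin m → Fin n → ℝ) : Matrix (Fin (n + 1)) (Fin m) ℝ :=
  Matrix.of fun a k => lift (w k) a

@[simp] lemma liftMat_zero {m : ℕ} (w : Fin m → Fin n → ℝ) (k : Fin m) : liftMat w 0 k = 1 := rfl
@[simp] lemma liftMat_succ {m : ℕ} (w : Fin m → Fin n → ℝ) (j : Fin n) (k : Fin m) :
    liftMat w j.succ k = w k j := rfl

lemma mem_convexHull_range_iff {m : ℕ} (w : Fin m → Fin n → ℝ) (x : Fin n → ℝ) :
    x ∈ convexHull ℝ (Set.range w) ↔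
      ∃ t : Fin m → ℝ, (∀ k, 0 ≤ t k) ∧ ∑ k, t k = 1 ∧ ∑ k, t k • w k = x := by
  constructor
  · intro hx
    refine convexHull_min (t := {x | ∃ t : Fin m → ℝ, (∀ k, 0 ≤ t k) ∧ ∑ k, t k = 1 ∧
      ∑ k, t k • w k = x}) ?_ ?_ hx
    · rintro _ ⟨k, rfl⟩
      refine ⟨Pi.single k 1, fun j => ?_, ?_, ?_⟩
      · by_cases h : j = k <;> simp [h]
      · simp
      · simp [Pi.single_apply]
    · rintro x ⟨t, ht0, ht1, rfl⟩ y ⟨s, hs0, hs1, rfl⟩ a b ha hb hab
      refine ⟨fun k => a * t k + b * s k, fun k => ?_, ?_, ?_⟩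
      · have := ht0 k
        have := hs0 k
        positivity
      · rw [Finset.sum_add_distrib, ← Finset.mul_sum, ← Finset.mul_sum, ht1, hs1]
        linarith
      · simp_rw [add_smul, mul_smul]
        rw [Finset.sum_add_distrib, ← Finset.smul_sum, ← Finset.smul_sum]
  · rintro ⟨t, ht0, ht1, rfl⟩
    exact (convex_convexHull ℝ _).sum_mem (fun i _ => ht0 i) ht1
      (fun i _ => subset_convexHull ℝ _ (Set.mem_range_self i))

lemma liftMat_mulVec_zero {m : ℕ} (w : Fin m → Fin n → ℝ) (t : Fin m → ℝ) :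
    (liftMat w).mulVec t 0 = ∑ k, t k := by
  simp [Matrix.mulVec, dotProduct]

lemma liftMat_mulVec_succ {m : ℕ} (w : Fin m → Fin n → ℝ) (t : Fin m → ℝ) (j : Fin n) :
    (liftMat w).mulVec t j.succ = (∑ k, t k • w k) j := by
  simp [Matrix.mulVec, dotProduct, mul_comm]

lemma mem_convexHull_range_iff_lift {m : ℕ} (w : Fin m → Fin n → ℝ) (x : Fin n → ℝ) :
    x ∈ convexHull ℝ (Set.range w) ↔
      ∃ t : Fin m → ℝ, (∀ k, 0 ≤ t k) ∧ (liftMat w).mulVec t = lift x := by
  rw [mem_convexHull_range_iff]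
  constructor
  · rintro ⟨t, ht0, ht1, rfl⟩
    refine ⟨t, ht0, ?_⟩
    funext i
    refine Fin.cases ?_ (fun j => ?_) i
    · rw [liftMat_mulVec_zero, ht1, lift_zero]
    · rw [liftMat_mulVec_succ, lift_succ]
  · rintro ⟨t, ht0, ht⟩
    refine ⟨t, ht0, ?_, ?_⟩
    · rw [← liftMat_mulVec_zero w t, ht, lift_zero]
    · funext j
      rw [← liftMat_mulVec_succ w t j, ht, lift_succ]

lemma mem_convexHull_range_iff_inv (w : Fin (n + 1) → Fin n → ℝ) (hW : (liftMat w).det ≠ 0)
    (x : Fin n → ℝ) :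
    x ∈ convexHull ℝ (Set.range w) ↔ ∀ m, 0 ≤ ((liftMat w)⁻¹.mulVec (lift x)) m := by
  have hu : IsUnit (liftMat w).det := isUnit_iff_ne_zero.mpr hW
  rw [mem_convexHull_range_iff_lift]
  constructor
  · rintro ⟨t, ht0, ht⟩
    rw [← ht, Matrix.mulVec_mulVec, Matrix.nonsing_inv_mul _ hu, Matrix.one_mulVec]
    exact ht0
  · intro h
    refine ⟨_, h, ?_⟩
    rw [Matrix.mulVec_mulVec, Matrix.mul_nonsing_inv _ hu, Matrix.one_mulVec]

theorem simplex_moment (w : Fin (n + 1) → Fin n → ℝ) (hW : (liftMat w).det ≠ 0)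
    (a b : Fin (n + 1)) :
    ∫ x in convexHull ℝ (Set.range w), lift x a * lift x b
      = |(liftMat w).det| / ((n + 2).factorial : ℝ) *
        (∑ k, liftMat w a k * liftMat w b k + (∑ k, liftMat w a k) * (∑ l, liftMat w b l)) := by
  classical
  set W := liftMat w with hWdef
  have hu : IsUnit W.det := isUnit_iff_ne_zero.mpr hW
  let F : (Fin (n + 1) → ℝ) → ℝ := fun y =>
    if 0 < y 0 ∧ ∀ m, 0 ≤ (W⁻¹.mulVec y) m then Real.exp (-(y 0)) * (y a * y b) else 0
  have hFG : ∀ t : Fin (n + 1) → ℝ, F (W.mulVec t)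
      = if ∀ m, 0 ≤ t m then Real.exp (-∑ m, t m) * ((W.mulVec t) a * (W.mulVec t) b) else 0 := by
    intro t
    have h1 : W⁻¹.mulVec (W.mulVec t) = t := by
      rw [Matrix.mulVec_mulVec, Matrix.nonsing_inv_mul _ hu, Matrix.one_mulVec]
    have h2 : W.mulVec t 0 = ∑ k, t k := liftMat_mulVec_zero w t
    simp only [F, h1, h2]
    by_cases ht : ∀ m, 0 ≤ t m
    · by_cases hs : 0 < ∑ k, t k
      · rw [if_pos ⟨hs, ht⟩, if_pos ht]
      · rw [if_neg (fun h => hs h.1), if_pos ht]
        have hz : ∀ k, t k = 0 := by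
          have hsum : ∑ k, t k = 0 :=
            le_antisymm (not_lt.mp hs) (Finset.sum_nonneg fun k _ => ht k)
          intro k
          exact (Finset.sum_eq_zero_iff_of_nonneg (fun k _ => ht k)).mp hsum k (Finset.mem_univ k)
        have ht0 : t = 0 := funext hz
        subst ht0
        simp
    · rw [if_neg (fun h => ht h.2), if_neg ht]
  have hFint : Integrable F := by
    rw [← integrable_comp_mulVec_iff W hW F]
    simp_rw [hFG]
    exact integrable_orthant_quadratic W a b
  have hF1 : ∫ y, F y = |W.det| * (∑ k, W a k * W b k + (∑ k, W a k) * (∑ l, W b l)) := by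
    have h := integral_comp_mulVec W hW F
    simp_rw [hFG] at h
    rw [integral_orthant_quadratic] at h
    have hpos : 0 < |W.det| := abs_pos.mpr hW
    rw [h]
    field_simp
  have hT : MeasurableSet (convexHull ℝ (Set.range w)) :=
    ((Set.finite_range w).isCompact_convexHull ℝ).isClosed.measurableSet
  have hF2 := integral_cone F hFint (convexHull ℝ (Set.range w)) hT a b
    (fun y hy => by
      simp only [F]
      rw [if_neg (fun h => (not_lt.mpr hy) h.1)])
    (fun h hh x => by
      have hc : (∀ m, 0 ≤ (W⁻¹.mulVec (h • lift x)) m) ↔ x ∈ convexHull ℝ (Set.range w) := by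
        rw [mem_convexHull_range_iff_inv w hW, Matrix.mulVec_smul]
        constructor
        · intro hm m
          have := hm m
          simp only [Pi.smul_apply, smul_eq_mul] at this
          exact (mul_nonneg_iff_of_pos_left hh).mp this
        · intro hm m
          simp only [Pi.smul_apply, smul_eq_mul]
          exact mul_nonneg hh.le (hm m)
      simp only [F, Set.indicator]
      have h0 : (h • lift x) 0 = h := by simp
      rw [h0]
      by_cases hx : x ∈ convexHull ℝ (Set.range w)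
      · rw [if_pos ⟨hh, hc.mpr hx⟩, if_pos hx]
        simp only [Pi.smul_apply, smul_eq_mul]
        ring
      · rw [if_neg (fun h' => hx (hc.mp h'.2)), if_neg hx])
  rw [hF1] at hF2
  have hfac : (0:ℝ) < ((n + 2).factorial : ℝ) := by positivity
  rw [div_mul_eq_mul_div, eq_div_iff hfac.ne', mul_comm, ← hF2]


end Vale.Agent.H68
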