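import Mathlib
import Vale.Agent.H68.Simplex

open MeasureTheory Set

namespace Vale.Agent.H68

variable {n : ℕ}

/-- the signed maximal minors of the lifted `(n+1) × (n+2)` matrix: an affine dependence -/
noncomputable def dep (v : Fin (n + 2) → Fin n → ℝ) (i : Fin (n + 2)) : ℝ :=
  (-1) ^ (i : ℕ) * (liftMat (v ∘ i.succAbove)).det

lemma liftMat_comp_succAbove (v : Fin (n + 2) → Fin n → ℝ) (i : Fin (n + 2))
    (a : Fin (n + 1)) (k : Fin (n + 1)) :
    liftMat (v ∘ i.succAbove) a k = liftMat v a (i.succAbove k) := rfl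

/-- the matrix `V` with an extra first row `r` -/
def border (r : Fin (n + 2) → ℝ) (V : Matrix (Fin (n + 1)) (Fin (n + 2)) ℝ) :
    Matrix (Fin (n + 2)) (Fin (n + 2)) ℝ :=
  Matrix.of fun i j => Fin.cases (r j) (fun a => V a j) i

@[simp] lemma border_zero (r : Fin (n + 2) → ℝ) (V : Matrix (Fin (n + 1)) (Fin (n + 2)) ℝ)
    (j : Fin (n + 2)) : border r V 0 j = r j := rfl

@[simp] lemma border_succ (r : Fin (n + 2) → ℝ) (V : Matrix (Fin (n + 1)) (Fin (n + 2)) ℝ)
    (a : Fin (n + 1)) (j : Fin (n + 2)) : border r V a.succ j = V a j := rfl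

/-- Laplace expansion: pairing a vector with the dependence is a bordered determinant -/
lemma sum_mul_dep (v : Fin (n + 2) → Fin n → ℝ) (r : Fin (n + 2) → ℝ) :
    ∑ j, r j * dep v j = (border r (liftMat v)).det := by
  rw [Matrix.det_succ_row_zero]
  refine Finset.sum_congr rfl fun j _ => ?_
  have : (border r (liftMat v)).submatrix Fin.succ j.succAbove = liftMat (v ∘ j.succAbove) := by
    ext a k
    simp [Matrix.submatrix, liftMat_comp_succAbove]
  rw [this, border_zero]
  simp only [dep]
  ring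

lemma liftMat_mulVec_dep (v : Fin (n + 2) → Fin n → ℝ) : (liftMat v).mulVec (dep v) = 0 := by
  funext a
  simp only [Matrix.mulVec, dotProduct, Pi.zero_apply]
  rw [sum_mul_dep v (fun j => liftMat v a j)]
  refine Matrix.det_zero_of_row_eq (i := 0) (j := a.succ) (Fin.succ_ne_zero a).symm ?_
  funext j
  simp

lemma sum_dep (v : Fin (n + 2) → Fin n → ℝ) : ∑ j, dep v j = 0 := by
  have h := congrFun (liftMat_mulVec_dep v) 0
  rw [liftMat_mulVec_zero] at h
  simpa using h

/-- if the rows of the lifted matrix are independent then the dependence is nonzero -/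
lemma dep_ne_zero (v : Fin (n + 2) → Fin n → ℝ)
    (hrow : ∀ α : Fin (n + 1) → ℝ, Matrix.vecMul α (liftMat v) = 0 → α = 0) : dep v ≠ 0 := by
  intro hd
  -- a nonzero kernel vector `e`
  have hdet0 : (border 0 (liftMat v)).det = 0 :=
    Matrix.det_eq_zero_of_row_eq_zero 0 (fun j => by simp)
  obtain ⟨e, he0, he⟩ := Matrix.exists_mulVec_eq_zero_iff.mpr hdet0
  have hVe : (liftMat v).mulVec e = 0 := by
    funext a
    have := congrFun he a.succ
    simpa [Matrix.mulVec, dotProduct] using this
  have hdet1 : (border e (liftMat v)).det = 0 := by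
    rw [← sum_mul_dep, hd]
    simp
  obtain ⟨u, hu0, hu⟩ := Matrix.exists_vecMul_eq_zero_iff.mpr hdet1
  -- `u = (β, α)` with `β • e + α ᵥ* V = 0`
  have hrel : ∀ j, u 0 * e j + ∑ a : Fin (n + 1), u a.succ * liftMat v a j = 0 := by
    intro j
    have := congrFun hu j
    simp only [Matrix.vecMul, dotProduct, Pi.zero_apply] at this
    rw [Fin.sum_univ_succ] at this
    simpa only [border_zero, border_succ] using this
  have hβ : u 0 = 0 := by
    have h1 : ∑ j, (u 0 * e j + ∑ a : Fin (n + 1), u a.succ * liftMat v a j) * e j = 0 := by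
      simp [hrel]
    have h2 : ∑ j, (∑ a : Fin (n + 1), u a.succ * liftMat v a j) * e j = 0 := by
      simp_rw [Finset.sum_mul]
      rw [Finset.sum_comm]
      have : ∀ a : Fin (n + 1), ∑ j, u a.succ * liftMat v a j * e j = 0 := by
        intro a
        have := congrFun hVe a
        simp only [Matrix.mulVec, dotProduct, Pi.zero_apply] at this
        simp_rw [mul_assoc]
        rw [← Finset.mul_sum, this, mul_zero]
      simp [this]
    simp_rw [add_mul] at h1
    rw [Finset.sum_add_distrib, h2, add_zero] at h1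
    simp_rw [mul_assoc] at h1
    rw [← Finset.mul_sum] at h1
    have hpos : 0 < ∑ j, e j * e j := by
      obtain ⟨j, hj⟩ := Function.ne_iff.mp he0
      have : 0 < e j * e j := mul_self_pos.mpr hj
      exact lt_of_lt_of_le this (Finset.single_le_sum (f := fun j => e j * e j)
        (fun i _ => mul_self_nonneg (e i)) (Finset.mem_univ j))
    rcases mul_eq_zero.mp h1 with h | h
    · exact h
    · exact absurd h hpos.ne'
  have hα : (fun a : Fin (n + 1) => u a.succ) = 0 := by
    apply hrow
    funext j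
    have := hrel j
    rw [hβ, zero_mul, zero_add] at this
    simpa [Matrix.vecMul, dotProduct] using this
  apply hu0
  funext i
  refine Fin.cases ?_ (fun a => ?_) i
  · exact hβ
  · exact congrFun hα a

/-- uniqueness of the dependence up to a scalar -/
lemma eq_smul_dep (v : Fin (n + 2) → Fin n → ℝ) (hd : dep v ≠ 0) (e : Fin (n + 2) → ℝ)
    (he : (liftMat v).mulVec e = 0) : ∃ θ : ℝ, e = θ • dep v := by
  obtain ⟨i0, hi0⟩ := Function.ne_iff.mp hd
  simp only [Pi.zero_apply] at hi0
  refine ⟨e i0 / dep v i0, ?_⟩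
  set θ := e i0 / dep v i0 with hθ
  have hdet : (liftMat (v ∘ i0.succAbove)).det ≠ 0 := by
    intro h
    apply hi0
    simp [dep, h]
  have he' : (liftMat v).mulVec (e - θ • dep v) = 0 := by
    rw [Matrix.mulVec_sub, Matrix.mulVec_smul, he, liftMat_mulVec_dep]
    simp
  have hi0' : (e - θ • dep v) i0 = 0 := by
    simp only [Pi.sub_apply, Pi.smul_apply, smul_eq_mul, hθ]
    field_simp
    ring
  have hsub : (liftMat (v ∘ i0.succAbove)).mulVec (fun k => (e - θ • dep v) (i0.succAbove k))
      = 0 := by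
    funext a
    have := congrFun he' a
    simp only [Matrix.mulVec, dotProduct, Pi.zero_apply] at this ⊢
    rw [Fin.sum_univ_succAbove _ i0, hi0', mul_zero, zero_add] at this
    simpa [liftMat_comp_succAbove] using this
  have hz := Matrix.eq_zero_of_mulVec_eq_zero hdet hsub
  funext k
  have hk : (e - θ • dep v) k = 0 := by
    rcases Fin.eq_self_or_eq_succAbove i0 k with h | ⟨k', h⟩
    · rw [h]; exact hi0'
    · rw [h]; exact congrFun hz k'
  have := sub_eq_zero.mp hk
  exact this

lemma dotProduct_lift (α : Fin (n + 1) → ℝ) (x : Fin n → ℝ) :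
    α ⬝ᵥ lift x = α 0 + ∑ j, α j.succ * x j := by
  simp [dotProduct, Fin.sum_univ_succ]

lemma dotProduct_lift_eq_zero_of_mem {m : ℕ} (v : Fin m → Fin n → ℝ) (α : Fin (n + 1) → ℝ)
    (hα : Matrix.vecMul α (liftMat v) = 0) {x : Fin n → ℝ}
    (hx : x ∈ convexHull ℝ (Set.range v)) : α ⬝ᵥ lift x = 0 := by
  obtain ⟨t, -, ht⟩ := (mem_convexHull_range_iff_lift v x).mp hx
  rw [← ht, Matrix.dotProduct_mulVec, hα]
  simp

lemma rows_indep_of_interior {m : ℕ} (v : Fin m → Fin n → ℝ)
    (hint : (interior (convexHull ℝ (Set.range v))).Nonempty) :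
    ∀ α : Fin (n + 1) → ℝ, Matrix.vecMul α (liftMat v) = 0 → α = 0 := by
  intro α hα
  obtain ⟨x0, hx0⟩ := hint
  obtain ⟨ε, hε, hball⟩ := Metric.mem_nhds_iff.mp (mem_interior_iff_mem_nhds.mp hx0)
  have h0 := dotProduct_lift_eq_zero_of_mem v α hα (hball (Metric.mem_ball_self hε))
  have hsucc : ∀ j : Fin n, α j.succ = 0 := by
    intro j
    have hy : x0 + (ε / 2) • (Pi.single j (1:ℝ) : Fin n → ℝ) ∈ Metric.ball x0 ε := by
      rw [Metric.mem_ball, dist_eq_norm, add_sub_cancel_left, norm_smul, Pi.norm_single]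
      simp only [norm_one, mul_one, Real.norm_eq_abs]
      rw [abs_of_pos (by positivity)]
      linarith
    have h1 := dotProduct_lift_eq_zero_of_mem v α hα (hball hy)
    rw [dotProduct_lift] at h0 h1
    have h2 : ∑ j', α j'.succ * (x0 + (ε / 2) • (Pi.single j (1:ℝ) : Fin n → ℝ)) j'
        = ∑ j', α j'.succ * x0 j' + (ε / 2) * α j.succ := by
      simp only [Pi.add_apply, Pi.smul_apply, smul_eq_mul, mul_add, Finset.sum_add_distrib]
      congr 1
      simp [Pi.single_apply]
      ring
    rw [h2] at h1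
    have h3 : (ε / 2) * α j.succ = 0 := by linarith
    rcases mul_eq_zero.mp h3 with h | h
    · linarith
    · exact h
  rw [dotProduct_lift] at h0
  simp only [hsucc, zero_mul, Finset.sum_const_zero, add_zero] at h0
  funext i
  refine Fin.cases ?_ (fun j => ?_) i
  · exact h0
  · exact hsucc j


end Vale.Agent.H68
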