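import Mathlib
import Vale.Agent.H68.Dependence

open MeasureTheory Set

namespace Vale.Agent.H68

variable {n : ℕ}

/-- an affine hyperplane (or the empty set) is Lebesgue-null -/
lemma null_hyperplane (α : Fin (n + 1) → ℝ) (hy : ∃ y : Fin n → ℝ, α ⬝ᵥ lift y ≠ 0) :
    volume {x : Fin n → ℝ | α ⬝ᵥ lift x = 0} = 0 := by
  let φ : (Fin n → ℝ) →ₗ[ℝ] ℝ :=
    { toFun := fun x => ∑ j, α j.succ * x j
      map_add' := fun x y => by simp [mul_add, Finset.sum_add_distrib]
      map_smul' := fun c x => by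
        simp only [Pi.smul_apply, smul_eq_mul, RingHom.id_apply, Finset.mul_sum]
        refine Finset.sum_congr rfl fun j _ => ?_
        ring }
  have hφ : ∀ x, α ⬝ᵥ lift x = α 0 + φ x := fun x => dotProduct_lift α x
  by_cases hemp : {x : Fin n → ℝ | α ⬝ᵥ lift x = 0} = ∅
  · rw [hemp, measure_empty]
  obtain ⟨x0, hx0⟩ := Set.nonempty_iff_ne_empty.mpr hemp
  have hx0' : α 0 + φ x0 = 0 := by rw [← hφ]; exact hx0
  have hker : LinearMap.ker φ ≠ ⊤ := by
    intro htop
    obtain ⟨y, hy⟩ := hy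
    have h1 : φ y = 0 := by
      have : y ∈ LinearMap.ker φ := by rw [htop]; trivial
      exact this
    have h2 : φ x0 = 0 := by
      have : x0 ∈ LinearMap.ker φ := by rw [htop]; trivial
      exact this
    apply hy
    rw [hφ, h1]
    rw [h2] at hx0'
    linarith
  have hnull := Measure.addHaar_submodule (volume : Measure (Fin n → ℝ)) (LinearMap.ker φ) hker
  have hsub : {x : Fin n → ℝ | α ⬝ᵥ lift x = 0}
      ⊆ (fun x => x + (-x0)) ⁻¹' (LinearMap.ker φ : Set (Fin n → ℝ)) := by
    intro x hx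
    have hx' : α 0 + φ x = 0 := by rw [← hφ]; exact hx
    simp only [Set.mem_preimage, SetLike.mem_coe, LinearMap.mem_ker, map_add, map_neg]
    linarith
  refine measure_mono_null hsub ?_
  rw [measure_preimage_add_right]
  exact hnull




/-- indices with positive dependence coefficient -/
noncomputable def posSet (v : Fin (n + 2) → Fin n → ℝ) : Finset (Fin (n + 2)) :=
  Finset.univ.filter (fun i => 0 < dep v i)

lemma mem_posSet (v : Fin (n + 2) → Fin n → ℝ) (i : Fin (n + 2)) :
    i ∈ posSet v ↔ 0 < dep v i := by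
  simp [posSet]

/-- splitting off one column -/
lemma liftMat_mulVec_succAbove (v : Fin (n + 2) → Fin n → ℝ) (i : Fin (n + 2))
    (t : Fin (n + 2) → ℝ) (a : Fin (n + 1)) :
    (liftMat v).mulVec t a = liftMat v a i * t i
      + (liftMat (v ∘ i.succAbove)).mulVec (fun k => t (i.succAbove k)) a := by
  simp only [Matrix.mulVec, dotProduct]
  rw [Fin.sum_univ_succAbove _ i]
  rfl

lemma liftMat_mulVec_succAbove_of_zero (v : Fin (n + 2) → Fin n → ℝ) (i : Fin (n + 2))
    (t : Fin (n + 2) → ℝ) (hti : t i = 0) :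
    (liftMat (v ∘ i.succAbove)).mulVec (fun k => t (i.succAbove k)) = (liftMat v).mulVec t := by
  funext a
  rw [liftMat_mulVec_succAbove v i t a, hti, mul_zero, zero_add]

lemma cover (v : Fin (n + 2) → Fin n → ℝ) (hpos : (posSet v).Nonempty) {x : Fin n → ℝ}
    (hx : x ∈ convexHull ℝ (Set.range v)) :
    ∃ i ∈ posSet v, x ∈ convexHull ℝ (Set.range (v ∘ i.succAbove)) := by
  obtain ⟨t, ht0, ht⟩ := (mem_convexHull_range_iff_lift v x).mp hx
  obtain ⟨i, hi, hmin⟩ := Finset.exists_min_image (posSet v) (fun i => t i / dep v i) hpos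
  have hdi : 0 < dep v i := (mem_posSet v i).mp hi
  set θ := t i / dep v i with hθdef
  have hθ : 0 ≤ θ := div_nonneg (ht0 i) hdi.le
  have ht'0 : ∀ k, 0 ≤ (t - θ • dep v) k := by
    intro k
    simp only [Pi.sub_apply, Pi.smul_apply, smul_eq_mul, sub_nonneg]
    by_cases hk : 0 < dep v k
    · have := hmin k ((mem_posSet v k).mpr hk)
      exact (le_div_iff₀ hk).mp this
    · have h1 : θ * dep v k ≤ 0 := mul_nonpos_of_nonneg_of_nonpos hθ (not_lt.mp hk)
      exact h1.trans (ht0 k)
  have ht'i : (t - θ • dep v) i = 0 := by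
    simp only [Pi.sub_apply, Pi.smul_apply, smul_eq_mul, hθdef]
    field_simp
    ring
  have ht' : (liftMat v).mulVec (t - θ • dep v) = lift x := by
    rw [Matrix.mulVec_sub, Matrix.mulVec_smul, liftMat_mulVec_dep, ht]
    simp
  refine ⟨i, hi, (mem_convexHull_range_iff_lift _ x).mpr
    ⟨fun k => (t - θ • dep v) (i.succAbove k), fun k => ht'0 _, ?_⟩⟩
  rw [liftMat_mulVec_succAbove_of_zero v i _ ht'i, ht']

lemma face_subset (v : Fin (n + 2) → Fin n → ℝ) (i : Fin (n + 2)) :
    convexHull ℝ (Set.range (v ∘ i.succAbove)) ⊆ convexHull ℝ (Set.range v) :=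
  convexHull_mono (Set.range_comp_subset_range _ _)

/-- a point of a face has a representation vanishing at the omitted index -/
lemma face_rep (v : Fin (n + 2) → Fin n → ℝ) (i : Fin (n + 2)) {x : Fin n → ℝ}
    (hx : x ∈ convexHull ℝ (Set.range (v ∘ i.succAbove))) :
    ∃ t : Fin (n + 2) → ℝ, (∀ k, 0 ≤ t k) ∧ t i = 0 ∧ (liftMat v).mulVec t = lift x := by
  obtain ⟨s, hs0, hs⟩ := (mem_convexHull_range_iff_lift _ x).mp hx
  have hsame : (Fin.insertNth (α := fun _ => ℝ) i (0:ℝ) s) i = 0 :=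
    Fin.insertNth_apply_same (α := fun _ => ℝ) i (0:ℝ) s
  have hsucc : ∀ k, (Fin.insertNth (α := fun _ => ℝ) i (0:ℝ) s) (i.succAbove k) = s k :=
    fun k => Fin.insertNth_apply_succAbove (α := fun _ => ℝ) i (0:ℝ) s k
  refine ⟨Fin.insertNth (α := fun _ => ℝ) i (0:ℝ) s, ?_, hsame, ?_⟩
  · intro k
    rcases Fin.eq_self_or_eq_succAbove i k with h | ⟨k', h⟩
    · rw [h, hsame]
    · rw [h, hsucc]
      exact hs0 k'
  · rw [← liftMat_mulVec_succAbove_of_zero v i _ hsame]
    simp only [hsucc]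
    exact hs

lemma inter_rep (v : Fin (n + 2) → Fin n → ℝ) (hd : dep v ≠ 0) {i i' : Fin (n + 2)}
    (hi : 0 < dep v i) (hi' : 0 < dep v i') {x : Fin n → ℝ}
    (hx : x ∈ convexHull ℝ (Set.range (v ∘ i.succAbove)))
    (hx' : x ∈ convexHull ℝ (Set.range (v ∘ i'.succAbove))) :
    ∃ t : Fin (n + 2) → ℝ, t i = 0 ∧ t i' = 0 ∧ (liftMat v).mulVec t = lift x := by
  obtain ⟨t, ht0, hti, ht⟩ := face_rep v i hx
  obtain ⟨t', ht'0, hti', ht'⟩ := face_rep v i' hx'
  have he : (liftMat v).mulVec (t - t') = 0 := by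
    rw [Matrix.mulVec_sub, ht, ht', sub_self]
  obtain ⟨θ, hθ⟩ := eq_smul_dep v hd _ he
  have h1 : -t' i = θ * dep v i := by
    have := congrFun hθ i
    simpa [hti] using this
  have h2 : t i' = θ * dep v i' := by
    have := congrFun hθ i'
    simpa [hti'] using this
  have hθ0 : θ = 0 := by
    have hle : θ ≤ 0 := by
      by_contra hcon
      have : 0 < θ * dep v i := mul_pos (not_le.mp hcon) hi
      have := ht'0 i
      linarith
    have hge : 0 ≤ θ := by
      by_contra hcon
      have : θ * dep v i' < 0 := mul_neg_of_neg_of_pos (not_le.mp hcon) hi'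
      have := ht0 i'
      linarith
    exact le_antisymm hle hge
  refine ⟨t, hti, ?_, ht⟩
  rw [h2, hθ0, zero_mul]

lemma null_inter (v : Fin (n + 2) → Fin n → ℝ) (hd : dep v ≠ 0) {i i' : Fin (n + 2)}
    (hi : 0 < dep v i) (hi' : 0 < dep v i') (hne : i ≠ i') :
    volume (convexHull ℝ (Set.range (v ∘ i.succAbove))
      ∩ convexHull ℝ (Set.range (v ∘ i'.succAbove))) = 0 := by
  classical
  set M := liftMat (v ∘ i.succAbove) with hM
  have hdet : M.det ≠ 0 := by
    intro h
    have : dep v i = 0 := by simp [dep, ← hM, h]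
    exact hi.ne' this
  have hu : IsUnit M.det := isUnit_iff_ne_zero.mpr hdet
  obtain ⟨k', hk'⟩ := Fin.exists_succAbove_eq hne.symm
  let α : Fin (n + 1) → ℝ := fun a => M⁻¹ k' a
  have hαM : Matrix.vecMul α M = Pi.single k' 1 := by
    funext l
    have := congrFun (congrFun (Matrix.nonsing_inv_mul M hu) k') l
    simp only [Matrix.mul_apply, Matrix.one_apply] at this
    simp only [Matrix.vecMul, dotProduct, α, Pi.single_apply]
    rw [this]
    by_cases h : k' = l
    · simp [h]
    · simp [h, Ne.symm h]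
  refine measure_mono_null (t := {x : Fin n → ℝ | α ⬝ᵥ lift x = 0}) ?_ (null_hyperplane α ?_)
  · rintro x ⟨hx, hx'⟩
    obtain ⟨t, hti, hti', ht⟩ := inter_rep v hd hi hi' hx hx'
    show α ⬝ᵥ lift x = 0
    rw [← ht, ← liftMat_mulVec_succAbove_of_zero v i t hti, Matrix.dotProduct_mulVec, hαM]
    simp [hk', hti']
  · refine ⟨v i', ?_⟩
    have : lift (v i') = M.mulVec (Pi.single k' 1) := by
      funext a
      simp [Matrix.mulVec, dotProduct, Pi.single_apply, hM, hk', liftMat]
    rw [this, Matrix.dotProduct_mulVec, hαM]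
    simp


end Vale.Agent.H68
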