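import Mathlib
import Vale.Agent.H68.Triangulation

open MeasureTheory Set

namespace Vale.Agent.H68

variable {n : ℕ}

lemma posSet_nonempty (v : Fin (n + 2) → Fin n → ℝ) (hd : dep v ≠ 0) : (posSet v).Nonempty := by
  by_contra hemp
  rw [Finset.not_nonempty_iff_eq_empty] at hemp
  have hle : ∀ i, dep v i ≤ 0 := by
    intro i
    by_contra h
    have : i ∈ posSet v := (mem_posSet v i).mpr (not_le.mp h)
    rw [hemp] at this
    exact absurd this (Finset.notMem_empty i)
  have hz := (Finset.sum_eq_zero_iff_of_nonpos (fun i _ => hle i)).mp (sum_dep v)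
  exact hd (funext fun i => hz i (Finset.mem_univ i))

lemma measurableSet_convexHull_range {m : ℕ} (w : Fin m → Fin n → ℝ) :
    MeasurableSet (convexHull ℝ (Set.range w)) :=
  ((Set.finite_range w).isCompact_convexHull ℝ).isClosed.measurableSet

lemma integral_triangulation (v : Fin (n + 2) → Fin n → ℝ) (hd : dep v ≠ 0)
    (g : (Fin n → ℝ) → ℝ) (hg : IntegrableOn g (convexHull ℝ (Set.range v))) :
    ∫ x in convexHull ℝ (Set.range v), g x
      = ∑ i ∈ posSet v, ∫ x in convexHull ℝ (Set.range (v ∘ i.succAbove)), g x := by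
  have hpos := posSet_nonempty v hd
  have hK : convexHull ℝ (Set.range v)
      = ⋃ i : ↥(posSet v), convexHull ℝ (Set.range (v ∘ (i : Fin (n + 2)).succAbove)) := by
    ext x
    constructor
    · intro hx
      obtain ⟨i, hi, hxi⟩ := cover v hpos hx
      exact Set.mem_iUnion.mpr ⟨⟨i, hi⟩, hxi⟩
    · intro hx
      obtain ⟨i, hxi⟩ := Set.mem_iUnion.mp hx
      exact face_subset v i hxi
  rw [hK] at hg
  rw [hK, integral_iUnion_ae (fun i => (measurableSet_convexHull_range _).nullMeasurableSet)
    ?_ hg, tsum_fintype]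
  · exact Finset.sum_coe_sort (posSet v)
      (fun i => ∫ x in convexHull ℝ (Set.range (v ∘ i.succAbove)), g x)
  · intro i j hij
    exact null_inter v hd ((mem_posSet v i).mp i.2) ((mem_posSet v j).mp j.2)
      (fun h => hij (Subtype.ext h))

/-- the matrix of moments of order at most two -/
noncomputable def momentMatrix (K : Set (Fin n → ℝ)) : Matrix (Fin (n + 1)) (Fin (n + 1)) ℝ :=
  Matrix.of fun a b => ∫ x in K, lift x a * lift x b

lemma continuous_lift_apply (a : Fin (n + 1)) : Continuous fun x : Fin n → ℝ => lift x a := by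
  refine Fin.cases ?_ (fun j => ?_) a
  · simp only [lift_zero]
    exact continuous_const
  · simp only [lift_succ]
    exact continuous_apply j

lemma integrableOn_lift_mul {m : ℕ} (w : Fin m → Fin n → ℝ) (a b : Fin (n + 1)) :
    IntegrableOn (fun x : Fin n → ℝ => lift x a * lift x b) (convexHull ℝ (Set.range w)) :=
  ((continuous_lift_apply a).mul (continuous_lift_apply b)).continuousOn.integrableOn_compact
    ((Set.finite_range w).isCompact_convexHull ℝ)

lemma abs_det_eq_dep (v : Fin (n + 2) → Fin n → ℝ) {i : Fin (n + 2)} (hi : 0 < dep v i) :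
    |(liftMat (v ∘ i.succAbove)).det| = dep v i := by
  have h : |dep v i| = |(liftMat (v ∘ i.succAbove)).det| := by
    simp [dep, abs_mul]
  rw [← h, abs_of_pos hi]

lemma det_ne_zero_of_dep_pos (v : Fin (n + 2) → Fin n → ℝ) {i : Fin (n + 2)}
    (hi : 0 < dep v i) : (liftMat (v ∘ i.succAbove)).det ≠ 0 := by
  intro h
  have : dep v i = 0 := by simp [dep, h]
  exact hi.ne' this

theorem momentMatrix_polytope (v : Fin (n + 2) → Fin n → ℝ) (hd : dep v ≠ 0)
    (a b : Fin (n + 1)) :
    momentMatrix (convexHull ℝ (Set.range v)) a b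
      = (1 / ((n + 2).factorial : ℝ)) *
        ((∑ i ∈ posSet v, dep v i) * (∑ k, liftMat v a k * liftMat v b k)
          + (∑ i ∈ posSet v, dep v i) * (∑ k, liftMat v a k) * (∑ k, liftMat v b k)
          - (∑ k, liftMat v a k) * (∑ i ∈ posSet v, dep v i * liftMat v b i)
          - (∑ i ∈ posSet v, dep v i * liftMat v a i) * (∑ k, liftMat v b k)) := by
  simp only [momentMatrix, Matrix.of_apply]
  rw [integral_triangulation v hd _ (integrableOn_lift_mul v a b)]
  have hterm : ∀ i ∈ posSet v,
      ∫ x in convexHull ℝ (Set.range (v ∘ i.succAbove)), lift x a * lift x b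
      = (1 / ((n + 2).factorial : ℝ)) *
        (dep v i * (∑ k, liftMat v a k * liftMat v b k)
          + dep v i * (∑ k, liftMat v a k) * (∑ k, liftMat v b k)
          - (∑ k, liftMat v a k) * (dep v i * liftMat v b i)
          - (dep v i * liftMat v a i) * (∑ k, liftMat v b k)) := by
    intro i hi
    have hi' := (mem_posSet v i).mp hi
    rw [simplex_moment _ (det_ne_zero_of_dep_pos v hi'), abs_det_eq_dep v hi']
    simp only [liftMat_comp_succAbove]
    rw [Fin.sum_univ_succAbove (fun k => liftMat v a k * liftMat v b k) i,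
      Fin.sum_univ_succAbove (fun k => liftMat v a k) i,
      Fin.sum_univ_succAbove (fun k => liftMat v b k) i]
    ring
  rw [Finset.sum_congr rfl hterm, ← Finset.mul_sum]
  congr 1
  simp only [Finset.sum_sub_distrib, Finset.sum_add_distrib, ← Finset.sum_mul, ← Finset.mul_sum]


end Vale.Agent.H68
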