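import Mathlib
import Vale.Agent.H68.Moment

open MeasureTheory Set

namespace Vale.Agent.H68

variable {n : ℕ}

/-- negative part of the dependence -/
noncomputable def dneg (v : Fin (n + 2) → Fin n → ℝ) (k : Fin (n + 2)) : ℝ :=
  if 0 < dep v k then 0 else -dep v k

/-- total positive mass of the dependence -/
noncomputable def kap (v : Fin (n + 2) → Fin n → ℝ) : ℝ := ∑ i ∈ posSet v, dep v i

/-- sum of squares of the positive coefficients -/
noncomputable def sqP (v : Fin (n + 2) → Fin n → ℝ) : ℝ := ∑ i ∈ posSet v, (dep v i) ^ 2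

/-- sum of squares of the negative coefficients -/
noncomputable def sqN (v : Fin (n + 2) → Fin n → ℝ) : ℝ := ∑ k, (dneg v k) ^ 2

lemma dneg_nonneg (v : Fin (n + 2) → Fin n → ℝ) (k : Fin (n + 2)) : 0 ≤ dneg v k := by
  unfold dneg
  split_ifs with h
  · exact le_rfl
  · linarith [not_lt.mp h]

lemma dneg_of_pos (v : Fin (n + 2) → Fin n → ℝ) {k : Fin (n + 2)} (h : 0 < dep v k) :
    dneg v k = 0 := by
  simp [dneg, h]

lemma sum_posSet_eq (v : Fin (n + 2) → Fin n → ℝ) (f : Fin (n + 2) → ℝ) :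
    ∑ i ∈ posSet v, f i = ∑ k, if 0 < dep v k then f k else 0 := by
  simp [posSet, Finset.sum_filter]

lemma kap_eq_sum_dneg (v : Fin (n + 2) → Fin n → ℝ) : ∑ k, dneg v k = kap v := by
  have h := sum_dep v
  unfold kap
  rw [sum_posSet_eq]
  have : ∀ k, dneg v k = (if 0 < dep v k then dep v k else 0) - dep v k := by
    intro k
    unfold dneg
    split_ifs <;> ring
  simp_rw [this]
  rw [Finset.sum_sub_distrib, h, sub_zero]

lemma sum_dep_mul_dneg (v : Fin (n + 2) → Fin n → ℝ) : ∑ k, dep v k * dneg v k = -sqN v := by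
  unfold sqN
  rw [← Finset.sum_neg_distrib]
  refine Finset.sum_congr rfl fun k _ => ?_
  unfold dneg
  split_ifs <;> ring

lemma sum_dep_sq (v : Fin (n + 2) → Fin n → ℝ) : ∑ k, (dep v k) ^ 2 = sqP v + sqN v := by
  unfold sqP sqN
  rw [sum_posSet_eq, ← Finset.sum_add_distrib]
  refine Finset.sum_congr rfl fun k _ => ?_
  unfold dneg
  split_ifs <;> ring

lemma sum_posSet_mul_liftMat (v : Fin (n + 2) → Fin n → ℝ) (a : Fin (n + 1)) :
    ∑ i ∈ posSet v, dep v i * liftMat v a i = ∑ k, dneg v k * liftMat v a k := by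
  have h := congrFun (liftMat_mulVec_dep v) a
  simp only [Matrix.mulVec, dotProduct, Pi.zero_apply] at h
  rw [sum_posSet_eq]
  have : ∀ k, (if 0 < dep v k then dep v k * liftMat v a k else 0)
      = dneg v k * liftMat v a k + liftMat v a k * dep v k := by
    intro k
    unfold dneg
    split_ifs <;> ring
  simp_rw [this]
  rw [Finset.sum_add_distrib, h, add_zero]

lemma kap_pos (v : Fin (n + 2) → Fin n → ℝ) (hd : dep v ≠ 0) : 0 < kap v := by
  unfold kap
  exact Finset.sum_pos (fun i hi => (mem_posSet v i).mp hi) (posSet_nonempty v hd)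




/-- coefficients expressing the `i0`-th lifted vertex through the others -/
noncomputable def alph (v : Fin (n + 2) → Fin n → ℝ) (i0 : Fin (n + 2)) (k : Fin (n + 1)) : ℝ :=
  -dep v (i0.succAbove k) / dep v i0

/-- normalised negative coefficients, restricted to the indices different from `i0` -/
noncomputable def gamm (v : Fin (n + 2) → Fin n → ℝ) (i0 : Fin (n + 2)) (k : Fin (n + 1)) : ℝ :=
  dneg v (i0.succAbove k) / kap v

lemma sum_alph (v : Fin (n + 2) → Fin n → ℝ) {i0 : Fin (n + 2)} (h0 : 0 < dep v i0) :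
    ∑ k, alph v i0 k = 1 := by
  have h := sum_dep v
  rw [Fin.sum_univ_succAbove _ i0] at h
  unfold alph
  rw [← Finset.sum_div, Finset.sum_neg_distrib, div_eq_one_iff_eq h0.ne']
  linarith

lemma sum_gamm (v : Fin (n + 2) → Fin n → ℝ) (hd : dep v ≠ 0) {i0 : Fin (n + 2)}
    (h0 : 0 < dep v i0) : ∑ k, gamm v i0 k = 1 := by
  have h := kap_eq_sum_dneg v
  rw [Fin.sum_univ_succAbove _ i0, dneg_of_pos v h0, zero_add] at h
  unfold gamm
  rw [← Finset.sum_div, h, div_self (kap_pos v hd).ne']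

lemma sum_alph_sq (v : Fin (n + 2) → Fin n → ℝ) {i0 : Fin (n + 2)} (h0 : 0 < dep v i0) :
    ∑ k, alph v i0 k * alph v i0 k = (sqP v + sqN v - (dep v i0) ^ 2) / (dep v i0) ^ 2 := by
  have h := sum_dep_sq v
  rw [Fin.sum_univ_succAbove _ i0] at h
  have : ∀ k, alph v i0 k * alph v i0 k = (dep v (i0.succAbove k)) ^ 2 / (dep v i0) ^ 2 := by
    intro k
    unfold alph
    field_simp
  simp_rw [this]
  rw [← Finset.sum_div]
  congr 1
  linarith

lemma sum_alph_gamm (v : Fin (n + 2) → Fin n → ℝ) (hd : dep v ≠ 0) {i0 : Fin (n + 2)}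
    (h0 : 0 < dep v i0) :
    ∑ k, alph v i0 k * gamm v i0 k = sqN v / (dep v i0 * kap v) := by
  have h := sum_dep_mul_dneg v
  rw [Fin.sum_univ_succAbove _ i0, dneg_of_pos v h0, mul_zero, zero_add] at h
  have hk := (kap_pos v hd).ne'
  have : ∀ k, alph v i0 k * gamm v i0 k
      = -(dep v (i0.succAbove k) * dneg v (i0.succAbove k)) / (dep v i0 * kap v) := by
    intro k
    unfold alph gamm
    field_simp
  simp_rw [this]
  rw [← Finset.sum_div, Finset.sum_neg_distrib, h, neg_neg]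

lemma sum_gamm_sq (v : Fin (n + 2) → Fin n → ℝ) (hd : dep v ≠ 0) {i0 : Fin (n + 2)}
    (h0 : 0 < dep v i0) :
    ∑ k, gamm v i0 k * gamm v i0 k = sqN v / (kap v) ^ 2 := by
  have h : sqN v = ∑ k, (dneg v k) ^ 2 := rfl
  rw [Fin.sum_univ_succAbove _ i0, dneg_of_pos v h0] at h
  have hk := (kap_pos v hd).ne'
  have : ∀ k, gamm v i0 k * gamm v i0 k = (dneg v (i0.succAbove k)) ^ 2 / (kap v) ^ 2 := by
    intro k
    unfold gamm
    field_simp
  simp_rw [this]
  rw [← Finset.sum_div]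
  congr 1
  rw [h]
  ring

/-- the fixed coefficient matrix of the rank-three correction -/
def K3 : Matrix (Fin 3) (Fin 3) ℝ := !![1, 1, -1; 1, 2, -1; -1, -1, 0]

lemma quad_K3 {m : ℕ} (P : Matrix (Fin m) (Fin 3) ℝ) (a b : Fin m) :
    (P * K3 * P.transpose) a b
      = P a 0 * P b 0 + P a 0 * P b 1 - P a 0 * P b 2 + P a 1 * P b 0 + 2 * (P a 1 * P b 1)
        - P a 1 * P b 2 - P a 2 * P b 0 - P a 2 * P b 1 := by
  simp only [Matrix.mul_apply, Matrix.transpose_apply, Fin.sum_univ_three, K3]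
  simp
  ring

lemma det_one_add_K3_mul (g00 g01 g02 g11 g12 g22 : ℝ) :
    (1 + K3 * !![g00, g01, g02; g01, g11, g12; g02, g12, g22]).det
      = (1 + g00 + g01 - g02) * ((1 + g01 + 2 * g11 - g12) * (1 - g02 - g12)
          - (g02 + 2 * g12 - g22) * (-g01 - g11))
        - (g01 + g11 - g12) * ((g00 + 2 * g01 - g02) * (1 - g02 - g12)
          - (g02 + 2 * g12 - g22) * (-g00 - g01))
        + (g02 + g12 - g22) * ((g00 + 2 * g01 - g02) * (-g01 - g11)
          - (1 + g01 + 2 * g11 - g12) * (-g00 - g01)) := by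
  rw [Matrix.det_fin_three]
  simp only [K3, Matrix.add_apply, Matrix.mul_apply, Fin.sum_univ_three, Matrix.one_apply]
  simp
  ring


end Vale.Agent.H68
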