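import Mathlib
import Vale.Agent.H68.Gram

open MeasureTheory Set

namespace Vale.Agent.H68

variable {n : ℕ}

/-- the numerator matrix of the moment matrix of the polytope -/
noncomputable def Rmat (v : Fin (n + 2) → Fin n → ℝ) : Matrix (Fin (n + 1)) (Fin (n + 1)) ℝ :=
  Matrix.of fun a b =>
    (kap v) * (∑ k, liftMat v a k * liftMat v b k)
      + (kap v) * (∑ k, liftMat v a k) * (∑ k, liftMat v b k)
      - (∑ k, liftMat v a k) * (∑ i ∈ posSet v, dep v i * liftMat v b i)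
      - (∑ i ∈ posSet v, dep v i * liftMat v a i) * (∑ k, liftMat v b k)

/-- the three columns `1, α, γ` -/
noncomputable def A3 (v : Fin (n + 2) → Fin n → ℝ) (i0 : Fin (n + 2)) :
    Matrix (Fin (n + 1)) (Fin 3) ℝ :=
  Matrix.of fun k c => ![1, alph v i0 k, gamm v i0 k] c

lemma A3_zero (v : Fin (n + 2) → Fin n → ℝ) (i0 : Fin (n + 2)) (k : Fin (n + 1)) :
    A3 v i0 k 0 = 1 := rfl
lemma A3_one (v : Fin (n + 2) → Fin n → ℝ) (i0 : Fin (n + 2)) (k : Fin (n + 1)) :
    A3 v i0 k 1 = alph v i0 k := rfl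
lemma A3_two (v : Fin (n + 2) → Fin n → ℝ) (i0 : Fin (n + 2)) (k : Fin (n + 1)) :
    A3 v i0 k 2 = gamm v i0 k := rfl

lemma Rmat_factor (v : Fin (n + 2) → Fin n → ℝ) (hd : dep v ≠ 0) {i0 : Fin (n + 2)}
    (h0 : 0 < dep v i0) :
    Rmat v = kap v • (liftMat (v ∘ i0.succAbove) * (1 + A3 v i0 * (K3 * (A3 v i0).transpose))
      * (liftMat (v ∘ i0.succAbove)).transpose) := by
  set M := liftMat (v ∘ i0.succAbove) with hM
  have hk := (kap_pos v hd).ne'
  have hmat : M * (1 + A3 v i0 * (K3 * (A3 v i0).transpose)) * M.transpose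
      = M * M.transpose + (M * A3 v i0) * K3 * (M * A3 v i0).transpose := by
    rw [Matrix.mul_add, Matrix.add_mul, Matrix.mul_one, Matrix.transpose_mul]
    simp only [Matrix.mul_assoc]
  rw [hmat]
  ext a b
  rw [Matrix.smul_apply, Matrix.add_apply, quad_K3, smul_eq_mul]
  simp only [Matrix.mul_apply, Matrix.transpose_apply, A3_zero, A3_one, A3_two, mul_one]
  -- the column relation
  have hcol : ∀ a : Fin (n + 1), liftMat v a i0 = ∑ k, M a k * alph v i0 k := by
    intro a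
    have h := congrFun (liftMat_mulVec_dep v) a
    simp only [Matrix.mulVec, dotProduct, Pi.zero_apply] at h
    rw [Fin.sum_univ_succAbove _ i0] at h
    have : ∀ k, M a k * alph v i0 k
        = -(liftMat v a (i0.succAbove k) * dep v (i0.succAbove k)) / dep v i0 := by
      intro k
      unfold alph
      rw [hM, liftMat_comp_succAbove]
      ring
    simp_rw [this]
    rw [← Finset.sum_div, Finset.sum_neg_distrib, eq_div_iff h0.ne']
    linarith
  have hq : ∀ a : Fin (n + 1), ∑ i ∈ posSet v, dep v i * liftMat v a i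
      = kap v * ∑ k, M a k * gamm v i0 k := by
    intro a
    rw [sum_posSet_mul_liftMat, Fin.sum_univ_succAbove _ i0, dneg_of_pos v h0, zero_mul, zero_add,
      Finset.mul_sum]
    refine Finset.sum_congr rfl fun k _ => ?_
    unfold gamm
    rw [hM, liftMat_comp_succAbove]
    field_simp
  have hG : ∑ k, liftMat v a k * liftMat v b k
      = ∑ k, M a k * M b k + liftMat v a i0 * liftMat v b i0 := by
    rw [Fin.sum_univ_succAbove _ i0, add_comm]
    rfl
  have hs : ∀ a : Fin (n + 1), ∑ k, liftMat v a k = liftMat v a i0 + ∑ k, M a k := by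
    intro a
    rw [Fin.sum_univ_succAbove _ i0]
    rfl
  simp only [Rmat, Matrix.of_apply]
  rw [hG, hs a, hs b, hq a, hq b, hcol a, hcol b]
  ring




lemma A3_gram (v : Fin (n + 2) → Fin n → ℝ) (hd : dep v ≠ 0) {i0 : Fin (n + 2)}
    (h0 : 0 < dep v i0) :
    (A3 v i0).transpose * A3 v i0
      = !![(n : ℝ) + 1, 1, 1;
           1, (sqP v + sqN v - (dep v i0) ^ 2) / (dep v i0) ^ 2, sqN v / (dep v i0 * kap v);
           1, sqN v / (dep v i0 * kap v), sqN v / (kap v) ^ 2] := by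
  have e00 : ∑ k : Fin (n + 1), A3 v i0 k 0 * A3 v i0 k 0 = (n : ℝ) + 1 := by
    simp [A3_zero]
  have e01 : ∑ k : Fin (n + 1), A3 v i0 k 0 * A3 v i0 k 1 = 1 := by
    simp only [A3_zero, A3_one, one_mul]
    exact sum_alph v h0
  have e02 : ∑ k : Fin (n + 1), A3 v i0 k 0 * A3 v i0 k 2 = 1 := by
    simp only [A3_zero, A3_two, one_mul]
    exact sum_gamm v hd h0
  have e11 : ∑ k : Fin (n + 1), A3 v i0 k 1 * A3 v i0 k 1
      = (sqP v + sqN v - (dep v i0) ^ 2) / (dep v i0) ^ 2 := by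
    simp only [A3_one]
    exact sum_alph_sq v h0
  have e12 : ∑ k : Fin (n + 1), A3 v i0 k 1 * A3 v i0 k 2 = sqN v / (dep v i0 * kap v) := by
    simp only [A3_one, A3_two]
    exact sum_alph_gamm v hd h0
  have e22 : ∑ k : Fin (n + 1), A3 v i0 k 2 * A3 v i0 k 2 = sqN v / (kap v) ^ 2 := by
    simp only [A3_two]
    exact sum_gamm_sq v hd h0
  have e10 : ∑ k : Fin (n + 1), A3 v i0 k 1 * A3 v i0 k 0 = 1 := by
    rw [← e01]; exact Finset.sum_congr rfl fun k _ => mul_comm _ _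
  have e20 : ∑ k : Fin (n + 1), A3 v i0 k 2 * A3 v i0 k 0 = 1 := by
    rw [← e02]; exact Finset.sum_congr rfl fun k _ => mul_comm _ _
  have e21 : ∑ k : Fin (n + 1), A3 v i0 k 2 * A3 v i0 k 1 = sqN v / (dep v i0 * kap v) := by
    rw [← e12]; exact Finset.sum_congr rfl fun k _ => mul_comm _ _
  ext c c'
  fin_cases c <;> fin_cases c' <;>
    simp only [Matrix.mul_apply, Matrix.transpose_apply] <;>
    simp [e00, e01, e02, e10, e11, e12, e20, e21, e22]

lemma det_sq_eq_dep_sq (v : Fin (n + 2) → Fin n → ℝ) (i : Fin (n + 2)) :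
    (liftMat (v ∘ i.succAbove)).det ^ 2 = (dep v i) ^ 2 := by
  unfold dep
  rw [mul_pow, ← pow_mul, mul_comm (i : ℕ) 2, pow_mul]
  simp

theorem det_Rmat (v : Fin (n + 2) → Fin n → ℝ) (hd : dep v ≠ 0) :
    (Rmat v).det = (kap v) ^ (n + 1) *
      (((n : ℝ) + 2) * (sqP v + sqN v - sqP v * sqN v / (kap v) ^ 2)) := by
  obtain ⟨i0, hi0⟩ := posSet_nonempty v hd
  have h0 : 0 < dep v i0 := (mem_posSet v i0).mp hi0
  have hk := (kap_pos v hd).ne'
  rw [Rmat_factor v hd h0, Matrix.det_smul, Matrix.det_mul, Matrix.det_mul, Matrix.det_transpose,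
    Matrix.det_one_add_mul_comm, Matrix.mul_assoc, A3_gram v hd h0, det_one_add_K3_mul,
    Fintype.card_fin]
  have hsq := det_sq_eq_dep_sq v i0
  have h0' := h0.ne'
  have key : ∀ D : ℝ, D ^ 2 = (dep v i0) ^ 2 → ∀ X : ℝ,
      (dep v i0) ^ 2 * X = ((n : ℝ) + 2) * (sqP v + sqN v - sqP v * sqN v / (kap v) ^ 2) →
      (kap v) ^ (n + 1) * (D * X * D) = (kap v) ^ (n + 1) *
        (((n : ℝ) + 2) * (sqP v + sqN v - sqP v * sqN v / (kap v) ^ 2)) := by
    intro D hD X hX
    rw [← hX, ← hD]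
    ring
  refine key _ hsq _ ?_
  field_simp
  ring


end Vale.Agent.H68
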