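import Mathlib
import Vale.Agent.H68.DetR
import Vale.Agent.H68.IsoDefs

open MeasureTheory Set

namespace Vale.Agent.H68

variable {n : ℕ}

/-- determinant of the covariance-type matrix built from a bordered moment matrix -/
lemma det_cov_of_moment (Mo : Matrix (Fin (n + 1)) (Fin (n + 1)) ℝ) (hV : Mo 0 0 ≠ 0)
    (hsym : ∀ i : Fin n, Mo i.succ 0 = Mo 0 i.succ) :
    (Matrix.of fun i j : Fin n =>
        Mo i.succ j.succ / Mo 0 0 - (Mo 0 i.succ / Mo 0 0) * (Mo 0 j.succ / Mo 0 0)).det
      = Mo.det / (Mo 0 0) ^ (n + 1) := by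
  set B := (Mo 0 0)⁻¹ • Mo with hB
  have hB00 : B 0 0 = 1 := by
    simp [hB, hV]
  have hdetB : B.det = Mo.det / (Mo 0 0) ^ (n + 1) := by
    rw [hB, Matrix.det_smul, Fintype.card_fin, inv_pow]
    field_simp
  let c : Fin (n + 1) → ℝ := fun i => Fin.cases 0 (fun i' => -B i'.succ 0) i
  let A : Matrix (Fin (n + 1)) (Fin (n + 1)) ℝ := Matrix.of fun i j => B i j + c i * B 0 j
  have hAB : A.det = B.det :=
    Matrix.det_eq_of_forall_row_eq_smul_add_const c 0 rfl (fun i j => rfl)
  have hA00 : A 0 0 = 1 := by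
    simp [A, c, hB00]
  have hAs0 : ∀ i : Fin n, A i.succ 0 = 0 := by
    intro i
    simp [A, c, hB00]
  have hsub : A.submatrix (Fin.succAbove 0) Fin.succ
      = Matrix.of fun i j : Fin n =>
        Mo i.succ j.succ / Mo 0 0 - (Mo 0 i.succ / Mo 0 0) * (Mo 0 j.succ / Mo 0 0) := by
    ext i j
    simp only [Matrix.submatrix_apply, Fin.succAbove_zero, A, c, Matrix.of_apply, Fin.cases_succ,
      hB, Matrix.smul_apply, smul_eq_mul, hsym i]
    field_simp
    ring
  rw [← hdetB, ← hAB, Matrix.det_succ_column_zero, Fin.sum_univ_succ]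
  simp only [hAs0, mul_zero, zero_mul, Finset.sum_const_zero, add_zero, hA00, Fin.val_zero,
    pow_zero, one_mul]
  rw [hsub]




lemma momentMatrix_zero_zero (K : Set (Fin n → ℝ)) : momentMatrix K 0 0 = vol K := by
  simp [momentMatrix, vol, measureReal_def]

lemma momentMatrix_symm (K : Set (Fin n → ℝ)) (a b : Fin (n + 1)) :
    momentMatrix K a b = momentMatrix K b a := by
  simp only [momentMatrix, Matrix.of_apply]
  congr 1
  funext x
  ring

lemma covMatrix_eq {m : ℕ} (w : Fin m → Fin n → ℝ)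
    (hV : momentMatrix (convexHull ℝ (Set.range w)) 0 0 ≠ 0) :
    covMatrix (convexHull ℝ (Set.range w))
      = Matrix.of fun i j : Fin n =>
        momentMatrix (convexHull ℝ (Set.range w)) i.succ j.succ
            / momentMatrix (convexHull ℝ (Set.range w)) 0 0
          - (momentMatrix (convexHull ℝ (Set.range w)) 0 i.succ
              / momentMatrix (convexHull ℝ (Set.range w)) 0 0)
            * (momentMatrix (convexHull ℝ (Set.range w)) 0 j.succ
              / momentMatrix (convexHull ℝ (Set.range w)) 0 0) := by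
  set K := convexHull ℝ (Set.range w) with hK
  have hvol : vol K = momentMatrix K 0 0 := (momentMatrix_zero_zero K).symm
  have hcent : ∀ i : Fin n, centroid K i = momentMatrix K 0 i.succ / momentMatrix K 0 0 := by
    intro i
    simp only [centroid, hvol, momentMatrix, Matrix.of_apply, lift_zero, lift_succ, one_mul]
    rw [inv_mul_eq_div]
  ext i j
  simp only [covMatrix, Matrix.of_apply]
  have hint := fun a b => integrableOn_lift_mul w a b
  have hexp : ∀ x : Fin n → ℝ, (x i - centroid K i) * (x j - centroid K j)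
      = lift x i.succ * lift x j.succ - centroid K j * (lift x 0 * lift x i.succ)
        - centroid K i * (lift x 0 * lift x j.succ)
        + centroid K i * centroid K j * (lift x 0 * lift x 0) := by
    intro x
    simp only [lift_zero, lift_succ]
    ring
  simp_rw [hexp]
  rw [integral_add, integral_sub, integral_sub, integral_const_mul, integral_const_mul,
    integral_const_mul]
  · have e1 : ∫ x in K, lift x i.succ * lift x j.succ = momentMatrix K i.succ j.succ := rfl
    have e2 : ∫ x in K, lift x 0 * lift x i.succ = momentMatrix K 0 i.succ := rfl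
    have e3 : ∫ x in K, lift x 0 * lift x j.succ = momentMatrix K 0 j.succ := rfl
    have e4 : ∫ x in K, lift x 0 * lift x 0 = momentMatrix K 0 0 := rfl
    rw [e1, e2, e3, e4, hcent i, hcent j, hvol]
    field_simp
    ring
  · exact hint _ _
  · exact (hint _ _).const_mul _
  · exact (hint _ _).sub ((hint _ _).const_mul _)
  · exact (hint _ _).const_mul _
  · exact ((hint _ _).sub ((hint _ _).const_mul _)).sub ((hint _ _).const_mul _)
  · exact (hint _ _).const_mul _

/-- the isotropic ratio `det Cov / vol^2` from a normalised moment matrix -/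
lemma isoRatio_general {m : ℕ} (w : Fin m → Fin n → ℝ) (c : ℝ) (hc : 0 < c)
    (R : Matrix (Fin (n + 1)) (Fin (n + 1)) ℝ)
    (hMo : momentMatrix (convexHull ℝ (Set.range w)) = c • R)
    (hR00 : R 0 0 = ((n : ℝ) + 1) * ((n : ℝ) + 2)) :
    (covMatrix (convexHull ℝ (Set.range w))).det / (vol (convexHull ℝ (Set.range w))) ^ 2
      = R.det / (c ^ 2 * (((n : ℝ) + 1) * ((n : ℝ) + 2)) ^ (n + 3)) := by
  set K := convexHull ℝ (Set.range w) with hK
  have hpos : (0:ℝ) < ((n : ℝ) + 1) * ((n : ℝ) + 2) := by positivity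
  obtain ⟨q, hq⟩ : ∃ q : ℝ, q = ((n : ℝ) + 1) * ((n : ℝ) + 2) := ⟨_, rfl⟩
  rw [← hq] at hpos hR00 ⊢
  have h00 : momentMatrix K 0 0 = c * q := by
    rw [hMo, Matrix.smul_apply, hR00, smul_eq_mul]
  have hV : momentMatrix K 0 0 ≠ 0 := by
    rw [h00]
    positivity
  rw [covMatrix_eq w hV, det_cov_of_moment _ hV (fun i => momentMatrix_symm K _ _),
    ← momentMatrix_zero_zero K, h00, hMo, Matrix.det_smul, Fintype.card_fin]
  field_simp
  ring




/-- the common value of `det Cov / vol^2` for all `n`-simplices -/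
noncomputable def cn (n : ℕ) : ℝ :=
  ((n : ℝ) + 2) * ((n + 2).factorial : ℝ) ^ 2 / (((n : ℝ) + 1) * ((n : ℝ) + 2)) ^ (n + 3)

lemma cn_pos (n : ℕ) : 0 < cn n := by
  unfold cn
  positivity

/-- column of ones -/
def colOne (N : ℕ) : Matrix (Fin N) (Fin 1) ℝ := Matrix.of fun _ _ => 1
/-- row of ones -/
def rowOne (N : ℕ) : Matrix (Fin 1) (Fin N) ℝ := Matrix.of fun _ _ => 1

lemma det_one_add_ones (N : ℕ) : (1 + colOne N * rowOne N).det = (N : ℝ) + 1 := by
  rw [Matrix.det_one_add_mul_comm, Matrix.det_fin_one]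
  simp [colOne, rowOne, Matrix.mul_apply]
  ring

lemma simplex_R_apply (W : Matrix (Fin (n + 1)) (Fin (n + 1)) ℝ) (a b : Fin (n + 1)) :
    (W * ((1 : Matrix (Fin (n + 1)) (Fin (n + 1)) ℝ) + colOne (n + 1) * rowOne (n + 1))
        * W.transpose) a b
      = ∑ k, W a k * W b k + (∑ k, W a k) * (∑ l, W b l) := by
  have h : W * ((1 : Matrix (Fin (n + 1)) (Fin (n + 1)) ℝ) + colOne (n + 1) * rowOne (n + 1))
        * W.transpose
      = W * W.transpose + (W * colOne (n + 1)) * (rowOne (n + 1) * W.transpose) := by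
    rw [Matrix.mul_add, Matrix.add_mul, Matrix.mul_one]
    simp only [Matrix.mul_assoc]
  rw [h, Matrix.add_apply, Matrix.mul_apply, Matrix.mul_apply, Fin.sum_univ_one]
  simp [Matrix.mul_apply, colOne, rowOne]

theorem isoRatio_simplex (w : Fin (n + 1) → Fin n → ℝ) (hW : (liftMat w).det ≠ 0) :
    (covMatrix (convexHull ℝ (Set.range w))).det / (vol (convexHull ℝ (Set.range w))) ^ 2
      = cn n := by
  have hpos : 0 < |(liftMat w).det| := abs_pos.mpr hW
  have hfac : (0:ℝ) < ((n + 2).factorial : ℝ) := by positivity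
  have hMo : momentMatrix (convexHull ℝ (Set.range w))
      = (|(liftMat w).det| / ((n + 2).factorial : ℝ)) •
        (liftMat w * ((1 : Matrix (Fin (n + 1)) (Fin (n + 1)) ℝ) + colOne (n + 1) * rowOne (n + 1))
          * (liftMat w).transpose) := by
    ext a b
    rw [Matrix.smul_apply, simplex_R_apply, smul_eq_mul]
    exact simplex_moment w hW a b
  have hR00 : (liftMat w * ((1 : Matrix (Fin (n + 1)) (Fin (n + 1)) ℝ)
        + colOne (n + 1) * rowOne (n + 1)) * (liftMat w).transpose) 0 0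
      = ((n : ℝ) + 1) * ((n : ℝ) + 2) := by
    rw [simplex_R_apply]
    simp
    ring
  rw [isoRatio_general w _ (by positivity) _ hMo hR00, Matrix.det_mul, Matrix.det_mul,
    Matrix.det_transpose, det_one_add_ones]
  unfold cn
  have habs : |(liftMat w).det| ^ 2 = (liftMat w).det ^ 2 := sq_abs _
  have hq : (0:ℝ) < ((n : ℝ) + 1) * ((n : ℝ) + 2) := by positivity
  obtain ⟨q, hq'⟩ : ∃ q : ℝ, q = ((n : ℝ) + 1) * ((n : ℝ) + 2) := ⟨_, rfl⟩
  rw [← hq'] at hq ⊢
  rw [div_pow, habs]
  push_cast
  field_simp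
  ring




theorem isoRatio_polytope (v : Fin (n + 2) → Fin n → ℝ) (hd : dep v ≠ 0) :
    (covMatrix (convexHull ℝ (Set.range v))).det / (vol (convexHull ℝ (Set.range v))) ^ 2
      = cn n * ((sqP v + sqN v - sqP v * sqN v / (kap v) ^ 2) / (kap v) ^ 2) := by
  have hk := kap_pos v hd
  have hfac : (0:ℝ) < ((n + 2).factorial : ℝ) := by positivity
  have hMo : momentMatrix (convexHull ℝ (Set.range v))
      = (kap v / ((n + 2).factorial : ℝ)) • ((kap v)⁻¹ • Rmat v) := by
    ext a b
    rw [Matrix.smul_apply, Matrix.smul_apply, smul_eq_mul, smul_eq_mul, momentMatrix_polytope v hd]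
    simp only [Rmat, Matrix.of_apply, kap]
    have hk' : (∑ i ∈ posSet v, dep v i) ≠ 0 := hk.ne'
    field_simp
  have hR00 : ((kap v)⁻¹ • Rmat v) 0 0 = ((n : ℝ) + 1) * ((n : ℝ) + 2) := by
    rw [Matrix.smul_apply, smul_eq_mul]
    simp only [Rmat, Matrix.of_apply, liftMat_zero, mul_one, Finset.sum_const, Finset.card_univ,
      Fintype.card_fin, nsmul_eq_mul]
    have : ∑ i ∈ posSet v, dep v i = kap v := rfl
    rw [this]
    push_cast
    field_simp
    ring
  rw [isoRatio_general v _ (by positivity) _ hMo hR00, Matrix.det_smul, Fintype.card_fin,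
    det_Rmat v hd]
  unfold cn
  have hq : (0:ℝ) < ((n : ℝ) + 1) * ((n : ℝ) + 2) := by positivity
  obtain ⟨q, hq'⟩ : ∃ q : ℝ, q = ((n : ℝ) + 1) * ((n : ℝ) + 2) := ⟨_, rfl⟩
  rw [← hq'] at hq ⊢
  have hk' := hk.ne'
  rw [inv_pow, div_pow]
  field_simp


end Vale.Agent.H68
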