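import Mathlib
import Vale.Agent.H68.IsoDefs

open MeasureTheory Set

namespace Vale.Agent.H68

variable {n : ℕ}

/-- the covariance matrix of the convex hull of finitely many points has nonnegative
determinant -/
lemma covMatrix_det_nonneg {m : ℕ} (w : Fin m → Fin n → ℝ) :
    0 ≤ (covMatrix (convexHull ℝ (Set.range w))).det := by
  set K := convexHull ℝ (Set.range w) with hK
  have hcomp : IsCompact K := (Set.finite_range w).isCompact_convexHull ℝ
  have hint : ∀ i j : Fin n,
      IntegrableOn (fun x : Fin n → ℝ => (x i - centroid K i) * (x j - centroid K j)) K := by
    intro i j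
    exact (((continuous_apply i).sub continuous_const).mul
      ((continuous_apply j).sub continuous_const)).continuousOn.integrableOn_compact hcomp
  have hpsd : (covMatrix K).PosSemidef := by
    refine Matrix.PosSemidef.of_dotProduct_mulVec_nonneg ?_ ?_
    · ext i j
      simp only [covMatrix, Matrix.conjTranspose_apply, Matrix.of_apply, star_trivial]
      congr 2
      funext x
      ring
    · intro z
      have hq : star z ⬝ᵥ (covMatrix K).mulVec z
          = (vol K)⁻¹ * ∫ x in K, (∑ i, z i * (x i - centroid K i)) ^ 2 := by
        have h1 : ∀ x : Fin n → ℝ, (∑ i, z i * (x i - centroid K i)) ^ 2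
            = ∑ i, ∑ j, z i * z j * ((x i - centroid K i) * (x j - centroid K j)) := by
          intro x
          rw [sq, Finset.sum_mul_sum]
          refine Finset.sum_congr rfl fun i _ => Finset.sum_congr rfl fun j _ => ?_
          ring
        simp_rw [h1]
        rw [integral_finsetSum _ fun i _ => integrable_finsetSum _ fun j _ =>
          (hint i j).const_mul _]
        simp only [dotProduct, Matrix.mulVec, star_trivial, covMatrix, Matrix.of_apply,
          Pi.star_apply]
        rw [Finset.mul_sum]
        refine Finset.sum_congr rfl fun i _ => ?_
        rw [integral_finsetSum _ fun j _ => (hint i j).const_mul _, Finset.mul_sum,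
          Finset.mul_sum]
        refine Finset.sum_congr rfl fun j _ => ?_
        rw [integral_const_mul]
        ring
      rw [hq]
      refine mul_nonneg (inv_nonneg.mpr ENNReal.toReal_nonneg) ?_
      exact integral_nonneg fun x => sq_nonneg _
  exact hpsd.det_nonneg

end Vale.Agent.H68
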