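import Mathlib
import Vale.Agent.H68.IsoRatio

open MeasureTheory Set

namespace Vale.Agent.H68

variable {n : ℕ}

/-- nonempty interior forces the lifted square matrix to be invertible -/
lemma det_ne_zero_of_interior (w : Fin (n + 1) → Fin n → ℝ)
    (hint : (interior (convexHull ℝ (Set.range w))).Nonempty) : (liftMat w).det ≠ 0 := by
  intro hdet
  obtain ⟨α, hα0, hα⟩ := Matrix.exists_vecMul_eq_zero_iff.mpr hdet
  exact hα0 (rows_indep_of_interior w hint α hα)

lemma det_ne_zero_of_affineIndependent (w : Fin (n + 1) → Fin n → ℝ)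
    (hw : AffineIndependent ℝ w) : (liftMat w).det ≠ 0 := by
  apply det_ne_zero_of_interior
  rw [interior_convexHull_nonempty_iff_affineSpan_eq_top,
    hw.affineSpan_eq_top_iff_card_eq_finrank_add_one]
  simp

lemma dep_ne_zero_of_interior (v : Fin (n + 2) → Fin n → ℝ)
    (hint : (interior (convexHull ℝ (Set.range v))).Nonempty) : dep v ≠ 0 :=
  dep_ne_zero v (rows_indep_of_interior v hint)

/-- the `i0`-th lifted vertex as a combination of the others -/
lemma col_eq (v : Fin (n + 2) → Fin n → ℝ) {i0 : Fin (n + 2)} (h0 : dep v i0 ≠ 0) :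
    lift (v i0) = (liftMat (v ∘ i0.succAbove)).mulVec (alph v i0) := by
  funext a
  have h := congrFun (liftMat_mulVec_dep v) a
  simp only [Matrix.mulVec, dotProduct, Pi.zero_apply] at h ⊢
  rw [Fin.sum_univ_succAbove _ i0] at h
  have : ∀ k, liftMat (v ∘ i0.succAbove) a k * alph v i0 k
      = -(liftMat v a (i0.succAbove k) * dep v (i0.succAbove k)) / dep v i0 := by
    intro k
    unfold alph
    rw [liftMat_comp_succAbove]
    ring
  simp_rw [this]
  rw [← Finset.sum_div, Finset.sum_neg_distrib, eq_div_iff h0]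
  have hl : lift (v i0) a = liftMat v a i0 := rfl
  rw [hl]
  linarith

lemma range_comp_succAbove (v : Fin (n + 2) → Fin n → ℝ) (i : Fin (n + 2)) :
    Set.range (v ∘ i.succAbove) = v '' {i}ᶜ := by
  rw [Set.range_comp, Fin.range_succAbove]

/-- if all other coefficients have the opposite sign, the vertex is redundant -/
lemma redundant_of_sign (v : Fin (n + 2) → Fin n → ℝ) {i0 : Fin (n + 2)} (h0 : dep v i0 ≠ 0)
    (hs : ∀ k, k ≠ i0 → dep v k * dep v i0 ≤ 0) : v i0 ∈ convexHull ℝ (v '' {i0}ᶜ) := by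
  rw [← range_comp_succAbove, mem_convexHull_range_iff_lift]
  refine ⟨alph v i0, fun k => ?_, (col_eq v h0).symm⟩
  unfold alph
  have h1 := hs (i0.succAbove k) (Fin.succAbove_ne i0 k)
  have h2 : 0 < dep v i0 * dep v i0 := mul_self_pos.mpr h0
  have h3 : -dep v (i0.succAbove k) / dep v i0
      = -(dep v (i0.succAbove k) * dep v i0) / (dep v i0 * dep v i0) := by
    field_simp
  rw [h3]
  exact div_nonneg (by linarith) h2.le

/-- equality in `(∑ f)^2 ≥ ∑ f^2` forces at most one nonzero term -/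
lemma eq_zero_of_sq_sum_eq {ι : Type*} (s : Finset ι) (f : ι → ℝ) (hf : ∀ i ∈ s, 0 ≤ f i)
    (h : (∑ i ∈ s, f i) ^ 2 = ∑ i ∈ s, (f i) ^ 2) {i1 : ι} (hi1 : i1 ∈ s) (hpos : 0 < f i1)
    {k : ι} (hk : k ∈ s) (hne : k ≠ i1) : f k = 0 := by
  classical
  by_contra hfk
  have hkpos : 0 < f k := lt_of_le_of_ne (hf k hk) (Ne.symm hfk)
  set κ := ∑ i ∈ s, f i with hκ
  have hle : ∀ i ∈ s, f i ≤ κ := fun i hi => Finset.single_le_sum hf hi
  have hsum : ∑ i ∈ s, f i * (κ - f i) = 0 := by
    have : ∑ i ∈ s, f i * (κ - f i) = κ * κ - ∑ i ∈ s, (f i) ^ 2 := by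
      simp_rw [mul_sub]
      rw [Finset.sum_sub_distrib, ← Finset.sum_mul, ← hκ]
      congr 1
      exact Finset.sum_congr rfl fun i _ => (sq (f i)).symm
    rw [this, ← h]
    ring
  have hterm := (Finset.sum_eq_zero_iff_of_nonneg
    (fun i hi => mul_nonneg (hf i hi) (sub_nonneg.mpr (hle i hi)))).mp hsum i1 hi1
  have hκ1 : κ = f i1 := by
    rcases mul_eq_zero.mp hterm with h' | h'
    · exact absurd h' hpos.ne'
    · linarith
  have hpair : f i1 + f k ≤ κ := by
    have hsub : ({i1, k} : Finset ι) ⊆ s := by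
      intro x hx
      rcases Finset.mem_insert.mp hx with rfl | hx
      · exact hi1
      · rw [Finset.mem_singleton.mp hx]; exact hk
    have := Finset.sum_le_sum_of_subset_of_nonneg (f := f) hsub (fun i hi _ => hf i hi)
    rwa [Finset.sum_pair (Ne.symm hne)] at this
  linarith




lemma sqP_le (v : Fin (n + 2) → Fin n → ℝ) : sqP v ≤ (kap v) ^ 2 := by
  unfold sqP kap
  have hnn : ∀ i ∈ posSet v, 0 ≤ dep v i := fun i hi => ((mem_posSet v i).mp hi).le
  calc ∑ i ∈ posSet v, (dep v i) ^ 2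
      ≤ ∑ i ∈ posSet v, dep v i * ∑ j ∈ posSet v, dep v j := by
        refine Finset.sum_le_sum fun i hi => ?_
        rw [sq]
        exact mul_le_mul_of_nonneg_left (Finset.single_le_sum hnn hi) (hnn i hi)
    _ = (∑ i ∈ posSet v, dep v i) ^ 2 := by rw [← Finset.sum_mul, sq]

lemma sqN_le (v : Fin (n + 2) → Fin n → ℝ) : sqN v ≤ (kap v) ^ 2 := by
  rw [← kap_eq_sum_dneg]
  unfold sqN
  have hnn : ∀ i ∈ (Finset.univ : Finset (Fin (n + 2))), 0 ≤ dneg v i :=
    fun i _ => dneg_nonneg v i
  calc ∑ k, (dneg v k) ^ 2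
      ≤ ∑ k, dneg v k * ∑ j, dneg v j := by
        refine Finset.sum_le_sum fun i hi => ?_
        rw [sq]
        exact mul_le_mul_of_nonneg_left (Finset.single_le_sum hnn hi) (hnn i hi)
    _ = (∑ k, dneg v k) ^ 2 := by rw [← Finset.sum_mul, sq]

lemma sqN_nonneg (v : Fin (n + 2) → Fin n → ℝ) : 0 ≤ sqN v :=
  Finset.sum_nonneg fun _ _ => sq_nonneg _

lemma sqP_pos (v : Fin (n + 2) → Fin n → ℝ) (hd : dep v ≠ 0) : 0 < sqP v := by
  unfold sqP
  exact Finset.sum_pos (fun i hi => pow_pos ((mem_posSet v i).mp hi) 2) (posSet_nonempty v hd)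

/-- the reduction factor in the closed formula -/
noncomputable def rho (v : Fin (n + 2) → Fin n → ℝ) : ℝ :=
  (sqP v + sqN v - sqP v * sqN v / (kap v) ^ 2) / (kap v) ^ 2

lemma one_sub_rho (v : Fin (n + 2) → Fin n → ℝ) (hd : dep v ≠ 0) :
    1 - rho v = (1 - sqP v / (kap v) ^ 2) * (1 - sqN v / (kap v) ^ 2) := by
  have hk := (kap_pos v hd).ne'
  unfold rho
  field_simp
  ring

lemma rho_le_one (v : Fin (n + 2) → Fin n → ℝ) (hd : dep v ≠ 0) : rho v ≤ 1 := by
  have hk := kap_pos v hd
  have h1 : 0 ≤ 1 - sqP v / (kap v) ^ 2 := by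
    rw [sub_nonneg, div_le_one (by positivity)]
    exact sqP_le v
  have h2 : 0 ≤ 1 - sqN v / (kap v) ^ 2 := by
    rw [sub_nonneg, div_le_one (by positivity)]
    exact sqN_le v
  have := mul_nonneg h1 h2
  rw [← one_sub_rho v hd] at this
  linarith

lemma rho_pos (v : Fin (n + 2) → Fin n → ℝ) (hd : dep v ≠ 0) : 0 < rho v := by
  have hk := kap_pos v hd
  have hP := sqP_pos v hd
  have hPle := sqP_le v
  have hN := sqN_nonneg v
  unfold rho
  apply div_pos _ (by positivity)
  have h1 : sqP v * sqN v / (kap v) ^ 2 ≤ sqN v := by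
    rw [div_le_iff₀ (by positivity)]
    nlinarith
  linarith

lemma rho_eq_one_iff (v : Fin (n + 2) → Fin n → ℝ) (hd : dep v ≠ 0) :
    rho v = 1 ↔ sqP v = (kap v) ^ 2 ∨ sqN v = (kap v) ^ 2 := by
  have hk := kap_pos v hd
  have hk2 : (0:ℝ) < (kap v) ^ 2 := by positivity
  have h := one_sub_rho v hd
  constructor
  · intro hr
    rw [hr, sub_self] at h
    rcases mul_eq_zero.mp h.symm with h' | h'
    · left
      have := sub_eq_zero.mp h'
      field_simp at this
      linarith
    · right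
      have := sub_eq_zero.mp h'
      field_simp at this
      linarith
  · rintro (h' | h')
    · rw [h', div_self hk2.ne', sub_self, zero_mul] at h
      linarith
    · rw [h', div_self hk2.ne', sub_self, mul_zero] at h
      linarith

lemma redundant_of_sqP (v : Fin (n + 2) → Fin n → ℝ) (hd : dep v ≠ 0)
    (h : sqP v = (kap v) ^ 2) : ∃ j, v j ∈ convexHull ℝ (v '' {j}ᶜ) := by
  obtain ⟨i1, hi1⟩ := posSet_nonempty v hd
  have h1 : 0 < dep v i1 := (mem_posSet v i1).mp hi1
  refine ⟨i1, redundant_of_sign v h1.ne' fun k hk => ?_⟩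
  have hle : dep v k ≤ 0 := by
    by_contra hcon
    have hkpos : 0 < dep v k := not_le.mp hcon
    have := eq_zero_of_sq_sum_eq (posSet v) (dep v)
      (fun i hi => ((mem_posSet v i).mp hi).le) h.symm hi1 h1 ((mem_posSet v k).mpr hkpos) hk
    linarith
  exact mul_nonpos_of_nonpos_of_nonneg hle h1.le

lemma redundant_of_sqN (v : Fin (n + 2) → Fin n → ℝ) (hd : dep v ≠ 0)
    (h : sqN v = (kap v) ^ 2) : ∃ j, v j ∈ convexHull ℝ (v '' {j}ᶜ) := by
  have hk := kap_pos v hd
  have hsum := kap_eq_sum_dneg v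
  obtain ⟨j1, -, hj1⟩ : ∃ j ∈ (Finset.univ : Finset (Fin (n + 2))), 0 < dneg v j := by
    by_contra hcon
    push Not at hcon
    have : ∑ k, dneg v k ≤ 0 := Finset.sum_nonpos fun k hk2 => hcon k hk2
    linarith
  have hj1neg : dep v j1 < 0 := by
    unfold dneg at hj1
    split_ifs at hj1 with h'
    · exact absurd hj1 (lt_irrefl _)
    · linarith
  refine ⟨j1, redundant_of_sign v hj1neg.ne fun k hk' => ?_⟩
  have hz := eq_zero_of_sq_sum_eq (Finset.univ : Finset (Fin (n + 2))) (dneg v)
    (fun i _ => dneg_nonneg v i) (by rw [hsum]; exact h.symm) (Finset.mem_univ j1) hj1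
    (Finset.mem_univ k) hk'
  have hge : 0 ≤ dep v k := by
    unfold dneg at hz
    split_ifs at hz with h'
    · exact h'.le
    · linarith
  exact mul_nonpos_of_nonneg_of_nonpos hge hj1neg.le

lemma isoRatio_of_redundant (v : Fin (n + 2) → Fin n → ℝ)
    (hint : (interior (convexHull ℝ (Set.range v))).Nonempty)
    (h : ∃ j, v j ∈ convexHull ℝ (v '' {j}ᶜ)) :
    (covMatrix (convexHull ℝ (Set.range v))).det / (vol (convexHull ℝ (Set.range v))) ^ 2
      = cn n := by
  obtain ⟨j, hj⟩ := h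
  rw [← range_comp_succAbove] at hj
  have hK : convexHull ℝ (Set.range v) = convexHull ℝ (Set.range (v ∘ j.succAbove)) := by
    apply Set.Subset.antisymm
    · apply convexHull_min _ (convex_convexHull ℝ _)
      rintro _ ⟨k, rfl⟩
      rcases Fin.eq_self_or_eq_succAbove j k with h' | ⟨k', h'⟩
      · rw [h']; exact hj
      · rw [h']; exact subset_convexHull ℝ _ (Set.mem_range_self k')
    · exact face_subset v j
  rw [hK] at hint ⊢
  exact isoRatio_simplex _ (det_ne_zero_of_interior _ hint)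




/-- Strong isotropic constant inequality for convex hulls of `n + 2` points in `ℝ^n`. -/
theorem iso_main (hn : 0 < n) (v : Fin (n + 2) → Fin n → ℝ)
    (hint : (interior (convexHull ℝ (Set.range v))).Nonempty)
    (w : Fin (n + 1) → Fin n → ℝ) (hw : AffineIndependent ℝ w) :
    isoConst (convexHull ℝ (Set.range v)) ≤ isoConst (convexHull ℝ (Set.range w)) ∧
      (isoConst (convexHull ℝ (Set.range v)) = isoConst (convexHull ℝ (Set.range w)) ↔
        ∃ j, v j ∈ convexHull ℝ (v '' {j}ᶜ)) := by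
  have hd := dep_ne_zero_of_interior v hint
  have hK : (covMatrix (convexHull ℝ (Set.range v))).det / (vol (convexHull ℝ (Set.range v))) ^ 2
      = cn n * rho v := isoRatio_polytope v hd
  have hS : (covMatrix (convexHull ℝ (Set.range w))).det / (vol (convexHull ℝ (Set.range w))) ^ 2
      = cn n := isoRatio_simplex w (det_ne_zero_of_affineIndependent w hw)
  have hn' : (0:ℝ) < n := by exact_mod_cast hn
  have he : (0:ℝ) < 1 / (2 * (n : ℝ)) := by positivity
  have hc := cn_pos n
  have hr := rho_pos v hd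
  have hr1 := rho_le_one v hd
  have hle : cn n * rho v ≤ cn n := mul_le_of_le_one_right hc.le hr1
  have hnn : (0:ℝ) ≤ cn n * rho v := by positivity
  unfold isoConst
  rw [hK, hS]
  refine ⟨Real.rpow_le_rpow hnn hle he.le, ?_, ?_⟩
  · intro heq
    have hr_eq : rho v = 1 := by
      by_contra hne
      have hlt : cn n * rho v < cn n := by
        have : rho v < 1 := lt_of_le_of_ne hr1 hne
        nlinarith
      exact absurd heq (Real.rpow_lt_rpow hnn hlt he).ne
    rcases (rho_eq_one_iff v hd).mp hr_eq with h | h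
    · exact redundant_of_sqP v hd h
    · exact redundant_of_sqN v hd h
  · intro h
    rw [← hK, isoRatio_of_redundant v hint h]


end Vale.Agent.H68
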