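import Mathlib

namespace Vale.Agent.H68

variable {n : ℕ}

/-- Partial derivative in the `i`-th coordinate direction: the derivative at `t = 0` of
`t ↦ g (x + t • e_i)`. -/
noncomputable def pd (i : Fin n) (g : (Fin n → ℝ) → ℝ) (x : Fin n → ℝ) : ℝ :=
  lineDeriv ℝ g x (Pi.single i 1)

/-- Hessian matrix `(∂_i ∂_j u)(x)`. -/
noncomputable def hess (u : (Fin n → ℝ) → ℝ) (x : Fin n → ℝ) : Matrix (Fin n) (Fin n) ℝ :=
  Matrix.of fun i j => pd i (pd j u) x

/-- The function `w = (det D²u)^(-(n+1)/(n+2))`. -/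
noncomputable def amW (u : (Fin n → ℝ) → ℝ) (x : Fin n → ℝ) : ℝ :=
  (hess u x).det ^ (-((n : ℝ) + 1) / ((n : ℝ) + 2))

/-- Left-hand side of the affine maximal equation, `∑_{i,j} U^{ij} ∂_i ∂_j w`, where
`U = det(D²u) • (D²u)⁻¹` is the cofactor matrix of the Hessian. -/
noncomputable def amOp (u : (Fin n → ℝ) → ℝ) (x : Fin n → ℝ) : ℝ :=
  ∑ i, ∑ j, ((hess u x).det • (hess u x)⁻¹) i j * pd i (pd j (amW u)) x

end Vale.Agent.H68
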