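import Mathlib
import Vale.Agent.H68.AMDefs

namespace Vale.Agent.H68

open scoped ContDiff

variable {n : ℕ}

lemma pd_eq_deriv (i : Fin n) (g : (Fin n → ℝ) → ℝ) (x : Fin n → ℝ) :
    pd i g x = deriv (fun t : ℝ => g (x + t • Pi.single i 1)) 0 := rfl

lemma add_smul_single_apply (x : Fin n → ℝ) (t : ℝ) (i j : Fin n) :
    (x + t • (Pi.single i (1:ℝ) : Fin n → ℝ)) j = if j = i then x j + t else x j := by
  by_cases h : j = i
  · subst h; simp
  · simp [h]

/-- partial derivative of a function whose restriction to the `i`-th coordinate line through `x`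
is `t ↦ c * ψ (x i + t) + k` -/
lemma pd_of_line (i : Fin n) (g : (Fin n → ℝ) → ℝ) (x : Fin n → ℝ) (ψ : ℝ → ℝ) (c k : ℝ)
    (h : ∀ t : ℝ, g (x + t • Pi.single i 1) = c * ψ (x i + t) + k) :
    pd i g x = c * deriv ψ (x i) := by
  rw [pd_eq_deriv]
  have : (fun t : ℝ => g (x + t • Pi.single i 1)) = fun t => c * ψ (x i + t) + k := funext h
  rw [this, deriv_add_const, deriv_const_mul_field, deriv_comp_const_add, add_zero]

/-- partial derivative of a function constant along the `i`-th coordinate line through `x` -/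
lemma pd_of_line_const (i : Fin n) (g : (Fin n → ℝ) → ℝ) (x : Fin n → ℝ) (k : ℝ)
    (h : ∀ t : ℝ, g (x + t • Pi.single i 1) = k) : pd i g x = 0 := by
  rw [pd_eq_deriv]
  have : (fun t : ℝ => g (x + t • Pi.single i 1)) = fun _ => k := funext h
  rw [this, deriv_const]

section separable

variable (u : (Fin n → ℝ) → ℝ) (f : Fin n → ℝ → ℝ)

lemma sep_line (hsep : ∀ x, u x = ∑ i, f i (x i)) (x : Fin n → ℝ) (j : Fin n) (t : ℝ) :
    u (x + t • Pi.single j 1) = 1 * f j (x j + t) + ∑ i ∈ Finset.univ.erase j, f i (x i) := by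
  rw [hsep, ← Finset.add_sum_erase _ _ (Finset.mem_univ j), add_smul_single_apply, if_pos rfl,
    one_mul]
  congr 1
  refine Finset.sum_congr rfl fun i hi => ?_
  rw [add_smul_single_apply, if_neg (Finset.ne_of_mem_erase hi)]

lemma pd_sep (hsep : ∀ x, u x = ∑ i, f i (x i)) (j : Fin n) :
    pd j u = fun x => deriv (f j) (x j) := by
  funext x
  rw [pd_of_line j u x (f j) 1 _ (sep_line u f hsep x j), one_mul]

lemma hess_sep (hsep : ∀ x, u x = ∑ i, f i (x i)) (x : Fin n → ℝ) :
    hess u x = Matrix.diagonal fun i => deriv (deriv (f i)) (x i) := by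
  ext i j
  simp only [hess, Matrix.of_apply, pd_sep u f hsep j, Matrix.diagonal_apply]
  by_cases hij : i = j
  · subst hij
    rw [if_pos rfl]
    have := pd_of_line i (fun y => deriv (f i) (y i)) x (deriv (f i)) 1 0 (fun t => by
      simp)
    rw [this, one_mul]
  · rw [if_neg hij]
    exact pd_of_line_const i _ x (deriv (f j) (x j)) (fun t => by
      simp [Ne.symm hij])

/-- the exponent `-(n+1)/(n+2)` -/
noncomputable def amExp (n : ℕ) : ℝ := -((n : ℝ) + 1) / ((n : ℝ) + 2)

/-- `φ_i = (f_i'')^(-(n+1)/(n+2))` -/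
noncomputable def sepPhi (i : Fin n) (s : ℝ) : ℝ := (deriv (deriv (f i)) s) ^ (amExp n)

lemma amW_sep (hsep : ∀ x, u x = ∑ i, f i (x i))
    (hpos : ∀ i s, 0 < deriv (deriv (f i)) s) :
    amW u = fun x => ∏ i, sepPhi f i (x i) := by
  funext x
  simp only [amW, hess_sep u f hsep x, Matrix.det_diagonal, sepPhi, amExp]
  rw [Real.finsetProd_rpow _ _ (fun i _ => (hpos i (x i)).le)]

lemma amW_sep_line (hsep : ∀ x, u x = ∑ i, f i (x i))
    (hpos : ∀ i s, 0 < deriv (deriv (f i)) s) (x : Fin n → ℝ) (j : Fin n) (t : ℝ) :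
    amW u (x + t • Pi.single j 1)
      = (∏ i ∈ Finset.univ.erase j, sepPhi f i (x i)) * sepPhi f j (x j + t) + 0 := by
  rw [amW_sep u f hsep hpos, add_zero]
  simp only
  rw [← Finset.mul_prod_erase _ _ (Finset.mem_univ j), add_smul_single_apply, if_pos rfl,
    mul_comm]
  congr 1
  refine Finset.prod_congr rfl fun i hi => ?_
  rw [add_smul_single_apply, if_neg (Finset.ne_of_mem_erase hi)]

lemma pd_amW_sep (hsep : ∀ x, u x = ∑ i, f i (x i))
    (hpos : ∀ i s, 0 < deriv (deriv (f i)) s) (j : Fin n) :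
    pd j (amW u) = fun x => (∏ i ∈ Finset.univ.erase j, sepPhi f i (x i))
      * deriv (sepPhi f j) (x j) := by
  funext x
  exact pd_of_line j (amW u) x (sepPhi f j) _ 0 (amW_sep_line u f hsep hpos x j)

lemma pd_pd_amW_sep (hsep : ∀ x, u x = ∑ i, f i (x i))
    (hpos : ∀ i s, 0 < deriv (deriv (f i)) s) (j : Fin n) (x : Fin n → ℝ) :
    pd j (pd j (amW u)) x = (∏ i ∈ Finset.univ.erase j, sepPhi f i (x i))
      * deriv (deriv (sepPhi f j)) (x j) := by
  rw [pd_amW_sep u f hsep hpos j]
  refine pd_of_line j _ x (deriv (sepPhi f j)) _ 0 (fun t => ?_)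
  simp only [add_zero]
  rw [add_smul_single_apply, if_pos rfl]
  congr 1
  refine Finset.prod_congr rfl fun i hi => ?_
  rw [add_smul_single_apply, if_neg (Finset.ne_of_mem_erase hi)]

lemma amOp_sep (hsep : ∀ x, u x = ∑ i, f i (x i))
    (hpos : ∀ i s, 0 < deriv (deriv (f i)) s) (x : Fin n → ℝ) :
    amOp u x = ∑ i, (∏ k, deriv (deriv (f k)) (x k)) * (deriv (deriv (f i)) (x i))⁻¹
      * ((∏ k ∈ Finset.univ.erase i, sepPhi f k (x k)) * deriv (deriv (sepPhi f i)) (x i)) := by
  have hinv : (Matrix.diagonal fun i => deriv (deriv (f i)) (x i))⁻¹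
      = Matrix.diagonal fun i => (deriv (deriv (f i)) (x i))⁻¹ := by
    apply Matrix.inv_eq_right_inv
    rw [Matrix.diagonal_mul_diagonal]
    have : (fun i => deriv (deriv (f i)) (x i) * (deriv (deriv (f i)) (x i))⁻¹) = fun _ => 1 := by
      funext i
      exact mul_inv_cancel₀ (hpos i (x i)).ne'
    rw [this, Matrix.diagonal_one]
  simp only [amOp, hess_sep u f hsep x, hinv, Matrix.det_diagonal, Matrix.smul_apply,
    Matrix.diagonal_apply, smul_eq_mul]
  refine Finset.sum_congr rfl fun i _ => ?_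
  rw [Finset.sum_eq_single i]
  · rw [if_pos rfl, pd_pd_amW_sep u f hsep hpos i x]
  · intro j _ hji
    rw [if_neg (Ne.symm hji)]
    simp
  · intro hi
    exact absurd (Finset.mem_univ i) hi

end separable

/-- a positive function on the line with nonpositive second derivative is constant -/
lemma deriv_eq_zero_of_concave_pos (φ : ℝ → ℝ) (hφ : Differentiable ℝ φ)
    (hφ' : Differentiable ℝ (deriv φ)) (hpos : ∀ s, 0 < φ s)
    (hcc : ∀ s, deriv (deriv φ) s ≤ 0) : ∀ s, deriv φ s = 0 := by
  have hanti : Antitone (deriv φ) := antitone_of_deriv_nonpos hφ' hcc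
  intro s0
  by_contra hne
  rcases lt_or_gt_of_ne hne with hm | hm
  · -- negative slope: go to the right
    set m := deriv φ s0 with hmdef
    set t := s0 + φ s0 / (-m) + 1 with ht
    have hlt : s0 < t := by
      have : 0 < φ s0 / (-m) := div_pos (hpos s0) (by linarith)
      linarith
    obtain ⟨ξ, hξ, hξeq⟩ := exists_deriv_eq_slope φ hlt hφ.continuous.continuousOn
      hφ.differentiableOn
    have hle : deriv φ ξ ≤ m := hanti hξ.1.le
    have hts : 0 < t - s0 := by linarith
    have h1 : φ t - φ s0 ≤ m * (t - s0) := by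
      rw [hξeq, div_le_iff₀ hts] at hle
      exact hle
    have h2 : m * (t - s0) = -φ s0 + m := by
      have hmne : -m ≠ 0 := by linarith
      rw [ht]
      field_simp
      ring
    have := hpos t
    linarith
  · -- positive slope: go to the left
    set m := deriv φ s0 with hmdef
    set t := s0 - φ s0 / m - 1 with ht
    have hlt : t < s0 := by
      have : 0 < φ s0 / m := div_pos (hpos s0) hm
      linarith
    obtain ⟨ξ, hξ, hξeq⟩ := exists_deriv_eq_slope φ hlt hφ.continuous.continuousOn
      hφ.differentiableOn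
    have hle : m ≤ deriv φ ξ := hanti hξ.2.le
    have hts : 0 < s0 - t := by linarith
    have h1 : m * (s0 - t) ≤ φ s0 - φ t := by
      rw [hξeq, le_div_iff₀ hts] at hle
      exact hle
    have h2 : m * (s0 - t) = φ s0 + m := by
      have hmne : m ≠ 0 := hm.ne'
      rw [ht]
      field_simp
      ring
    have := hpos t
    linarith

/-- a function with constant second derivative `2a` is a quadratic polynomial -/
lemma quadratic_of_deriv2_const (g : ℝ → ℝ) (hg : Differentiable ℝ g)
    (hg' : Differentiable ℝ (deriv g)) (a : ℝ) (h : ∀ s, deriv (deriv g) s = 2 * a) :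
    ∀ s, g s = a * s ^ 2 + deriv g 0 * s + g 0 := by
  -- first derivative
  have h1 : ∀ s, deriv g s = 2 * a * s + deriv g 0 := by
    intro s
    have hd : Differentiable ℝ (fun s => deriv g s - 2 * a * s) :=
      hg'.sub ((differentiable_const _).mul differentiable_id)
    have hz : ∀ x, deriv (fun s => deriv g s - 2 * a * s) x = 0 := by
      intro x
      have : HasDerivAt (fun s => deriv g s - 2 * a * s) (deriv (deriv g) x - 2 * a * 1) x :=
        (hg' x).hasDerivAt.sub ((hasDerivAt_id x).const_mul (2 * a))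
      rw [this.deriv, h x]
      ring
    have := is_const_of_deriv_eq_zero hd hz s 0
    simp only [mul_zero, sub_zero] at this
    linarith
  intro s
  have hd : Differentiable ℝ (fun s => g s - a * s ^ 2 - deriv g 0 * s) :=
    (hg.sub ((differentiable_const _).mul (differentiable_id.pow 2))).sub
      ((differentiable_const _).mul differentiable_id)
  have hz : ∀ x, deriv (fun s => g s - a * s ^ 2 - deriv g 0 * s) x = 0 := by
    intro x
    have : HasDerivAt (fun s => g s - a * s ^ 2 - deriv g 0 * s)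
        (deriv g x - a * (2 * x ^ 1 * 1) - deriv g 0 * 1) x :=
      ((hg x).hasDerivAt.sub (((hasDerivAt_id x).pow 2).const_mul a)).sub
        ((hasDerivAt_id x).const_mul (deriv g 0))
    rw [this.deriv, h1 x]
    ring
  have := is_const_of_deriv_eq_zero hd hz s 0
  simp only [mul_zero, sub_zero] at this
  have h0 : (0:ℝ) ^ 2 = 0 := by norm_num
  rw [h0, mul_zero, sub_zero] at this
  linarith


lemma amExp_ne_zero (n : ℕ) : amExp n ≠ 0 := by
  unfold amExp
  have h1 : (0:ℝ) < (n : ℝ) + 1 := by positivity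
  have h2 : (0:ℝ) < (n : ℝ) + 2 := by positivity
  have : -((n : ℝ) + 1) / ((n : ℝ) + 2) < 0 := div_neg_of_neg_of_pos (by linarith) h2
  exact this.ne

theorem am_separable (u : (Fin n → ℝ) → ℝ) (f : Fin n → ℝ → ℝ)
    (hsep : ∀ x, u x = ∑ i, f i (x i))
    (hsm : ContDiff ℝ ((⊤ : ℕ∞) : WithTop ℕ∞) u)
    (hpos : ∀ x, (hess u x).PosDef)
    (hAM : ∀ x, amOp u x = 0) :
    ∃ (a b : Fin n → ℝ) (c : ℝ), (∀ i, 0 < a i) ∧
      ∀ x, u x = ∑ i, (a i * x i ^ 2 + b i * x i) + c := by
  classical
  -- smoothness of the one-variable functions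
  have hfsm : ∀ i, ContDiff ℝ ∞ (f i) := by
    intro i
    have hfi : f i = fun s : ℝ => u (s • (Pi.single i (1:ℝ) : Fin n → ℝ))
        - ∑ k ∈ Finset.univ.erase i, f k 0 := by
      funext s
      have := sep_line u f hsep 0 i s
      simp only [zero_add, Pi.zero_apply, one_mul] at this
      rw [this]
      ring
    rw [hfi]
    exact (hsm.comp (contDiff_id.smul contDiff_const)).sub contDiff_const
  -- positivity of the second derivatives
  have hh : ∀ i s, 0 < deriv (deriv (f i)) s := by
    intro i s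
    have h1 := hpos (fun _ => s)
    rw [hess_sep u f hsep, Matrix.posDef_diagonal_iff] at h1
    exact h1 i
  have hf1 : ∀ i, Differentiable ℝ (f i) := fun i => (contDiff_infty_iff_deriv.mp (hfsm i)).1
  have hf2sm : ∀ i, ContDiff ℝ ∞ (deriv (f i)) := fun i => (contDiff_infty_iff_deriv.mp (hfsm i)).2
  have hf2 : ∀ i, Differentiable ℝ (deriv (f i)) :=
    fun i => (contDiff_infty_iff_deriv.mp (hf2sm i)).1
  have hhsm : ∀ i, ContDiff ℝ ∞ (deriv (deriv (f i))) :=
    fun i => (contDiff_infty_iff_deriv.mp (hf2sm i)).2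
  have hφsm : ∀ i, ContDiff ℝ ∞ (sepPhi f i) := by
    intro i
    exact (hhsm i).rpow_const_of_ne (fun s => (hh i s).ne')
  have hφ1 : ∀ i, Differentiable ℝ (sepPhi f i) :=
    fun i => (contDiff_infty_iff_deriv.mp (hφsm i)).1
  have hφ2 : ∀ i, Differentiable ℝ (deriv (sepPhi f i)) :=
    fun i => (contDiff_infty_iff_deriv.mp (contDiff_infty_iff_deriv.mp (hφsm i)).2).1
  have hφpos : ∀ i s, 0 < sepPhi f i s := fun i s => Real.rpow_pos_of_pos (hh i s) _
  -- the separated equation
  set G : Fin n → ℝ → ℝ := fun i s =>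
    deriv (deriv (sepPhi f i)) s / (deriv (deriv (f i)) s * sepPhi f i s) with hG
  have hsum : ∀ x : Fin n → ℝ, ∑ i, G i (x i) = 0 := by
    intro x
    have h1 := hAM x
    rw [amOp_sep u f hsep hh x] at h1
    set H := ∏ k, deriv (deriv (f k)) (x k) with hH
    set Φ := ∏ k, sepPhi f k (x k) with hΦ
    have hHpos : 0 < H := Finset.prod_pos fun k _ => hh k (x k)
    have hΦpos : 0 < Φ := Finset.prod_pos fun k _ => hφpos k (x k)
    have hterm : ∀ i ∈ Finset.univ, H * (deriv (deriv (f i)) (x i))⁻¹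
        * ((∏ k ∈ Finset.univ.erase i, sepPhi f k (x k)) * deriv (deriv (sepPhi f i)) (x i))
        = H * Φ * G i (x i) := by
      intro i _
      have hP : Φ = sepPhi f i (x i) * ∏ k ∈ Finset.univ.erase i, sepPhi f k (x k) :=
        (Finset.mul_prod_erase _ _ (Finset.mem_univ i)).symm
      have h2 := (hh i (x i)).ne'
      have h3 := (hφpos i (x i)).ne'
      rw [hP, hG]
      field_simp
    rw [Finset.sum_congr rfl hterm, ← Finset.mul_sum] at h1
    rcases mul_eq_zero.mp h1 with h | h
    · exact absurd h (mul_pos hHpos hΦpos).ne'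
    · exact h
  have hconst : ∀ i s, G i s = G i 0 := by
    intro i s
    have h1 := hsum (Function.update (0 : Fin n → ℝ) i s)
    have h2 := hsum (0 : Fin n → ℝ)
    rw [← Finset.add_sum_erase _ _ (Finset.mem_univ i)] at h1 h2
    have h3 : ∑ k ∈ Finset.univ.erase i, G k (Function.update (0 : Fin n → ℝ) i s k)
        = ∑ k ∈ Finset.univ.erase i, G k ((0 : Fin n → ℝ) k) := by
      refine Finset.sum_congr rfl fun k hk => ?_
      rw [Function.update_of_ne (Finset.ne_of_mem_erase hk)]
    rw [h3, Function.update_self] at h1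
    simp only [Pi.zero_apply] at h1 h2
    linarith
  have hode : ∀ i s, deriv (deriv (sepPhi f i)) s
      = G i 0 * (deriv (deriv (f i)) s * sepPhi f i s) := by
    intro i s
    rw [← hconst i s, hG]
    have h2 := (hh i s).ne'
    have h3 := (hφpos i s).ne'
    field_simp
  have hprodpos : ∀ i s, 0 < deriv (deriv (f i)) s * sepPhi f i s :=
    fun i s => mul_pos (hh i s) (hφpos i s)
  have hczero_of_nonpos : ∀ i, G i 0 ≤ 0 → G i 0 = 0 := by
    intro i hc
    have hcc : ∀ s, deriv (deriv (sepPhi f i)) s ≤ 0 := by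
      intro s
      rw [hode i s]
      exact mul_nonpos_of_nonpos_of_nonneg hc (hprodpos i s).le
    have hd := deriv_eq_zero_of_concave_pos (sepPhi f i) (hφ1 i) (hφ2 i) (hφpos i) hcc
    have hdd : deriv (deriv (sepPhi f i)) 0 = 0 := by
      have : deriv (sepPhi f i) = fun _ => 0 := funext hd
      rw [this]
      simp
    rw [hode i 0] at hdd
    rcases mul_eq_zero.mp hdd with h | h
    · exact h
    · exact absurd h (hprodpos i 0).ne'
  have hcnn : ∀ i, 0 ≤ G i 0 := by
    intro i
    by_contra hneg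
    have hlt : G i 0 < 0 := not_le.mp hneg
    have := hczero_of_nonpos i hlt.le
    linarith
  have hc0 : ∀ i, G i 0 = 0 := by
    have h2 := hsum (0 : Fin n → ℝ)
    simp only [Pi.zero_apply] at h2
    intro i
    exact (Finset.sum_eq_zero_iff_of_nonneg (fun i _ => hcnn i)).mp h2 i (Finset.mem_univ i)
  -- each `φ_i` is constant, hence each `f_i''` is constant
  have hφconst : ∀ i s, sepPhi f i s = sepPhi f i 0 := by
    intro i s
    have hcc : ∀ s, deriv (deriv (sepPhi f i)) s ≤ 0 := by
      intro s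
      rw [hode i s, hc0 i, zero_mul]
    have hd := deriv_eq_zero_of_concave_pos (sepPhi f i) (hφ1 i) (hφ2 i) (hφpos i) hcc
    exact is_const_of_deriv_eq_zero (hφ1 i) hd s 0
  have hhconst : ∀ i s, deriv (deriv (f i)) s = deriv (deriv (f i)) 0 := by
    intro i s
    have := hφconst i s
    unfold sepPhi at this
    exact (Real.rpow_left_inj (hh i s).le (hh i 0).le (amExp_ne_zero n)).mp this
  refine ⟨fun i => deriv (deriv (f i)) 0 / 2, fun i => deriv (f i) 0, ∑ i, f i 0,
    fun i => by have := hh i 0; positivity, fun x => ?_⟩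
  rw [hsep x, ← Finset.sum_add_distrib]
  refine Finset.sum_congr rfl fun i _ => ?_
  have := quadratic_of_deriv2_const (f i) (hf1 i) (hf2 i) (deriv (deriv (f i)) 0 / 2)
    (fun s => by rw [hhconst i s]; ring) (x i)
  rw [this]


end Vale.Agent.H68
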