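import Mathlib
import Vale.Agent.H68.AMDefs
import Vale.Agent.H68.AMSep

namespace Vale.Agent.H68

open scoped ContDiff Topology

variable {n : ℕ}

/-- `pd` only depends on the germ of the function -/
lemma pd_congr_of_eventuallyEq (i : Fin n) {g g' : (Fin n → ℝ) → ℝ} {x : Fin n → ℝ}
    (h : g =ᶠ[𝓝 x] g') : pd i g x = pd i g' x := by
  unfold pd
  exact h.lineDeriv_eq

lemma pd_eqOn_of_eqOn (i : Fin n) {Ω : Set (Fin n → ℝ)} (hΩ : IsOpen Ω)
    {g g' : (Fin n → ℝ) → ℝ} (h : Set.EqOn g g' Ω) : Set.EqOn (pd i g) (pd i g') Ω :=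
  fun _ hx => pd_congr_of_eventuallyEq i (h.eventuallyEq_of_mem (hΩ.mem_nhds hx))

/-- the global separable model function -/
noncomputable def sepFun (f : Fin n → ℝ → ℝ) : (Fin n → ℝ) → ℝ := fun x => ∑ i, f i (x i)

/-- the global product model for `w` -/
noncomputable def sepW (f : Fin n → ℝ → ℝ) : (Fin n → ℝ) → ℝ := fun x => ∏ i, sepPhi f i (x i)

section domain

variable (Ω : Set (Fin n → ℝ)) (u : (Fin n → ℝ) → ℝ) (f : Fin n → ℝ → ℝ)

lemma hess_dom (hΩ : IsOpen Ω) (hsep : ∀ x ∈ Ω, u x = ∑ i, f i (x i)) {x : Fin n → ℝ}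
    (hx : x ∈ Ω) : hess u x = Matrix.diagonal fun i => deriv (deriv (f i)) (x i) := by
  have h1 : Set.EqOn u (sepFun f) Ω := hsep
  have h2 : ∀ j, Set.EqOn (pd j u) (pd j (sepFun f)) Ω := fun j => pd_eqOn_of_eqOn j hΩ h1
  rw [← hess_sep (sepFun f) f (fun _ => rfl) x]
  ext i j
  simp only [hess, Matrix.of_apply]
  exact pd_eqOn_of_eqOn i hΩ (h2 j) hx

lemma pos_dom (hΩ : IsOpen Ω) (hsep : ∀ x ∈ Ω, u x = ∑ i, f i (x i))
    (hpos : ∀ x ∈ Ω, (hess u x).PosDef) {x : Fin n → ℝ} (hx : x ∈ Ω) (i : Fin n) :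
    0 < deriv (deriv (f i)) (x i) := by
  have hp := hpos x hx
  rw [hess_dom Ω u f hΩ hsep hx, Matrix.posDef_diagonal_iff] at hp
  exact hp i

lemma amW_dom (hΩ : IsOpen Ω) (hsep : ∀ x ∈ Ω, u x = ∑ i, f i (x i))
    (hpos : ∀ x ∈ Ω, (hess u x).PosDef) : Set.EqOn (amW u) (sepW f) Ω := by
  intro x hx
  have hd := hess_dom Ω u f hΩ hsep hx
  simp only [amW, hd, Matrix.det_diagonal, sepW, sepPhi, amExp]
  rw [Real.finsetProd_rpow _ _ (fun i _ => (pos_dom Ω u f hΩ hsep hpos hx i).le)]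

lemma sepW_line (x : Fin n → ℝ) (j : Fin n) (t : ℝ) :
    sepW f (x + t • Pi.single j 1)
      = (∏ i ∈ Finset.univ.erase j, sepPhi f i (x i)) * sepPhi f j (x j + t) + 0 := by
  rw [add_zero]
  simp only [sepW]
  rw [← Finset.mul_prod_erase _ _ (Finset.mem_univ j), add_smul_single_apply, if_pos rfl,
    mul_comm]
  congr 1
  refine Finset.prod_congr rfl fun i hi => ?_
  rw [add_smul_single_apply, if_neg (Finset.ne_of_mem_erase hi)]

lemma pd_sepW (j : Fin n) :
    pd j (sepW f) = fun x => (∏ i ∈ Finset.univ.erase j, sepPhi f i (x i))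
      * deriv (sepPhi f j) (x j) := by
  funext x
  exact pd_of_line j (sepW f) x (sepPhi f j) _ 0 (sepW_line f x j)

lemma pd_pd_sepW (j : Fin n) (x : Fin n → ℝ) :
    pd j (pd j (sepW f)) x = (∏ i ∈ Finset.univ.erase j, sepPhi f i (x i))
      * deriv (deriv (sepPhi f j)) (x j) := by
  rw [pd_sepW f j]
  refine pd_of_line j _ x (deriv (sepPhi f j)) _ 0 (fun t => ?_)
  simp only [add_zero]
  rw [add_smul_single_apply, if_pos rfl]
  congr 1
  refine Finset.prod_congr rfl fun i hi => ?_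
  rw [add_smul_single_apply, if_neg (Finset.ne_of_mem_erase hi)]

lemma amOp_dom (hΩ : IsOpen Ω) (hsep : ∀ x ∈ Ω, u x = ∑ i, f i (x i))
    (hpos : ∀ x ∈ Ω, (hess u x).PosDef) {x : Fin n → ℝ} (hx : x ∈ Ω) :
    amOp u x = ∑ i, (∏ k, deriv (deriv (f k)) (x k)) * (deriv (deriv (f i)) (x i))⁻¹
      * ((∏ k ∈ Finset.univ.erase i, sepPhi f k (x k)) * deriv (deriv (sepPhi f i)) (x i)) := by
  have hh := pos_dom Ω u f hΩ hsep hpos hx
  have hinv : (Matrix.diagonal fun i => deriv (deriv (f i)) (x i))⁻¹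
      = Matrix.diagonal fun i => (deriv (deriv (f i)) (x i))⁻¹ := by
    apply Matrix.inv_eq_right_inv
    rw [Matrix.diagonal_mul_diagonal]
    have : (fun i => deriv (deriv (f i)) (x i) * (deriv (deriv (f i)) (x i))⁻¹) = fun _ => 1 := by
      funext i
      exact mul_inv_cancel₀ (hh i).ne'
    rw [this, Matrix.diagonal_one]
  have hW : ∀ i, pd i (pd i (amW u)) x = pd i (pd i (sepW f)) x := fun i =>
    pd_eqOn_of_eqOn i hΩ (pd_eqOn_of_eqOn i hΩ (amW_dom Ω u f hΩ hsep hpos)) hx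
  simp only [amOp, hess_dom Ω u f hΩ hsep hx, hinv, Matrix.det_diagonal, Matrix.smul_apply,
    Matrix.diagonal_apply, smul_eq_mul]
  refine Finset.sum_congr rfl fun i _ => ?_
  rw [Finset.sum_eq_single i]
  · rw [if_pos rfl, hW i, pd_pd_sepW f i x]
  · intro j _ hji
    rw [if_neg (Ne.symm hji)]
    simp
  · intro hi
    exact absurd (Finset.mem_univ i) hi

/-- the separated one-variable quantities -/
noncomputable def sepG (f : Fin n → ℝ → ℝ) (i : Fin n) (s : ℝ) : ℝ :=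
  deriv (deriv (sepPhi f i)) s / (deriv (deriv (f i)) s * sepPhi f i s)

lemma sepPhi_pos_dom (hΩ : IsOpen Ω) (hsep : ∀ x ∈ Ω, u x = ∑ i, f i (x i))
    (hpos : ∀ x ∈ Ω, (hess u x).PosDef) {x : Fin n → ℝ} (hx : x ∈ Ω) (i : Fin n) :
    0 < sepPhi f i (x i) :=
  Real.rpow_pos_of_pos (pos_dom Ω u f hΩ hsep hpos hx i) _

lemma sum_sepG_dom (hΩ : IsOpen Ω) (hsep : ∀ x ∈ Ω, u x = ∑ i, f i (x i))
    (hpos : ∀ x ∈ Ω, (hess u x).PosDef) (hAM : ∀ x ∈ Ω, amOp u x = 0) {x : Fin n → ℝ}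
    (hx : x ∈ Ω) : ∑ i, sepG f i (x i) = 0 := by
  have hh := pos_dom Ω u f hΩ hsep hpos hx
  have hφpos := sepPhi_pos_dom Ω u f hΩ hsep hpos hx
  have h1 := hAM x hx
  rw [amOp_dom Ω u f hΩ hsep hpos hx] at h1
  set H := ∏ k, deriv (deriv (f k)) (x k) with hH
  set Φ := ∏ k, sepPhi f k (x k) with hΦ
  have hHpos : 0 < H := Finset.prod_pos fun k _ => hh k
  have hΦpos : 0 < Φ := Finset.prod_pos fun k _ => hφpos k
  have hterm : ∀ i ∈ Finset.univ, H * (deriv (deriv (f i)) (x i))⁻¹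
      * ((∏ k ∈ Finset.univ.erase i, sepPhi f k (x k)) * deriv (deriv (sepPhi f i)) (x i))
      = H * Φ * sepG f i (x i) := by
    intro i _
    have hP : Φ = sepPhi f i (x i) * ∏ k ∈ Finset.univ.erase i, sepPhi f k (x k) :=
      (Finset.mul_prod_erase _ _ (Finset.mem_univ i)).symm
    have h2 := (hh i).ne'
    have h3 := (hφpos i).ne'
    rw [hP, sepG]
    field_simp
  rw [Finset.sum_congr rfl hterm, ← Finset.mul_sum] at h1
  rcases mul_eq_zero.mp h1 with h | h
  · exact absurd h (mul_pos hHpos hΦpos).ne'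
  · exact h

end domain

lemma amExp_inv_bounds (hn : 0 < n) :
    (amExp n)⁻¹ + 1 < 0 ∧ 0 < (amExp n)⁻¹ + 2 := by
  have h1 : (0:ℝ) < (n : ℝ) := by exact_mod_cast hn
  have hinv : (amExp n)⁻¹ = -((n : ℝ) + 2) / ((n : ℝ) + 1) := by
    unfold amExp
    field_simp
  rw [hinv]
  constructor
  · have : -((n : ℝ) + 2) / ((n : ℝ) + 1) + 1 = -1 / ((n : ℝ) + 1) := by field_simp; ring
    rw [this]
    exact div_neg_of_neg_of_pos (by norm_num) (by linarith)
  · have : -((n : ℝ) + 2) / ((n : ℝ) + 1) + 2 = (n : ℝ) / ((n : ℝ) + 1) := by field_simp; ring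
    rw [this]
    positivity

/-- One-variable lemma: if `g'' > 0` and `(g'')^(-(n+1)/(n+2))` is concave on an open set
containing `[0, b)`, then `g` is bounded on `[0, b)`. -/
lemma ray_bounded (hn : 0 < n) (g : ℝ → ℝ) (T : Set ℝ) (hTo : IsOpen T)
    (hg : ContDiffOn ℝ ∞ g T) (hpos : ∀ t ∈ T, 0 < deriv (deriv g) t)
    (hcc : ∀ t ∈ T, deriv (deriv (fun s => (deriv (deriv g) s) ^ amExp n)) t ≤ 0)
    (b : ℝ) (hb : 0 < b) (hbT : Set.Ico 0 b ⊆ T) :
    ∃ M : ℝ, ∀ t ∈ Set.Ico 0 b, |g t| ≤ M := by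
  classical
  set φ : ℝ → ℝ := fun s => (deriv (deriv g) s) ^ amExp n with hφ
  obtain ⟨hg1, hg1sm⟩ := (contDiffOn_infty_iff_deriv_of_isOpen hTo).mp hg
  obtain ⟨hg2, hg2sm⟩ := (contDiffOn_infty_iff_deriv_of_isOpen hTo).mp hg1sm
  have hφsm : ContDiffOn ℝ ∞ φ T := hg2sm.rpow_const_of_ne (fun t ht => (hpos t ht).ne')
  obtain ⟨hφ1, hφ1sm⟩ := (contDiffOn_infty_iff_deriv_of_isOpen hTo).mp hφsm
  obtain ⟨hφ2, -⟩ := (contDiffOn_infty_iff_deriv_of_isOpen hTo).mp hφ1sm
  have hφpos : ∀ t ∈ T, 0 < φ t := fun t ht => Real.rpow_pos_of_pos (hpos t ht) _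
  have h0T : (0:ℝ) ∈ T := hbT ⟨le_refl 0, hb⟩
  obtain ⟨hp1, hp2⟩ := amExp_inv_bounds hn
  set p : ℝ := (amExp n)⁻¹ with hp
  set m : ℝ := φ 0 / (2 * b) with hm
  have hmpos : 0 < m := div_pos (hφpos 0 h0T) (by linarith)
  -- the lower bound for `φ`
  have hlow : ∀ t ∈ Set.Ico 0 b, m * (b - t) ≤ φ t := by
    intro t ht
    set t' : ℝ := (t + b) / 2 with ht'
    have htt' : t < t' := by rw [ht']; linarith [ht.2]
    have ht'b : t' < b := by rw [ht']; linarith [ht.2]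
    have ht'pos : 0 < t' := lt_of_le_of_lt ht.1 htt'
    have hsub : Set.Icc 0 t' ⊆ T := fun s hs => hbT ⟨hs.1, lt_of_le_of_lt hs.2 ht'b⟩
    have hint : interior (Set.Icc 0 t') ⊆ T := fun s hs => hsub (interior_subset hs)
    have hconc : ConcaveOn ℝ (Set.Icc 0 t') φ :=
      concaveOn_of_deriv2_nonpos (convex_Icc 0 t') (hφsm.continuousOn.mono hsub)
        (hφ1.mono hint) (hφ2.mono hint) (fun x hx => hcc x (hint hx))
    have ha : 0 ≤ 1 - t / t' := by
      rw [sub_nonneg, div_le_one ht'pos]; exact htt'.le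
    have hb' : 0 ≤ t / t' := div_nonneg ht.1 ht'pos.le
    have hc := hconc.2 (Set.left_mem_Icc.mpr ht'pos.le) (Set.right_mem_Icc.mpr ht'pos.le) ha hb'
      (by ring)
    simp only [smul_eq_mul, mul_zero, zero_add] at hc
    have hcancel : t / t' * t' = t := div_mul_cancel₀ t ht'pos.ne'
    rw [hcancel] at hc
    have hφt' : 0 < φ t' := hφpos t' (hsub (Set.right_mem_Icc.mpr ht'pos.le))
    have hφ0 : 0 < φ 0 := hφpos 0 h0T
    have h1 : (1 - t / t') * φ 0 ≤ φ t := by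
      have : 0 ≤ t / t' * φ t' := mul_nonneg hb' hφt'.le
      linarith
    have h2 : m * (b - t) ≤ (1 - t / t') * φ 0 := by
      have hbt : 0 < b - t := by linarith [ht.2]
      have h3 : 1 - t / t' = (b - t) / (b + t) := by
        rw [ht']
        have : (t + b) ≠ 0 := by linarith [ht.1]
        have : (b + t) ≠ 0 := by linarith [ht.1]
        field_simp
        ring
      rw [h3, hm]
      have hbt2 : 0 < b + t := by linarith [ht.1]
      have h4 : (b - t) / (2 * b) ≤ (b - t) / (b + t) :=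
        div_le_div_of_nonneg_left hbt.le hbt2 (by linarith [ht.2])
      have h5 : φ 0 / (2 * b) * (b - t) = (b - t) / (2 * b) * φ 0 := by ring
      rw [h5]
      exact mul_le_mul_of_nonneg_right h4 hφ0.le
    linarith
  -- comparison function
  set ℓ : ℝ → ℝ := fun t => m * (b - t) with hℓ
  have hℓpos : ∀ t, t < b → 0 < ℓ t := fun t ht => mul_pos hmpos (by linarith)
  have hℓd : ∀ t, HasDerivAt ℓ (-m) t := by
    intro t
    have := ((hasDerivAt_id t).const_sub b).const_mul m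
    simpa [hℓ] using this
  set κ : ℝ := 1 / ((p + 2) * (p + 1) * m ^ 2) with hκ
  have hκneg : κ < 0 := by
    rw [hκ]
    apply div_neg_of_pos_of_neg one_pos
    have : 0 < m ^ 2 := by positivity
    nlinarith [mul_pos hp2 this]
  set H : ℝ → ℝ := fun t => κ * ℓ t ^ (p + 2) with hH
  set H1 : ℝ → ℝ := fun t => κ * (-m * (p + 2) * ℓ t ^ (p + 1)) with hH1
  have hHd : ∀ t, t < b → HasDerivAt H (H1 t) t := by
    intro t ht
    have := ((hℓd t).rpow_const (p := p + 2) (Or.inl (hℓpos t ht).ne')).const_mul κ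
    have he : p + 2 - 1 = p + 1 := by ring
    rw [he] at this
    exact this
  have hH1d : ∀ t, t < b → HasDerivAt H1 (ℓ t ^ p) t := by
    intro t ht
    have := (((hℓd t).rpow_const (p := p + 1) (Or.inl (hℓpos t ht).ne')).const_mul
      (-m * (p + 2))).const_mul κ
    have he : p + 1 - 1 = p := by ring
    rw [he] at this
    have hval : κ * (-m * (p + 2) * (-m * (p + 1) * ℓ t ^ p)) = ℓ t ^ p := by
      rw [hκ]
      have h1 : p + 2 ≠ 0 := hp2.ne'
      have h2 : p + 1 ≠ 0 := hp1.ne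
      have h3 : m ≠ 0 := hmpos.ne'
      field_simp
    rw [hval] at this
    exact this
  -- derivatives of g
  have hgd : ∀ t ∈ T, HasDerivAt g (deriv g t) t := fun t ht =>
    ((hg1 t ht).differentiableAt (hTo.mem_nhds ht)).hasDerivAt
  have hg1d : ∀ t ∈ T, HasDerivAt (deriv g) (deriv (deriv g) t) t := fun t ht =>
    ((hg2 t ht).differentiableAt (hTo.mem_nhds ht)).hasDerivAt
  -- g'' ≤ ℓ^p
  have hg2le : ∀ t ∈ Set.Ico 0 b, deriv (deriv g) t ≤ ℓ t ^ p := by
    intro t ht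
    have htT := hbT ht
    have h1 : deriv (deriv g) t = φ t ^ p := by
      rw [hφ, hp]
      exact (Real.rpow_rpow_inv (hpos t htT).le (amExp_ne_zero n)).symm
    rw [h1]
    exact Real.rpow_le_rpow_of_nonpos (hℓpos t ht.2) (hlow t ht) (by linarith)
  set D : ℝ → ℝ := fun t => g t - H t with hD
  set D1 : ℝ → ℝ := fun t => deriv g t - H1 t with hD1
  have hDd : ∀ t ∈ Set.Ico 0 b, HasDerivAt D (D1 t) t := fun t ht =>
    (hgd t (hbT ht)).sub (hHd t ht.2)
  have hD1d : ∀ t ∈ Set.Ico 0 b, HasDerivAt D1 (deriv (deriv g) t - ℓ t ^ p) t := fun t ht =>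
    (hg1d t (hbT ht)).sub (hH1d t ht.2)
  have hintsub : interior (Set.Ico (0:ℝ) b) ⊆ Set.Ico 0 b := interior_subset
  have hanti : AntitoneOn D1 (Set.Ico 0 b) := by
    refine antitoneOn_of_deriv_nonpos (convex_Ico 0 b)
      (fun t ht => (hD1d t ht).continuousAt.continuousWithinAt)
      (fun t ht => (hD1d t (hintsub ht)).differentiableAt.differentiableWithinAt)
      (fun t ht => ?_)
    rw [(hD1d t (hintsub ht)).deriv]
    linarith [hg2le t (hintsub ht)]
  have h0mem : (0:ℝ) ∈ Set.Ico 0 b := ⟨le_refl 0, hb⟩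
  have hupper : ∀ t ∈ Set.Ico 0 b, D t - D 0 ≤ D1 0 * (t - 0) := by
    intro t ht
    refine Convex.image_sub_le_mul_sub_of_deriv_le (convex_Ico 0 b)
      (fun s hs => (hDd s hs).continuousAt.continuousWithinAt)
      (fun s hs => (hDd s (hintsub hs)).differentiableAt.differentiableWithinAt)
      (fun s hs => ?_) 0 h0mem t ht ht.1
    rw [(hDd s (hintsub hs)).deriv]
    exact hanti h0mem (hintsub hs) (hintsub hs).1
  have hmono : MonotoneOn (deriv g) (Set.Ico 0 b) := by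
    refine monotoneOn_of_deriv_nonneg (convex_Ico 0 b)
      (fun t ht => (hg1d t (hbT ht)).continuousAt.continuousWithinAt)
      (fun t ht => (hg1d t (hbT (hintsub ht))).differentiableAt.differentiableWithinAt)
      (fun t ht => ?_)
    rw [(hg1d t (hbT (hintsub ht))).deriv]
    exact (hpos t (hbT (hintsub ht))).le
  have hlower : ∀ t ∈ Set.Ico 0 b, deriv g 0 * (t - 0) ≤ g t - g 0 := by
    intro t ht
    refine Convex.mul_sub_le_image_sub_of_le_deriv (convex_Ico 0 b)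
      (fun s hs => (hgd s (hbT hs)).continuousAt.continuousWithinAt)
      (fun s hs => (hgd s (hbT (hintsub hs))).differentiableAt.differentiableWithinAt)
      (fun s hs => ?_) 0 h0mem t ht ht.1
    exact hmono h0mem (hintsub hs) (hintsub hs).1
  refine ⟨|D 0| + |D1 0| * b + |g 0| + |deriv g 0| * b, fun t ht => ?_⟩
  have hHle : H t ≤ 0 := by
    rw [hH]
    exact mul_nonpos_of_nonpos_of_nonneg hκneg.le (Real.rpow_nonneg (hℓpos t ht.2).le _)
  have hu := hupper t ht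
  have hl := hlower t ht
  have hgt : g t = D t + H t := by rw [hD]; ring
  have e1 : D1 0 * (t - 0) ≤ |D1 0| * b := by
    rw [sub_zero]
    calc D1 0 * t ≤ |D1 0| * t := mul_le_mul_of_nonneg_right (le_abs_self _) ht.1
      _ ≤ |D1 0| * b := mul_le_mul_of_nonneg_left ht.2.le (abs_nonneg _)
  have e2 : -(|deriv g 0| * b) ≤ deriv g 0 * (t - 0) := by
    rw [sub_zero]
    have : -(|deriv g 0| * t) ≤ deriv g 0 * t := by
      have := mul_le_mul_of_nonneg_right (neg_abs_le (deriv g 0)) ht.1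
      linarith
    have : |deriv g 0| * t ≤ |deriv g 0| * b := mul_le_mul_of_nonneg_left ht.2.le (abs_nonneg _)
    linarith
  have a1 := le_abs_self (D 0)
  have a2 := neg_abs_le (g 0)
  have a3 := abs_nonneg (D 0)
  have a4 := abs_nonneg (g 0)
  have a5 : 0 ≤ |D1 0| * b := mul_nonneg (abs_nonneg _) hb.le
  have a6 : 0 ≤ |deriv g 0| * b := mul_nonneg (abs_nonneg _) hb.le
  rw [abs_le]
  constructor <;> linarith


lemma deriv_affine (F : ℝ → ℝ) (c σ : ℝ) :
    deriv (fun t => F (c + σ * t)) = fun t => σ * deriv F (c + σ * t) := by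
  funext t
  have h1 := deriv_comp_mul_left σ (fun y => F (c + y)) t
  simp only [smul_eq_mul] at h1
  rw [h1, deriv_comp_const_add]

lemma deriv2_affine (F : ℝ → ℝ) (c σ : ℝ) (hσ : σ * σ = 1) :
    deriv (deriv (fun t => F (c + σ * t))) = fun t => deriv (deriv F) (c + σ * t) := by
  rw [deriv_affine]
  funext t
  rw [deriv_const_mul_field, deriv_affine (deriv F) c σ, ← mul_assoc, hσ, one_mul]

section line

variable (Ω : Set (Fin n → ℝ)) (u : (Fin n → ℝ) → ℝ) (f : Fin n → ℝ → ℝ)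

/-- the coordinate line through `x` in direction `± e_j` -/
noncomputable def cLine (x : Fin n → ℝ) (j : Fin n) (σ : ℝ) : ℝ → (Fin n → ℝ) :=
  fun t => x + (σ * t) • (Pi.single j (1:ℝ) : Fin n → ℝ)

lemma cLine_continuous (x : Fin n → ℝ) (j : Fin n) (σ : ℝ) : Continuous (cLine x j σ) := by
  unfold cLine; fun_prop

lemma cLine_zero (x : Fin n → ℝ) (j : Fin n) (σ : ℝ) : cLine x j σ 0 = x := by
  simp [cLine]

/-- Facts about the restriction of a separable solution to a coordinate line. -/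
lemma line_facts (hΩ : IsOpen Ω) (hsep : ∀ x ∈ Ω, u x = ∑ i, f i (x i))
    (hsm : ContDiffOn ℝ ∞ u Ω)
    (hpos : ∀ x ∈ Ω, (hess u x).PosDef) (hAM : ∀ x ∈ Ω, amOp u x = 0)
    {x : Fin n → ℝ} (hx : x ∈ Ω) (j : Fin n) (σ : ℝ) (hσ : σ * σ = 1) :
    (∀ t, cLine x j σ t ∈ Ω → u (cLine x j σ t)
        = f j (x j + σ * t) + ∑ i ∈ Finset.univ.erase j, f i (x i)) ∧
    ContDiffOn ℝ ∞ (fun t => f j (x j + σ * t)) {t | cLine x j σ t ∈ Ω} ∧
    (∀ t, cLine x j σ t ∈ Ω → 0 < deriv (deriv (fun t => f j (x j + σ * t))) t) ∧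
    (∀ t, cLine x j σ t ∈ Ω →
      deriv (deriv (fun s => (deriv (deriv (fun t => f j (x j + σ * t))) s) ^ amExp n)) t
        = sepG f j (x j) * (deriv (deriv (fun t => f j (x j + σ * t))) t
          * (deriv (deriv (fun t => f j (x j + σ * t))) t) ^ amExp n)) := by
  classical
  set L : ℝ → (Fin n → ℝ) := cLine x j σ with hL
  have hLsm : ContDiff ℝ ∞ L := by
    rw [hL]
    unfold cLine
    exact contDiff_const.add ((contDiff_const.mul contDiff_id).smul contDiff_const)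
  have hLj : ∀ t, L t j = x j + σ * t := by
    intro t
    simp only [hL, cLine]
    rw [add_smul_single_apply, if_pos rfl]
  have hLi : ∀ t i, i ≠ j → L t i = x i := by
    intro t i hij
    simp only [hL, cLine]
    rw [add_smul_single_apply, if_neg hij]
  set g : ℝ → ℝ := fun t => f j (x j + σ * t) with hg
  set K : ℝ := ∑ i ∈ Finset.univ.erase j, f i (x i) with hK
  have huL : ∀ t, L t ∈ Ω → u (L t) = g t + K := by
    intro t ht
    rw [hsep (L t) ht, ← Finset.add_sum_erase _ _ (Finset.mem_univ j), hLj]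
    congr 1
    exact Finset.sum_congr rfl fun i hi => by rw [hLi t i (Finset.ne_of_mem_erase hi)]
  have hgsm : ContDiffOn ℝ ∞ g {t | L t ∈ Ω} := by
    have h1 : ContDiffOn ℝ ∞ (fun t => u (L t) - K) {t | L t ∈ Ω} :=
      (hsm.comp hLsm.contDiffOn (fun t ht => ht)).sub contDiffOn_const
    exact h1.congr (fun t ht => by rw [huL t ht]; ring)
  have hg2 : deriv (deriv g) = fun t => deriv (deriv (f j)) (x j + σ * t) :=
    deriv2_affine (f j) (x j) σ hσ
  have hφg : (fun s => (deriv (deriv g) s) ^ amExp n) = fun s => sepPhi f j (x j + σ * s) := by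
    funext s
    rw [hg2]
    rfl
  have hφg2 : deriv (deriv (fun s => (deriv (deriv g) s) ^ amExp n))
      = fun t => deriv (deriv (sepPhi f j)) (x j + σ * t) := by
    rw [hφg]
    exact deriv2_affine (sepPhi f j) (x j) σ hσ
  have hposT : ∀ t, L t ∈ Ω → 0 < deriv (deriv g) t := by
    intro t ht
    rw [hg2]
    have := pos_dom Ω u f hΩ hsep hpos ht j
    rw [hLj] at this
    exact this
  have hGconst : ∀ t, L t ∈ Ω → sepG f j (x j + σ * t) = sepG f j (x j) := by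
    intro t ht
    have h1 := sum_sepG_dom Ω u f hΩ hsep hpos hAM ht
    have h2 := sum_sepG_dom Ω u f hΩ hsep hpos hAM hx
    rw [← Finset.add_sum_erase _ _ (Finset.mem_univ j)] at h1 h2
    have h3 : ∑ i ∈ Finset.univ.erase j, sepG f i (L t i)
        = ∑ i ∈ Finset.univ.erase j, sepG f i (x i) :=
      Finset.sum_congr rfl fun i hi => by rw [hLi t i (Finset.ne_of_mem_erase hi)]
    rw [h3, hLj] at h1
    linarith
  refine ⟨huL, hgsm, hposT, fun t ht => ?_⟩
  rw [hφg2, hg2]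
  show deriv (deriv (sepPhi f j)) (x j + σ * t)
    = sepG f j (x j) * (deriv (deriv (f j)) (x j + σ * t)
      * (deriv (deriv (f j)) (x j + σ * t)) ^ amExp n)
  have hp1 := pos_dom Ω u f hΩ hsep hpos ht j
  have hp2 := sepPhi_pos_dom Ω u f hΩ hsep hpos ht j
  rw [hLj] at hp1 hp2
  have hG := hGconst t ht
  have hval : deriv (deriv (sepPhi f j)) (x j + σ * t)
      = sepG f j (x j) * (deriv (deriv (f j)) (x j + σ * t) * sepPhi f j (x j + σ * t)) := by
    rw [← hG, sepG]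
    field_simp
  rw [hval]
  rfl

/-- Along a coordinate ray starting at a point of `Ω` at which the separation constant is
nonpositive, the ray never leaves `Ω` (the graph being closed). -/
lemma ray_mem (hΩ : IsOpen Ω) (hsep : ∀ x ∈ Ω, u x = ∑ i, f i (x i))
    (hsm : ContDiffOn ℝ ∞ u Ω)
    (hpos : ∀ x ∈ Ω, (hess u x).PosDef) (hAM : ∀ x ∈ Ω, amOp u x = 0)
    (hcl : IsClosed {p : (Fin n → ℝ) × ℝ | p.1 ∈ Ω ∧ p.2 = u p.1})
    {x : Fin n → ℝ} (hx : x ∈ Ω) (j : Fin n) (hc : sepG f j (x j) ≤ 0)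
    (σ : ℝ) (hσ : σ * σ = 1) (t₁ : ℝ) (ht₁ : 0 ≤ t₁) :
    cLine x j σ t₁ ∈ Ω := by
  classical
  have hn : 0 < n := j.pos
  obtain ⟨huL, hgsm, hposT, hode⟩ := line_facts Ω u f hΩ hsep hsm hpos hAM hx j σ hσ
  set L : ℝ → (Fin n → ℝ) := cLine x j σ with hL
  have hLcont : Continuous L := cLine_continuous x j σ
  have hL0 : L 0 = x := cLine_zero x j σ
  set T : Set ℝ := {t | L t ∈ Ω} with hT
  have hTo : IsOpen T := hΩ.preimage hLcont
  set g : ℝ → ℝ := fun t => f j (x j + σ * t) with hg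
  set K : ℝ := ∑ i ∈ Finset.univ.erase j, f i (x i) with hK
  have hccT : ∀ t ∈ T, deriv (deriv (fun s => (deriv (deriv g) s) ^ amExp n)) t ≤ 0 := by
    intro t ht
    rw [hode t ht]
    have h1 := hposT t ht
    exact mul_nonpos_of_nonpos_of_nonneg hc
      (mul_pos h1 (Real.rpow_pos_of_pos h1 _)).le
  by_contra hnot
  set S : Set ℝ := {t | 0 ≤ t ∧ L t ∉ Ω} with hS
  have hSne : S.Nonempty := ⟨t₁, ht₁, hnot⟩
  have hSbdd : BddBelow S := ⟨0, fun t ht => ht.1⟩
  have hSclosed : IsClosed S := by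
    have : S = Set.Ici 0 ∩ Tᶜ := by
      ext t
      simp [hS, hT]
    rw [this]
    exact isClosed_Ici.inter hTo.isClosed_compl
  set b : ℝ := sInf S with hb
  have hbS : b ∈ S := hSclosed.csInf_mem hSne hSbdd
  have hb0 : 0 < b := by
    rcases hbS.1.lt_or_eq with h | h
    · exact h
    · exfalso
      apply hbS.2
      rw [← h, hL0]
      exact hx
  have hbT : Set.Ico 0 b ⊆ T := by
    intro t ht
    by_contra hnt
    have : t ∈ S := ⟨ht.1, hnt⟩
    exact absurd (csInf_le hSbdd this) (not_le.mpr ht.2)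
  obtain ⟨M, hM⟩ := ray_bounded hn g T hTo hgsm hposT hccT b hb0 hbT
  set τ : ℕ → ℝ := fun k => b - b / ((k : ℝ) + 2) with hτ
  have hτmem : ∀ k, τ k ∈ Set.Ico 0 b := by
    intro k
    have hk : (0:ℝ) < (k : ℝ) + 2 := by positivity
    have h1 : b / ((k : ℝ) + 2) ≤ b :=
      div_le_self hb0.le (by linarith [Nat.cast_nonneg (α := ℝ) k])
    have h2 : 0 < b / ((k : ℝ) + 2) := div_pos hb0 hk
    exact ⟨by simp only [hτ]; linarith, by simp only [hτ]; linarith⟩
  have hτlim : Filter.Tendsto τ Filter.atTop (𝓝 b) := by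
    have h1 : Filter.Tendsto (fun k : ℕ => b / ((k : ℝ) + 2)) Filter.atTop (𝓝 0) := by
      refine Filter.Tendsto.div_atTop tendsto_const_nhds ?_
      exact Filter.tendsto_atTop_add_const_right _ _ tendsto_natCast_atTop_atTop
    have := (tendsto_const_nhds (x := b)).sub h1
    simpa [hτ] using this
  have hycpt : ∀ k, g (τ k) ∈ Set.Icc (-M) M := fun k => abs_le.mp (hM _ (hτmem k))
  obtain ⟨y, -, ψ, hψ, hylim⟩ := isCompact_Icc.tendsto_subseq hycpt
  have hplim : Filter.Tendsto (fun k => ((L (τ (ψ k)), u (L (τ (ψ k)))) : (Fin n → ℝ) × ℝ))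
      Filter.atTop (𝓝 (L b, y + K)) := by
    refine Filter.Tendsto.prodMk_nhds ?_ ?_
    · exact (hLcont.tendsto b).comp (hτlim.comp hψ.tendsto_atTop)
    · have h2 : (fun k => u (L (τ (ψ k)))) = fun k => (g ∘ τ ∘ ψ) k + K := by
        funext k
        exact huL _ (hbT (hτmem (ψ k)))
      rw [h2]
      exact hylim.add_const K
  have hmem := hcl.mem_of_tendsto hplim (Filter.Eventually.of_forall fun k =>
    (⟨hbT (hτmem (ψ k)), rfl⟩ : (L (τ (ψ k)), u (L (τ (ψ k)))) ∈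
      {p : (Fin n → ℝ) × ℝ | p.1 ∈ Ω ∧ p.2 = u p.1}))
  exact hbS.2 hmem.1

lemma line_mem (hΩ : IsOpen Ω) (hsep : ∀ x ∈ Ω, u x = ∑ i, f i (x i))
    (hsm : ContDiffOn ℝ ∞ u Ω)
    (hpos : ∀ x ∈ Ω, (hess u x).PosDef) (hAM : ∀ x ∈ Ω, amOp u x = 0)
    (hcl : IsClosed {p : (Fin n → ℝ) × ℝ | p.1 ∈ Ω ∧ p.2 = u p.1})
    {x : Fin n → ℝ} (hx : x ∈ Ω) (j : Fin n) (hc : sepG f j (x j) ≤ 0) (t : ℝ) :
    x + t • (Pi.single j (1:ℝ) : Fin n → ℝ) ∈ Ω := by
  rcases le_total 0 t with ht | ht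
  · have := ray_mem Ω u f hΩ hsep hsm hpos hAM hcl hx j hc 1 (by norm_num) t ht
    simpa [cLine] using this
  · have := ray_mem Ω u f hΩ hsep hsm hpos hAM hcl hx j hc (-1) (by norm_num) (-t) (by linarith)
    simpa [cLine] using this

lemma sepG_eq_zero_of_nonpos (hΩ : IsOpen Ω) (hsep : ∀ x ∈ Ω, u x = ∑ i, f i (x i))
    (hsm : ContDiffOn ℝ ∞ u Ω)
    (hpos : ∀ x ∈ Ω, (hess u x).PosDef) (hAM : ∀ x ∈ Ω, amOp u x = 0)
    (hcl : IsClosed {p : (Fin n → ℝ) × ℝ | p.1 ∈ Ω ∧ p.2 = u p.1})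
    {x : Fin n → ℝ} (hx : x ∈ Ω) (j : Fin n) (hc : sepG f j (x j) ≤ 0) :
    sepG f j (x j) = 0 := by
  have hall : ∀ t, cLine x j 1 t ∈ Ω := by
    intro t
    have := line_mem Ω u f hΩ hsep hsm hpos hAM hcl hx j hc t
    simpa [cLine] using this
  obtain ⟨-, hgsm, hposT, hode⟩ := line_facts Ω u f hΩ hsep hsm hpos hAM hx j 1 (by norm_num)
  set g : ℝ → ℝ := fun t => f j (x j + 1 * t) with hg
  have huniv : {t | cLine x j 1 t ∈ Ω} = Set.univ := Set.eq_univ_of_forall hall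
  rw [huniv, contDiffOn_univ] at hgsm
  have hg1sm : ContDiff ℝ ∞ (deriv g) := (contDiff_infty_iff_deriv.mp hgsm).2
  have hg2sm : ContDiff ℝ ∞ (deriv (deriv g)) := (contDiff_infty_iff_deriv.mp hg1sm).2
  set φ : ℝ → ℝ := fun s => (deriv (deriv g) s) ^ amExp n with hφ
  have hφsm : ContDiff ℝ ∞ φ := hg2sm.rpow_const_of_ne (fun s => (hposT s (hall s)).ne')
  have hφ1 : Differentiable ℝ φ := (contDiff_infty_iff_deriv.mp hφsm).1
  have hφ2 : Differentiable ℝ (deriv φ) :=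
    (contDiff_infty_iff_deriv.mp (contDiff_infty_iff_deriv.mp hφsm).2).1
  have hφpos : ∀ s, 0 < φ s := fun s => Real.rpow_pos_of_pos (hposT s (hall s)) _
  have hcc : ∀ s, deriv (deriv φ) s ≤ 0 := by
    intro s
    rw [hode s (hall s)]
    exact mul_nonpos_of_nonpos_of_nonneg hc (mul_pos (hposT s (hall s)) (hφpos s)).le
  have hd := deriv_eq_zero_of_concave_pos φ hφ1 hφ2 hφpos hcc
  have hdd : deriv (deriv φ) 0 = 0 := by
    have : deriv φ = fun _ => 0 := funext hd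
    rw [this]
    simp
  rw [hode 0 (hall 0)] at hdd
  rcases mul_eq_zero.mp hdd with h | h
  · exact h
  · exact absurd h (mul_pos (hposT 0 (hall 0)) (hφpos 0)).ne'

/-- a nonempty set invariant under all coordinate translations is everything -/
lemma eq_univ_of_coord_invariant (hne : Ω.Nonempty)
    (hinv : ∀ x ∈ Ω, ∀ (j : Fin n) (t : ℝ), x + t • (Pi.single j (1:ℝ) : Fin n → ℝ) ∈ Ω) :
    Ω = Set.univ := by
  classical
  obtain ⟨x₀, hx₀⟩ := hne
  refine Set.eq_univ_of_forall fun y => ?_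
  have key : ∀ s : Finset (Fin n), (fun i => if i ∈ s then y i else x₀ i) ∈ Ω := by
    intro s
    induction s using Finset.induction_on with
    | empty => simpa using hx₀
    | insert a s ha ih =>
      have h1 := hinv _ ih a (y a - x₀ a)
      have h2 : (fun i => if i ∈ s then y i else x₀ i) + (y a - x₀ a) • (Pi.single a (1:ℝ) : Fin n → ℝ)
          = fun i => if i ∈ insert a s then y i else x₀ i := by
        funext i
        rw [add_smul_single_apply]
        by_cases hia : i = a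
        · subst hia
          simp [ha]
        · simp [hia]
      rw [h2] at h1
      exact h1
  have := key Finset.univ
  simpa using this

theorem am_separable_complete (hΩ : IsOpen Ω) (hne : Ω.Nonempty)
    (hsep : ∀ x ∈ Ω, u x = ∑ i, f i (x i))
    (hsm : ContDiffOn ℝ ∞ u Ω)
    (hpos : ∀ x ∈ Ω, (hess u x).PosDef) (hAM : ∀ x ∈ Ω, amOp u x = 0)
    (hcl : IsClosed {p : (Fin n → ℝ) × ℝ | p.1 ∈ Ω ∧ p.2 = u p.1}) :
    Ω = Set.univ ∧ ∃ (a b : Fin n → ℝ) (c : ℝ), (∀ i, 0 < a i) ∧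
      ∀ x, u x = ∑ i, (a i * x i ^ 2 + b i * x i) + c := by
  have hinv : ∀ x ∈ Ω, ∀ (j : Fin n) (t : ℝ),
      x + t • (Pi.single j (1:ℝ) : Fin n → ℝ) ∈ Ω := by
    intro x hx
    have hsum := sum_sepG_dom Ω u f hΩ hsep hpos hAM hx
    have hz := fun j (hc : sepG f j (x j) ≤ 0) =>
      sepG_eq_zero_of_nonpos Ω u f hΩ hsep hsm hpos hAM hcl hx j hc
    have hnn : ∀ j, 0 ≤ sepG f j (x j) := by
      intro j
      by_contra hneg
      have hlt : sepG f j (x j) < 0 := not_le.mp hneg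
      have := hz j hlt.le
      linarith
    have h0 : ∀ j, sepG f j (x j) = 0 := fun j =>
      (Finset.sum_eq_zero_iff_of_nonneg (fun i _ => hnn i)).mp hsum j (Finset.mem_univ j)
    intro j t
    exact line_mem Ω u f hΩ hsep hsm hpos hAM hcl hx j (h0 j).le t
  have huniv : Ω = Set.univ := eq_univ_of_coord_invariant Ω hne hinv
  refine ⟨huniv, ?_⟩
  subst huniv
  exact am_separable u f (fun x => hsep x (Set.mem_univ x)) (contDiffOn_univ.mp hsm)
    (fun x => hpos x (Set.mem_univ x)) (fun x => hAM x (Set.mem_univ x))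

end line

end Vale.Agent.H68
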