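import Mathlib
import Vale.Agent.H68.IsoMain

open MeasureTheory Set

namespace Vale.Agent.H68

variable {n : ℕ}

lemma max_mul_nonneg_left (θ d : ℝ) (h : 0 ≤ θ) : max (θ * d) 0 = θ * max d 0 := by
  rw [mul_max_of_nonneg _ _ h, mul_zero]

lemma max_neg_mul_nonneg_left (θ d : ℝ) (h : 0 ≤ θ) : max (-(θ * d)) 0 = θ * max (-d) 0 := by
  rw [mul_max_of_nonneg _ _ h, mul_zero, mul_neg]

lemma max_mul_nonpos_left (θ d : ℝ) (h : θ ≤ 0) : max (θ * d) 0 = (-θ) * max (-d) 0 := by
  rw [mul_max_of_nonneg _ _ (by linarith : (0:ℝ) ≤ -θ), mul_zero, neg_mul_neg]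

lemma max_neg_mul_nonpos_left (θ d : ℝ) (h : θ ≤ 0) : max (-(θ * d)) 0 = (-θ) * max d 0 := by
  rw [mul_max_of_nonneg _ _ (by linarith : (0:ℝ) ≤ -θ), mul_zero, neg_mul]


lemma max_dep_eq (v : Fin (n + 2) → Fin n → ℝ) (k : Fin (n + 2)) :
    max (dep v k) 0 = if 0 < dep v k then dep v k else 0 := by
  split_ifs with h
  · exact max_eq_left h.le
  · exact max_eq_right (not_lt.mp h)

lemma max_neg_dep_eq (v : Fin (n + 2) → Fin n → ℝ) (k : Fin (n + 2)) :
    max (-dep v k) 0 = dneg v k := by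
  unfold dneg
  split_ifs with h
  · exact max_eq_right (by linarith)
  · exact max_eq_left (by linarith [not_lt.mp h])

lemma sum_max_dep (v : Fin (n + 2) → Fin n → ℝ) : ∑ k, max (dep v k) 0 = kap v := by
  unfold kap
  rw [sum_posSet_eq]
  exact Finset.sum_congr rfl fun k _ => max_dep_eq v k

lemma sum_max_dep_sq (v : Fin (n + 2) → Fin n → ℝ) : ∑ k, (max (dep v k) 0) ^ 2 = sqP v := by
  unfold sqP
  rw [sum_posSet_eq]
  refine Finset.sum_congr rfl fun k _ => ?_
  rw [max_dep_eq]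
  split_ifs <;> simp

lemma sum_max_neg_dep (v : Fin (n + 2) → Fin n → ℝ) : ∑ k, max (-dep v k) 0 = kap v := by
  rw [← kap_eq_sum_dneg]
  exact Finset.sum_congr rfl fun k _ => max_neg_dep_eq v k

lemma sum_max_neg_dep_sq (v : Fin (n + 2) → Fin n → ℝ) :
    ∑ k, (max (-dep v k) 0) ^ 2 = sqN v := by
  unfold sqN
  exact Finset.sum_congr rfl fun k _ => by rw [max_neg_dep_eq]

lemma mulVec_eq_zero_of_affine_dep (v : Fin (n + 2) → Fin n → ℝ) (c : Fin (n + 2) → ℝ)
    (hc0 : ∑ k, c k = 0) (hcv : ∑ k, c k • v k = 0) : (liftMat v).mulVec c = 0 := by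
  funext a
  refine Fin.cases ?_ (fun j => ?_) a
  · rw [liftMat_mulVec_zero, hc0]; rfl
  · rw [liftMat_mulVec_succ, hcv]; rfl

/-- the reduction factor expressed through an arbitrary normalised affine dependence -/
lemma rho_eq_of_dependence (v : Fin (n + 2) → Fin n → ℝ) (hd : dep v ≠ 0)
    (c : Fin (n + 2) → ℝ) (hc0 : ∑ k, c k = 0) (hcv : ∑ k, c k • v k = 0)
    (hc1 : ∑ k, max (c k) 0 = 1) :
    rho v = 1 - (1 - ∑ k, (max (c k) 0) ^ 2) * (1 - ∑ k, (max (-c k) 0) ^ 2) := by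
  obtain ⟨θ, hθ⟩ := eq_smul_dep v hd c (mulVec_eq_zero_of_affine_dep v c hc0 hcv)
  have hk := kap_pos v hd
  have hck : ∀ k, c k = θ * dep v k := fun k => by rw [hθ]; rfl
  have hrho := one_sub_rho v hd
  rcases lt_trichotomy θ 0 with hneg | hzero | hpos
  · -- negative multiple: positive part of `c` is `|θ|` times the negative part of `dep`
    have h1 : ∀ k, max (c k) 0 = (-θ) * max (-dep v k) 0 := by
      intro k
      rw [hck k, max_mul_nonpos_left _ _ hneg.le]
    have h2 : ∀ k, max (-c k) 0 = (-θ) * max (dep v k) 0 := by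
      intro k
      rw [hck k, max_neg_mul_nonpos_left _ _ hneg.le]
    have hθk : (-θ) * kap v = 1 := by
      rw [← hc1, ← sum_max_neg_dep, Finset.mul_sum]
      exact Finset.sum_congr rfl fun k _ => (h1 k).symm
    have hθeq : -θ = 1 / kap v := by field_simp; linarith
    have s1 : ∑ k, (max (c k) 0) ^ 2 = sqN v / (kap v) ^ 2 := by
      simp_rw [h1, mul_pow]
      rw [← Finset.mul_sum, sum_max_neg_dep_sq, hθeq]
      field_simp
    have s2 : ∑ k, (max (-c k) 0) ^ 2 = sqP v / (kap v) ^ 2 := by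
      simp_rw [h2, mul_pow]
      rw [← Finset.mul_sum, sum_max_dep_sq, hθeq]
      field_simp
    rw [s1, s2]
    linarith [mul_comm (1 - sqP v / kap v ^ 2) (1 - sqN v / kap v ^ 2)]
  · exfalso
    have : ∀ k, max (c k) 0 = 0 := by
      intro k
      rw [hck k, hzero, zero_mul, max_self]
    simp [this] at hc1
  · have h1 : ∀ k, max (c k) 0 = θ * max (dep v k) 0 := by
      intro k
      rw [hck k, max_mul_nonneg_left _ _ hpos.le]
    have h2 : ∀ k, max (-c k) 0 = θ * max (-dep v k) 0 := by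
      intro k
      rw [hck k, max_neg_mul_nonneg_left _ _ hpos.le]
    have hθk : θ * kap v = 1 := by
      rw [← hc1, ← sum_max_dep, Finset.mul_sum]
      exact Finset.sum_congr rfl fun k _ => (h1 k).symm
    have hθeq : θ = 1 / kap v := by field_simp; linarith
    have s1 : ∑ k, (max (c k) 0) ^ 2 = sqP v / (kap v) ^ 2 := by
      simp_rw [h1, mul_pow]
      rw [← Finset.mul_sum, sum_max_dep_sq, hθeq]
      field_simp
    have s2 : ∑ k, (max (-c k) 0) ^ 2 = sqN v / (kap v) ^ 2 := by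
      simp_rw [h2, mul_pow]
      rw [← Finset.mul_sum, sum_max_neg_dep_sq, hθeq]
      field_simp
    rw [s1, s2]
    linarith

/-- a normalised affine dependence exists -/
lemma exists_dependence (v : Fin (n + 2) → Fin n → ℝ) (hd : dep v ≠ 0) :
    ∃ c : Fin (n + 2) → ℝ, ∑ k, c k = 0 ∧ ∑ k, c k • v k = 0 ∧ ∑ k, max (c k) 0 = 1 := by
  have hk := kap_pos v hd
  refine ⟨fun k => (1 / kap v) * dep v k, ?_, ?_, ?_⟩
  · rw [← Finset.mul_sum, sum_dep, mul_zero]
  · funext j
    have h := congrFun (liftMat_mulVec_dep v) j.succ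
    rw [liftMat_mulVec_succ] at h
    have h2 : (∑ k, ((1 / kap v) * dep v k) • v k) j = (1 / kap v) * (∑ k, dep v k • v k) j := by
      simp only [Finset.sum_apply, Pi.smul_apply, smul_eq_mul, Finset.mul_sum]
      exact Finset.sum_congr rfl fun k _ => by ring
    rw [h2, h]
    simp
  · have : ∀ k, max ((1 / kap v) * dep v k) 0 = (1 / kap v) * max (dep v k) 0 := by
      intro k
      rw [max_mul_nonneg_left _ _ (by positivity : (0:ℝ) ≤ 1 / kap v)]
    simp_rw [this]
    rw [← Finset.mul_sum, sum_max_dep]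
    field_simp

/-- Exact formula for the isotropic constant of a polytope with `n + 2` vertices. -/
theorem iso_formula (hn : 0 < n) (v : Fin (n + 2) → Fin n → ℝ)
    (hint : (interior (convexHull ℝ (Set.range v))).Nonempty)
    (w : Fin (n + 1) → Fin n → ℝ) (hw : AffineIndependent ℝ w) :
    (∃ c : Fin (n + 2) → ℝ, ∑ k, c k = 0 ∧ ∑ k, c k • v k = 0 ∧ ∑ k, max (c k) 0 = 1) ∧
    ∀ c : Fin (n + 2) → ℝ, ∑ k, c k = 0 → ∑ k, c k • v k = 0 → ∑ k, max (c k) 0 = 1 →
      isoConst (convexHull ℝ (Set.range v)) ^ (2 * n)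
        = isoConst (convexHull ℝ (Set.range w)) ^ (2 * n)
          * (1 - (1 - ∑ k, (max (c k) 0) ^ 2) * (1 - ∑ k, (max (-c k) 0) ^ 2)) := by
  have hd := dep_ne_zero_of_interior v hint
  refine ⟨exists_dependence v hd, fun c hc0 hcv hc1 => ?_⟩
  have hK : (covMatrix (convexHull ℝ (Set.range v))).det / (vol (convexHull ℝ (Set.range v))) ^ 2
      = cn n * rho v := isoRatio_polytope v hd
  have hS : (covMatrix (convexHull ℝ (Set.range w))).det / (vol (convexHull ℝ (Set.range w))) ^ 2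
      = cn n := isoRatio_simplex w (det_ne_zero_of_affineIndependent w hw)
  have hn' : (0:ℝ) < n := by exact_mod_cast hn
  have hc := cn_pos n
  have hr := rho_pos v hd
  have hpow : ∀ x : ℝ, 0 ≤ x → (x ^ (1 / (2 * (n : ℝ)))) ^ (2 * n) = x := by
    intro x hx
    rw [← Real.rpow_natCast, ← Real.rpow_mul hx]
    have : 1 / (2 * (n : ℝ)) * ((2 * n : ℕ) : ℝ) = 1 := by
      push_cast
      field_simp
    rw [this, Real.rpow_one]
  unfold isoConst
  rw [hK, hS, hpow _ (by positivity), hpow _ hc.le, rho_eq_of_dependence v hd c hc0 hcv hc1]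

end Vale.Agent.H68
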